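import Mathlib
import Vale.Agent.Lib.P084.Dens.Good
import Vale.Agent.Lib.P084.Cartan.Convex

/-! Second order data at one point, without any smoothness elsewhere. -/

namespace Vale.Agent.Lib.P084.Thm

open Set Metric Filter Topology
open Vale.Agent.Lib.P084 Vale.Agent.Lib.P084.Str Vale.Agent.Lib.P084.Dens

section Conv

variable {E : Type*} [NormedAddCommGroup E] [NormedSpace ℝ E]

/-- The gradient is the only norming functional at a point of differentiability. -/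
lemma dif_of_diff {z : E} (hd : DifferentiableAt ℝ (fun y : E => ‖y‖) z) : Cartan.Dif (chi z) z := by
  refine ⟨⟨chi_norm_le z, hd.fderiv_norm_self⟩, fun ψ hψ => ?_⟩
  exact (functional_eq_of_differentiableAt hd (chi_norm_le z) hψ.1 hd.fderiv_norm_self hψ.2).symm

/-- Strict differentiability at a point of differentiability. -/
lemma strict_at [FiniteDimensional ℝ E] [Nontrivial E] {q : E}
    (hd : DifferentiableAt ℝ (fun y : E => ‖y‖) q) {ε : ℝ} (hε : 0 < ε) :
    ∃ δ : ℝ, 0 < δ ∧ ∀ v v' : E, ‖v - q‖ < δ → ‖v' - q‖ < δ →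
      |‖v'‖ - ‖v‖ - chi q (v' - v)| ≤ ε * ‖v' - v‖ := by
  obtain ⟨δ, hδ, hb⟩ := Cartan.strict_compact (K := {q}) isCompact_singleton (φ := chi q)
    (by simpa using dif_of_diff hd) hε
  refine ⟨δ, hδ, fun v v' hv hv' => ?_⟩
  have h1 := hb q rfl (v' - q) (v - q) hv'.le hv.le
  have e1 : q + (v' - q) = v' := by abel
  have e2 : q + (v - q) = v := by abel
  have e3 : v' - q - (v - q) = v' - v := by abel
  rwa [e1, e2, e3] at h1

/-- The point of the sphere over a small tangent vector. -/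
lemma exists_n' {x₀ w : E} (hself : chi x₀ x₀ = 1) (hx₀ : ‖x₀‖ = 1) (hw : chi x₀ w = 0)
    (hw2 : 2 * ‖w‖ ≤ 1) : ∃ n : ℝ, 0 ≤ n ∧ n ≤ 2 * ‖w‖ ∧ ‖(1 - n) • x₀ + w‖ = 1 := by
  have hcont : ContinuousOn (fun n : ℝ => ‖(1 - n) • x₀ + w‖) (Icc 0 (2 * ‖w‖)) := by
    refine Continuous.continuousOn ?_
    fun_prop
  have h0 : 0 ≤ 2 * ‖w‖ := by positivity
  have h1 : (1 : ℝ) ≤ ‖(1 - (0 : ℝ)) • x₀ + w‖ := by
    have := chi_le x₀ ((1 - (0 : ℝ)) • x₀ + w)
    rw [map_add, map_smul, hself, hw] at this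
    simpa using this
  have h2 : ‖(1 - 2 * ‖w‖) • x₀ + w‖ ≤ 1 := by
    refine (norm_add_le _ _).trans ?_
    rw [norm_smul, hx₀, Real.norm_of_nonneg (by linarith)]
    linarith [norm_nonneg w]
  obtain ⟨n, hn, hn1⟩ := intermediate_value_Icc' h0 hcont ⟨h2, h1⟩
  exact ⟨n, hn.1, hn.2, hn1⟩

end Conv

section Chord

variable {X Y : Type*} [NormedAddCommGroup X] [NormedSpace ℝ X]
  [NormedAddCommGroup Y] [NormedSpace ℝ Y] {g : X → Y} {h : Y → X} {x₀ : X} {A : X →L[ℝ] Y}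

/-- **First order transfer along a chord.** -/
lemma chord_first (H : SphereIso g h) (hd : DifferentiableAt ℝ (fun z : X => ‖z‖) x₀)
    (hx₀ : ‖x₀‖ = 1) (hA : A x₀ = g x₀) (hO : BigO g x₀ A) {u w : X} (hu : ‖u‖ = 1)
    (hw : chi x₀ w = 0) {ε : ℝ} (hε : 0 < ε) :
    ∃ s₀ : ℝ, 0 < s₀ ∧ ∀ s : ℝ, 0 < s → s < s₀ →
      |‖(g x₀ - g u) + s • A w‖ - ‖(x₀ - u) + s • w‖| ≤ ε * s := by
  have h1 := hasDerivAt_iff_isLittleO_nhds_zero.1 (curve_deriv' hd hx₀ hw)
  have h2 := hasDerivAt_iff_isLittleO_nhds_zero.1 (image_deriv' hd hx₀ hA hO hw (0 : Y))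
  have h3 := Asymptotics.isLittleO_iff.1 h1 (half_pos hε)
  have h4 := Asymptotics.isLittleO_iff.1 h2 (half_pos hε)
  obtain ⟨s₀, hs₀, hb⟩ := Metric.eventually_nhds_iff.1 (h3.and h4)
  refine ⟨s₀, hs₀, fun s hs hss => ?_⟩
  obtain ⟨h5, h6⟩ := @hb s (by rw [Real.dist_eq, sub_zero, abs_of_pos hs]; exact hss)
  simp only [zero_add, curve_zero hx₀, sub_zero, Real.norm_eq_abs, abs_of_pos hs] at h5 h6
  have hiso := H.iso _ _ (curve_unit' hd hx₀ hw s) hu
  have e1 : (g x₀ - g u) + s • A w = (g (curve x₀ w s) - g u) -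
      (g (curve x₀ w s) - g x₀ - s • A w) := by abel
  have e2 : (x₀ - u) + s • w = (curve x₀ w s - u) - (curve x₀ w s - x₀ - s • w) := by abel
  rw [e1, e2]
  have h7 := abs_norm_sub_norm_le ((g (curve x₀ w s) - g u) - (g (curve x₀ w s) - g x₀ - s • A w))
    (g (curve x₀ w s) - g u)
  have h8 := abs_norm_sub_norm_le ((curve x₀ w s - u) - (curve x₀ w s - x₀ - s • w))
    (curve x₀ w s - u)
  rw [sub_sub_cancel_left, norm_neg] at h7 h8
  rw [hiso] at h7
  rw [abs_le] at h7 h8 ⊢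
  constructor <;> linarith [h7.1, h7.2, h8.1, h8.2]

/-- The derivative of the norm along a chord, at a chord of differentiability. -/
lemma first_chord' (H : SphereIso g h) (hd : DifferentiableAt ℝ (fun z : X => ‖z‖) x₀)
    (hx₀ : ‖x₀‖ = 1) (hA : A x₀ = g x₀) (hO : BigO g x₀ A) {u w : X} (hu : ‖u‖ = 1)
    (hw : chi x₀ w = 0) (hp : DifferentiableAt ℝ (fun z : X => ‖z‖) (x₀ - u))
    (hp' : DifferentiableAt ℝ (fun z : Y => ‖z‖) (g x₀ - g u)) :
    chi (g x₀ - g u) (A w) = chi (x₀ - u) w := by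
  have hl : HasDerivAt (fun s : ℝ => (x₀ - u) + s • w) w 0 := by
    simpa using ((hasDerivAt_id (0 : ℝ)).smul_const w).const_add (x₀ - u)
  have hl' : HasDerivAt (fun s : ℝ => (g x₀ - g u) + s • A w) (A w) 0 := by
    simpa using ((hasDerivAt_id (0 : ℝ)).smul_const (A w)).const_add (g x₀ - g u)
  have h1 : HasDerivAt (fun s : ℝ => ‖(x₀ - u) + s • w‖) (chi (x₀ - u) w) 0 :=
    HasFDerivAt.comp_hasDerivAt_of_eq (0 : ℝ) hp.hasFDerivAt hl (by simp)
  have h2 : HasDerivAt (fun s : ℝ => ‖(g x₀ - g u) + s • A w‖) (chi (g x₀ - g u) (A w)) 0 :=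
    HasFDerivAt.comp_hasDerivAt_of_eq (0 : ℝ) hp'.hasFDerivAt hl' (by simp)
  have h3 := h1.tendsto_slope_zero_right
  have h4 := h2.tendsto_slope_zero_right
  refine tendsto_nhds_unique h4 ?_
  have h5 : Tendsto (fun s : ℝ => s⁻¹ • (‖(g x₀ - g u) + s • A w‖ - ‖(x₀ - u) + s • w‖))
      (𝓝[>] 0) (𝓝 0) := by
    rw [Metric.tendsto_nhds]
    intro ε hε
    obtain ⟨s₀, hs₀, hb⟩ := chord_first H hd hx₀ hA hO hu hw (half_pos hε)
    have hev : ∀ᶠ s : ℝ in 𝓝[>] 0, s < s₀ := nhdsWithin_le_nhds (gt_mem_nhds hs₀)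
    filter_upwards [hev, self_mem_nhdsWithin] with s h6 h7
    have h7' : 0 < s := h7
    have h8 := hb s h7' h6
    rw [dist_zero_right, norm_smul, norm_inv, Real.norm_of_nonneg h7'.le, Real.norm_eq_abs,
      inv_mul_lt_iff₀ h7']
    nlinarith
  have h6 := h3.add h5
  rw [add_zero] at h6
  refine h6.congr fun s => ?_
  have hnorm : ‖g x₀ - g u‖ = ‖x₀ - u‖ := H.iso _ _ hx₀ hu
  simp only [zero_add, zero_smul, add_zero, hnorm, smul_eq_mul]
  ring

end Chord

section TB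

variable {X Y : Type*} [NormedAddCommGroup X] [NormedSpace ℝ X]
  [NormedAddCommGroup Y] [NormedSpace ℝ Y]

/-- **The data of a second order base point.** -/
structure TB (g : X → Y) (h : Y → X) (p : X) (A : X →L[ℝ] Y) (Λ : Y →L[ℝ] X)
    (BB : X →L[ℝ] X →L[ℝ] Y) (HH : X →L[ℝ] X →L[ℝ] ℝ) : Prop where
  iso : SphereIso g h
  unit : ‖p‖ = 1
  dX : DifferentiableAt ℝ (fun z : X => ‖z‖) p
  dY : DifferentiableAt ℝ (fun z : Y => ‖z‖) (g p)
  Ax : A p = g p
  left : ∀ x, Λ (A x) = x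
  right : ∀ y, A (Λ y) = y
  T_exp : ∀ ε : ℝ, 0 < ε → ∀ᶠ y in 𝓝 p, ‖y‖ = 1 →
    ‖g y - A y - (1 / 2 : ℝ) • BB (y - p) (y - p)‖ ≤ ε * ‖y - p‖ ^ 2
  N_exp : ∀ ε : ℝ, 0 < ε → ∀ᶠ z in 𝓝 p,
    |‖z‖ - chi p z - (1 / 2 : ℝ) * HH (z - p) (z - p)| ≤ ε * ‖z - p‖ ^ 2
  B_sym : ∀ a b, BB a b = BB b a
  B_x : ∀ b, BB p b = 0
  H_sym : ∀ a b, HH a b = HH b a
  H_x : ∀ b, HH p b = 0
  H_pos : ∀ w, chi p w = 0 → w ≠ 0 → 0 < HH w w

variable {g : X → Y} {h : Y → X} {p : X} {A : X →L[ℝ] Y} {Λ : Y →L[ℝ] X}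
  {BB : X →L[ℝ] X →L[ℝ] Y} {HH : X →L[ℝ] X →L[ℝ] ℝ}

lemma TB.p_ne (P : TB g h p A Λ BB HH) : p ≠ 0 := by
  intro h0
  have := P.unit
  rw [h0, norm_zero] at this
  exact zero_ne_one this

lemma TB.nontrivial (P : TB g h p A Λ BB HH) : Nontrivial X := ⟨⟨p, 0, P.p_ne⟩⟩

lemma TB.y_unit (P : TB g h p A Λ BB HH) : ‖g p‖ = 1 := P.iso.map_g _ P.unit

lemma TB.y_ne (P : TB g h p A Λ BB HH) : g p ≠ 0 := by
  intro h0
  have := P.y_unit
  rw [h0, norm_zero] at this
  exact zero_ne_one this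

lemma TB.nontrivialY (P : TB g h p A Λ BB HH) : Nontrivial Y := ⟨⟨g p, 0, P.y_ne⟩⟩

lemma TB.phi_self (P : TB g h p A Λ BB HH) : chi p p = 1 := chi_self_unit P.dX P.unit

lemma TB.Phi_self (P : TB g h p A Λ BB HH) : chi (g p) (g p) = 1 := chi_self_unit P.dY P.y_unit

lemma TB.hgx (P : TB g h p A Λ BB HH) : h (g p) = p := P.iso.left _ P.unit

lemma TB.Lx (P : TB g h p A Λ BB HH) : Λ (g p) = p := by
  rw [← P.Ax, P.left]

lemma TB.B_x' (P : TB g h p A Λ BB HH) (a : X) : BB a p = 0 := by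
  rw [P.B_sym, P.B_x]

lemma TB.H_x' (P : TB g h p A Λ BB HH) (a : X) : HH a p = 0 := by
  rw [P.H_sym, P.H_x]

lemma TB.norm_bb (_P : TB g h p A Λ BB HH) (z : X) : ‖BB z z‖ ≤ ‖BB‖ * ‖z‖ ^ 2 := by
  have h1 := BB.le_opNorm₂ z z
  calc _ ≤ _ := h1
    _ = _ := by ring

lemma TB.abs_hh (_P : TB g h p A Λ BB HH) (z : X) : |HH z z| ≤ ‖HH‖ * ‖z‖ ^ 2 := by
  have h1 := HH.le_opNorm₂ z z
  rw [Real.norm_eq_abs] at h1
  calc _ ≤ _ := h1
    _ = _ := by ring

/-- The second order approximation gives a bound of order two. -/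
lemma TB.bigO (P : TB g h p A Λ BB HH) : BigO g p A := by
  refine ⟨‖BB‖ + 1, ?_⟩
  filter_upwards [P.T_exp 1 one_pos] with y hy hy1
  have h1 := hy hy1
  have e : g y - A y = (g y - A y - (1 / 2 : ℝ) • BB (y - p) (y - p)) +
      (1 / 2 : ℝ) • BB (y - p) (y - p) := by abel
  rw [e]
  refine (norm_add_le _ _).trans ?_
  rw [norm_smul]
  have h2 := P.norm_bb (y - p)
  have h3 : 0 ≤ ‖BB‖ * ‖y - p‖ ^ 2 := by positivity
  norm_num at *
  linarith

variable [FiniteDimensional ℝ X]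

/-- `A` preserves the norm on the tangent hyperplane. -/
lemma TB.normA (P : TB g h p A Λ BB HH) {w : X} (hw : chi p w = 0) : ‖A w‖ = ‖w‖ :=
  first_norm' P.iso P.dX P.unit P.Ax P.bigO hw

/-- `Φ₀ ∘ A = φ₀`. -/
lemma TB.Phi (P : TB g h p A Λ BB HH) (z : X) : chi (g p) (A z) = chi p z := by
  have := P.nontrivial
  have hself := P.phi_self
  have hself' := P.Phi_self
  have hP : ∀ w, chi p w = 0 → chi (g p) (A w) = chi p w := by
    intro w hw
    have hd1 : DifferentiableAt ℝ (fun z : X => ‖z‖) (p - -p) := by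
      have e : p - -p = (2 : ℝ) • p := by
        rw [two_smul]
        abel
      rw [e]
      exact (P.dX.hasFDerivAt.hasFDerivAt_norm_smul_pos two_pos).differentiableAt
    have hd2 : DifferentiableAt ℝ (fun z : Y => ‖z‖) (g p - g (-p)) := by
      have e : g p - g (-p) = (2 : ℝ) • g p := by
        rw [sphere_odd P.iso P.unit, two_smul]
        abel
      rw [e]
      exact (P.dY.hasFDerivAt.hasFDerivAt_norm_smul_pos two_pos).differentiableAt
    have h1 := first_chord' P.iso P.dX P.unit P.Ax P.bigO (u := -p) (by rw [norm_neg]; exact P.unit)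
      hw hd1 hd2
    rw [sphere_odd P.iso P.unit] at h1
    have e1 : g p - -g p = (2 : ℝ) • g p := by
      rw [two_smul]
      abel
    have e2 : p - -p = (2 : ℝ) • p := by
      rw [two_smul]
      abel
    rwa [e1, e2, chi_smul two_pos, chi_smul two_pos] at h1
  have hz : chi p (z - chi p z • p) = 0 := by
    rw [map_sub, map_smul, hself]
    simp
  have h1 := hP _ hz
  rw [hz] at h1
  have e : z = (z - chi p z • p) + chi p z • p := by abel
  rw [e, map_add, map_add, map_add, hz, h1, map_smul, map_smul, map_smul, P.Ax, hself, hself']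

lemma TB.PhiL (P : TB g h p A Λ BB HH) (z : Y) : chi p (Λ z) = chi (g p) z := by
  rw [← P.Phi, P.right]

end TB

section Make

variable {X Y : Type*} [NormedAddCommGroup X] [NormedSpace ℝ X]
  [NormedAddCommGroup Y] [NormedSpace ℝ Y] {g : X → Y} {h : Y → X} {p : X} {A : X →L[ℝ] Y}
  {BB : X →L[ℝ] X →L[ℝ] Y} {HH : X →L[ℝ] X →L[ℝ] ℝ}
  [FiniteDimensional ℝ X] [FiniteDimensional ℝ Y]

/-- From a good point to the data of a base point. -/
theorem tb_of_good (H : SphereIso g h) (P : Good g p A BB HH) (hY : Far.Reg (g p)) :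
    ∃ Λ : Y →L[ℝ] X, TB g h p A Λ BB HH := by
  have hu := P.unit
  have hdX := reg_differentiable hu P.reg
  have hdY := reg_differentiable (H.map_g _ hu) hY
  have hO : BigO g p A := by
    refine ⟨‖BB‖ + 1, ?_⟩
    filter_upwards [P.T_unit one_pos] with y hy hy1
    have h1 := hy hy1
    have e : g y - A y = (g y - A y - (1 / 2 : ℝ) • BB (y - p) (y - p)) +
        (1 / 2 : ℝ) • BB (y - p) (y - p) := by abel
    rw [e]
    refine (norm_add_le _ _).trans ?_
    rw [norm_smul]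
    have h2 : ‖BB (y - p) (y - p)‖ ≤ ‖BB‖ * ‖y - p‖ ^ 2 := by
      have h3 := BB.le_opNorm₂ (y - p) (y - p)
      calc _ ≤ _ := h3
        _ = _ := by ring
    have h3 : 0 ≤ ‖BB‖ * ‖y - p‖ ^ 2 := by positivity
    norm_num at *
    linarith
  -- injectivity, via a first form of the data
  have hp0 : p ≠ 0 := by
    rintro rfl
    simp at hu
  have hinj : Function.Injective A := by
    rw [injective_iff_map_eq_zero]
    intro z hz
    -- use the tangential isometry and the normal part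
    have hself : chi p p = 1 := chi_self_unit hdX hu
    have htan : chi p (z - chi p z • p) = 0 := by
      rw [map_sub, map_smul, hself]
      simp
    have h1 := first_norm' H hdX hu P.Ax hO htan
    have hself' : chi (g p) (g p) = 1 := chi_self_unit hdY (H.map_g _ hu)
    have : Nontrivial X := ⟨⟨p, 0, hp0⟩⟩
    have hP : ∀ w, chi p w = 0 → chi (g p) (A w) = 0 := by
      intro w hw
      have hd1 : DifferentiableAt ℝ (fun z : X => ‖z‖) (p - -p) := by
        have e : p - -p = (2 : ℝ) • p := by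
          rw [two_smul]
          abel
        rw [e]
        exact (hdX.hasFDerivAt.hasFDerivAt_norm_smul_pos two_pos).differentiableAt
      have hd2 : DifferentiableAt ℝ (fun z : Y => ‖z‖) (g p - g (-p)) := by
        have e : g p - g (-p) = (2 : ℝ) • g p := by
          rw [sphere_odd H hu, two_smul]
          abel
        rw [e]
        exact (hdY.hasFDerivAt.hasFDerivAt_norm_smul_pos two_pos).differentiableAt
      have h2 := first_chord' H hdX hu P.Ax hO (u := -p) (by rw [norm_neg]; exact hu) hw hd1 hd2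
      rw [sphere_odd H hu] at h2
      have e1 : g p - -g p = (2 : ℝ) • g p := by
        rw [two_smul]
        abel
      have e2 : p - -p = (2 : ℝ) • p := by
        rw [two_smul]
        abel
      rw [e1, e2, chi_smul two_pos, chi_smul two_pos, hw] at h2
      exact h2
    have h2 := hP _ htan
    rw [map_sub, map_sub, map_smul, map_smul, hz, P.Ax, map_zero, hself', smul_eq_mul, mul_one] at h2
    have h3 : chi p z = 0 := by linarith
    rw [h3, zero_smul, sub_zero, hz, norm_zero] at h1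
    exact norm_eq_zero.1 h1.symm
  have hsurj : Function.Surjective A :=
    (LinearMap.injective_iff_surjective_of_finrank_eq_finrank (f := (A : X →ₗ[ℝ] Y))
      (Far.finrank_eq H)).1 hinj
  let e : X ≃L[ℝ] Y := (LinearEquiv.ofBijective (A : X →ₗ[ℝ] Y) ⟨hinj, hsurj⟩).toContinuousLinearEquiv
  have he : ∀ x, e x = A x := fun x => rfl
  refine ⟨(e.symm : Y →L[ℝ] X), ?_⟩
  refine { iso := H, unit := hu, dX := hdX, dY := hdY, Ax := P.Ax, left := ?_, right := ?_,
           T_exp := fun ε hε => P.T_unit hε, N_exp := ?_, B_sym := P.B_sym, B_x := P.B_x,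
           H_sym := P.H_sym, H_x := P.H_x, H_pos := P.H_pos }
  · intro x
    rw [← he]
    simp
  · intro y
    rw [← he]
    simp
  · intro ε hε
    obtain ⟨ρ, hρ, hb⟩ := P.N_exp ε hε
    refine Metric.eventually_nhds_iff.2 ⟨ρ, hρ, fun {z} hz => ?_⟩
    have h1 := hb z (by rwa [dist_eq_norm] at hz)
    have e0 : chi p (z - p) = chi p z - 1 := by
      rw [map_sub, chi_self_unit hdX hu]
    rw [Real.norm_eq_abs, e0, smul_eq_mul] at h1
    have h1' : |‖z‖ - ‖p‖ - (chi p z - 1) - (1 / 2 : ℝ) * HH (z - p) (z - p)| ≤ ε * ‖z - p‖ ^ 2 := h1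
    rw [hu] at h1'
    have e1 : ‖z‖ - 1 - (chi p z - 1) - (1 / 2 : ℝ) * HH (z - p) (z - p) =
        ‖z‖ - chi p z - (1 / 2 : ℝ) * HH (z - p) (z - p) := by ring
    rw [e1] at h1'
    exact h1'

end Make

end Vale.Agent.Lib.P084.Thm
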