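import Mathlib
import Vale.Agent.Lib.P084.Thm.Mid

/-! Short chords at a second order base point. -/

namespace Vale.Agent.Lib.P084.Thm

open Set Metric Filter Topology
open Vale.Agent.Lib.P084 Vale.Agent.Lib.P084.Str Vale.Agent.Lib.P084.Dens

section Short

variable {X Y : Type*} [NormedAddCommGroup X] [NormedSpace ℝ X]
  [NormedAddCommGroup Y] [NormedSpace ℝ Y] {g : X → Y} {h : Y → X} {p : X} {A : X →L[ℝ] Y}
  {Λ : Y →L[ℝ] X} {BB : X →L[ℝ] X →L[ℝ] Y} {HH : X →L[ℝ] X →L[ℝ] ℝ}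

/-- The decomposition of a vector into its tangent and normal parts. -/
lemma TB.B_tan (P : TB g h p A Λ BB HH) (n : ℝ) (w : X) :
    BB (w - n • p) (w - n • p) = BB w w := by
  simp only [map_sub, map_smul, _root_.sub_apply, _root_.smul_apply, P.B_x, P.B_x', smul_zero,
    sub_zero]

lemma TB.H_tan (P : TB g h p A Λ BB HH) (n : ℝ) (w : X) :
    HH (w - n • p) (w - n • p) = HH w w := by
  simp only [map_sub, map_smul, _root_.sub_apply, _root_.smul_apply, P.H_x, P.H_x', smul_zero,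
    sub_zero]

/-- Expansions at the points of the sphere near the base point. -/
lemma TB.sphere_exp (P : TB g h p A Λ BB HH) {e : ℝ} (he : 0 < e) :
    ∃ ρ : ℝ, 0 < ρ ∧ ∀ y, ‖y‖ = 1 → ‖y - p‖ < ρ →
      |1 - chi p y - (1 / 2 : ℝ) * HH (y - chi p y • p) (y - chi p y • p)| ≤ e * ‖y - p‖ ^ 2 ∧
      ‖g y - A y - (1 / 2 : ℝ) • BB (y - chi p y • p) (y - chi p y • p)‖ ≤ e * ‖y - p‖ ^ 2 := by
  obtain ⟨ρ, hρ, hb⟩ := Metric.eventually_nhds_iff.1 ((P.N_exp e he).and (P.T_exp e he))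
  refine ⟨ρ, hρ, fun y hy hyρ => ?_⟩
  obtain ⟨h1, h2⟩ := @hb y (by rwa [dist_eq_norm])
  have h3 := h2 hy
  rw [hy] at h1
  have e1 : y - p = (y - chi p y • p) - (1 - chi p y) • p := by
    rw [sub_smul, one_smul]
    abel
  have e2 : HH (y - p) (y - p) = HH (y - chi p y • p) (y - chi p y • p) := by
    conv_lhs => rw [e1]
    exact P.H_tan _ _
  have e3 : BB (y - p) (y - p) = BB (y - chi p y • p) (y - chi p y • p) := by
    conv_lhs => rw [e1]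
    exact P.B_tan _ _
  rw [e2] at h1
  rw [e3] at h3
  exact ⟨h1, h3⟩

/-- The point of the sphere over a small tangent vector, with its expansions. -/
lemma TB.chart (P : TB g h p A Λ BB HH) {e : ℝ} (he : 0 < e) :
    ∃ δ : ℝ, 0 < δ ∧ ∀ w, chi p w = 0 → ‖w‖ < δ → ∃ n : ℝ, 0 ≤ n ∧ n ≤ 2 * ‖w‖ ∧
      ‖(1 - n) • p + w‖ = 1 ∧ |n - (1 / 2 : ℝ) * HH w w| ≤ e * ‖w‖ ^ 2 ∧
      ‖g ((1 - n) • p + w) - (1 - n) • g p - A w - (1 / 2 : ℝ) • BB w w‖ ≤ e * ‖w‖ ^ 2 := by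
  obtain ⟨ρ, hρ, hb⟩ := P.sphere_exp (e := e / 9) (by positivity)
  refine ⟨min (1 / 2) (ρ / 3), by positivity, fun w hw hwδ => ?_⟩
  have hw1 : ‖w‖ < 1 / 2 := hwδ.trans_le (min_le_left _ _)
  have hw2 : ‖w‖ < ρ / 3 := hwδ.trans_le (min_le_right _ _)
  obtain ⟨n, hn0, hn1, hn2⟩ := exists_n' P.phi_self P.unit hw (by linarith)
  refine ⟨n, hn0, hn1, hn2, ?_⟩
  obtain ⟨y, hy⟩ : ∃ y, y = (1 - n) • p + w := ⟨_, rfl⟩
  rw [← hy] at hn2 ⊢
  have hz : y - p = w - n • p := by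
    rw [hy, sub_smul, one_smul]
    abel
  have hzn : ‖y - p‖ ≤ 3 * ‖w‖ := by
    rw [hz]
    refine (norm_sub_le _ _).trans ?_
    rw [norm_smul, P.unit, mul_one, Real.norm_of_nonneg hn0]
    linarith
  obtain ⟨h1, h2⟩ := hb y hn2 (by linarith)
  have h5 : chi p y = 1 - n := by
    rw [hy, map_add, map_smul, P.phi_self, hw]
    simp
  have h6 : y - (1 - n) • p = w := by
    rw [hy]
    abel
  rw [h5, h6] at h1
  rw [h5, h6] at h2
  have h7 : ‖y - p‖ ^ 2 ≤ 9 * ‖w‖ ^ 2 := by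
    have := pow_le_pow_left₀ (norm_nonneg _) hzn 2
    nlinarith
  have h8 : e / 9 * ‖y - p‖ ^ 2 ≤ e * ‖w‖ ^ 2 := by
    have := mul_le_mul_of_nonneg_left h7 (by positivity : 0 ≤ e / 9)
    linarith
  constructor
  · have e1 : n - 1 / 2 * HH w w = 1 - (1 - n) - 1 / 2 * HH w w := by ring
    rw [e1]
    exact h1.trans h8
  · have e1 : g y - (1 - n) • g p - A w - (1 / 2 : ℝ) • BB w w =
        g y - A y - (1 / 2 : ℝ) • BB w w := by
      rw [hy, map_add, map_smul, P.Ax]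
      abel
    rw [e1]
    exact h2.trans h8

/-- Scaling of a short chord, at all small scales. -/
lemma TB.second_scale (P : TB g h p A Λ BB HH) {a b : X} (ha : chi p a = 0) (hb : chi p b = 0)
    {e : ℝ} (he : 0 < e) :
    ∃ ε₀ : ℝ, 0 < ε₀ ∧ ∀ ε : ℝ, 0 < ε → ε < ε₀ → ∃ (θ : ℝ) (ρ : Y),
      ‖A (a - b) + ρ‖ = ‖(a - b) - θ • p‖ ∧
      |θ - ε / 2 * HH (a + b) (a - b)| ≤ e * ε ∧
      ‖ρ + θ • g p - (ε / 2) • BB (a + b) (a - b)‖ ≤ e * ε := by
  obtain ⟨M, hM⟩ : ∃ M, M = ‖a‖ ^ 2 + ‖b‖ ^ 2 + 1 := ⟨_, rfl⟩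
  have hM0 : 0 < M := by
    rw [hM]
    positivity
  obtain ⟨δ₀, hδ₀, hc⟩ := P.chart (e := e / M) (by positivity)
  refine ⟨δ₀ / (2 * (‖a‖ + ‖b‖ + 1)), by positivity, fun ε hε0 hεε => ?_⟩
  have hε2 : ε * (2 * (‖a‖ + ‖b‖ + 1)) ≤ δ₀ := by
    have := hεε.le
    rwa [le_div_iff₀ (by positivity)] at this
  have hεa : ‖ε • a‖ < δ₀ := by
    rw [norm_smul, Real.norm_of_nonneg hε0.le]
    nlinarith [norm_nonneg a, norm_nonneg b]
  have hεb : ‖ε • b‖ < δ₀ := by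
    rw [norm_smul, Real.norm_of_nonneg hε0.le]
    nlinarith [norm_nonneg a, norm_nonneg b]
  obtain ⟨na, _, _, hya, hna, hga⟩ := hc (ε • a) (by rw [map_smul, ha]; simp) hεa
  obtain ⟨nb, _, _, hyb, hnb, hgb⟩ := hc (ε • b) (by rw [map_smul, hb]; simp) hεb
  have hna2 : ‖ε • a‖ ^ 2 = ε ^ 2 * ‖a‖ ^ 2 := by
    rw [norm_smul, Real.norm_of_nonneg hε0.le, mul_pow]
  have hnb2 : ‖ε • b‖ ^ 2 = ε ^ 2 * ‖b‖ ^ 2 := by
    rw [norm_smul, Real.norm_of_nonneg hε0.le, mul_pow]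
  rw [hna2] at hna hga
  rw [hnb2] at hnb hgb
  obtain ⟨θ, hθ⟩ : ∃ θ, θ = (na - nb) / ε := ⟨_, rfl⟩
  have hθε : ε * θ = na - nb := by
    rw [hθ]
    field_simp
  -- the error terms
  obtain ⟨Ea, hEa⟩ : ∃ Ea, Ea = g ((1 - na) • p + ε • a) - (1 - na) • g p - A (ε • a) -
      (1 / 2 : ℝ) • BB (ε • a) (ε • a) := ⟨_, rfl⟩
  obtain ⟨Eb, hEb⟩ : ∃ Eb, Eb = g ((1 - nb) • p + ε • b) - (1 - nb) • g p - A (ε • b) -
      (1 / 2 : ℝ) • BB (ε • b) (ε • b) := ⟨_, rfl⟩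
  rw [← hEa] at hga
  rw [← hEb] at hgb
  have hBab : BB (a + b) (a - b) = BB a a - BB b b := by
    simp only [map_add, map_sub, _root_.add_apply, P.B_sym b a]
    abel
  have hHab : HH (a + b) (a - b) = HH a a - HH b b := by
    simp only [map_add, map_sub, _root_.add_apply, P.H_sym b a]
    ring
  have hdiffg : g ((1 - na) • p + ε • a) - g ((1 - nb) • p + ε • b) =
      ε • (A (a - b) + (-(θ • g p) + (ε / 2) • BB (a + b) (a - b) + ε⁻¹ • (Ea - Eb))) := by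
    have e1 : g ((1 - na) • p + ε • a) = (1 - na) • g p + A (ε • a) +
        (1 / 2 : ℝ) • BB (ε • a) (ε • a) + Ea := by
      rw [hEa]
      abel
    have e2 : g ((1 - nb) • p + ε • b) = (1 - nb) • g p + A (ε • b) +
        (1 / 2 : ℝ) • BB (ε • b) (ε • b) + Eb := by
      rw [hEb]
      abel
    rw [e1, e2, hBab, map_sub]
    simp only [map_smul, _root_.smul_apply, smul_add, smul_sub, smul_neg, smul_smul, hθε]
    rw [mul_inv_cancel₀ hε0.ne', one_smul, one_smul]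
    have e3 : ε * (ε / 2) = 1 / 2 * ε * ε := by ring
    have e4 : 1 / 2 * (ε * ε) = 1 / 2 * ε * ε := by ring
    rw [e3, e4]
    module
  have hdiffy : ((1 - na) • p + ε • a) - ((1 - nb) • p + ε • b) = ε • ((a - b) - θ • p) := by
    rw [smul_sub, smul_sub, smul_smul, hθε]
    module
  refine ⟨θ, -(θ • g p) + (ε / 2) • BB (a + b) (a - b) + ε⁻¹ • (Ea - Eb), ?_, ?_, ?_⟩
  · have h1 := P.iso.iso _ _ hya hyb
    rw [hdiffg, hdiffy, norm_smul, norm_smul] at h1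
    exact mul_left_cancel₀ (by simpa using hε0.ne') h1
  · have e1 : θ - ε / 2 * HH (a + b) (a - b) =
        ((na - 1 / 2 * HH (ε • a) (ε • a)) - (nb - 1 / 2 * HH (ε • b) (ε • b))) / ε := by
      rw [hHab, hθ]
      simp only [map_smul, _root_.smul_apply, smul_eq_mul]
      field_simp
      ring
    rw [e1, abs_div, abs_of_pos hε0, div_le_iff₀ hε0]
    refine (abs_sub _ _).trans ?_
    have h1 : e / M * (ε ^ 2 * ‖a‖ ^ 2) + e / M * (ε ^ 2 * ‖b‖ ^ 2) ≤ e * ε * ε := by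
      have e2 : e / M * (ε ^ 2 * ‖a‖ ^ 2) + e / M * (ε ^ 2 * ‖b‖ ^ 2) =
          e * ε * ε * ((‖a‖ ^ 2 + ‖b‖ ^ 2) / M) := by
        field_simp
      rw [e2]
      have h2 : (‖a‖ ^ 2 + ‖b‖ ^ 2) / M ≤ 1 := by
        rw [div_le_one hM0, hM]
        linarith
      have h3 : 0 ≤ e * ε * ε := by positivity
      nlinarith
    linarith
  · have e1 : -(θ • g p) + (ε / 2) • BB (a + b) (a - b) + ε⁻¹ • (Ea - Eb) + θ • g p -
        (ε / 2) • BB (a + b) (a - b) = ε⁻¹ • (Ea - Eb) := by abel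
    rw [e1, norm_smul, norm_inv, Real.norm_of_nonneg hε0.le, inv_mul_le_iff₀ hε0]
    refine (norm_sub_le _ _).trans ?_
    have h1 : e / M * (ε ^ 2 * ‖a‖ ^ 2) + e / M * (ε ^ 2 * ‖b‖ ^ 2) ≤ ε * (e * ε) := by
      have e2 : e / M * (ε ^ 2 * ‖a‖ ^ 2) + e / M * (ε ^ 2 * ‖b‖ ^ 2) =
          ε * (e * ε) * ((‖a‖ ^ 2 + ‖b‖ ^ 2) / M) := by
        field_simp
      rw [e2]
      have h2 : (‖a‖ ^ 2 + ‖b‖ ^ 2) / M ≤ 1 := by
        rw [div_le_one hM0, hM]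
        linarith
      have h3 : 0 ≤ ε * (e * ε) := by positivity
      nlinarith
    linarith

variable [FiniteDimensional ℝ X]

/-- The one sided estimate behind stationarity. -/
lemma TB.stat_one (P : TB g h p A Λ BB HH) [FiniteDimensional ℝ Y] {u w : X} (hu : chi p u = 0)
    (hw : chi p w = 0) (huw : HH w u = 0) {e : ℝ} (he : 0 < e) :
    ∃ t₀ : ℝ, 0 < t₀ ∧ ∀ t : ℝ, 0 < t → t < t₀ → |‖u + t • Λ (BB w u)‖ - ‖u‖| ≤ e * t := by
  obtain ⟨a, ha⟩ : ∃ a, a = (1 / 2 : ℝ) • (w + u) := ⟨_, rfl⟩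
  obtain ⟨b, hb⟩ : ∃ b, b = (1 / 2 : ℝ) • (w - u) := ⟨_, rfl⟩
  have hsub : a - b = u := by
    rw [ha, hb]
    module
  have hadd : a + b = w := by
    rw [ha, hb]
    module
  have haP : chi p a = 0 := by
    rw [ha, map_smul, map_add, hw, hu]
    simp
  have hbP : chi p b = 0 := by
    rw [hb, map_smul, map_sub, hw, hu]
    simp
  obtain ⟨ε₀, hε₀, hsc⟩ := P.second_scale haP hbP (e := e / 8) (by positivity)
  rw [hsub, hadd, huw] at hsc
  refine ⟨ε₀ / 2, by positivity, fun t ht htt => ?_⟩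
  obtain ⟨θ, ρ, hiso, hθ, hρ⟩ := hsc (2 * t) (by positivity) (by linarith)
  have e0 : 2 * t / 2 = t := by ring
  rw [e0] at hρ
  rw [e0, mul_zero, sub_zero] at hθ
  have hnθ : ‖θ • p‖ = |θ| := by
    rw [norm_smul, P.unit, mul_one, Real.norm_eq_abs]
  have hnθ' : ‖θ • g p‖ = |θ| := by
    rw [norm_smul, P.y_unit, mul_one, Real.norm_eq_abs]
  have htan : chi p (Λ (BB w u)) = 0 := by
    rw [P.PhiL]
    exact Phi_B P hw hu
  have hn : ‖u + t • Λ (BB w u)‖ = ‖A u + t • BB w u‖ := by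
    have h1 := P.normA (w := u + t • Λ (BB w u)) (by rw [map_add, map_smul, hu, htan]; simp)
    rw [← h1, map_add, map_smul, P.right]
  rw [hn]
  have h1 : ‖(A u + ρ) - (A u + t • BB w u)‖ ≤ e / 8 * (2 * t) + |θ| := by
    have e1 : (A u + ρ) - (A u + t • BB w u) = (ρ + θ • g p - t • BB w u) - θ • g p := by abel
    rw [e1]
    refine (norm_sub_le _ _).trans ?_
    rw [hnθ']
    linarith
  have h2 := abs_norm_sub_norm_le (A u + ρ) (A u + t • BB w u)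
  have h3 := abs_norm_sub_norm_le (u - θ • p) u
  rw [sub_sub_cancel_left, norm_neg, hnθ] at h3
  rw [hiso] at h2
  have h4 := abs_le.1 (h2.trans h1)
  have h5 := abs_le.1 h3
  rw [abs_le]
  constructor <;> linarith [h4.1, h4.2, h5.1, h5.2]

/-- **Stationarity along the second derivative.** -/
theorem TB.stationary (P : TB g h p A Λ BB HH) [FiniteDimensional ℝ Y] {u w : X} (hu : chi p u = 0)
    (hw : chi p w = 0) (huw : HH w u = 0) :
    HasDerivAt (fun t : ℝ => ‖u + t • Λ (BB w u)‖) 0 0 := by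
  rw [hasDerivAt_iff_isLittleO_nhds_zero, Asymptotics.isLittleO_iff]
  intro e he
  obtain ⟨t₁, ht₁, hb₁⟩ := P.stat_one hu hw huw he
  obtain ⟨t₂, ht₂, hb₂⟩ := P.stat_one (w := -w) hu (by rw [map_neg, hw, neg_zero])
    (by rw [map_neg, _root_.neg_apply, huw, neg_zero]) he
  refine Metric.eventually_nhds_iff.2 ⟨min t₁ t₂, lt_min ht₁ ht₂, fun {t} ht => ?_⟩
  rw [Real.dist_eq, sub_zero] at ht
  have ht1 : |t| < t₁ := ht.trans_le (min_le_left _ _)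
  have ht2 : |t| < t₂ := ht.trans_le (min_le_right _ _)
  simp only [zero_add, zero_smul, add_zero, smul_zero, sub_zero, Real.norm_eq_abs]
  rcases lt_trichotomy t 0 with h0 | h0 | h0
  · have h1 := hb₂ (-t) (by linarith) (by rw [abs_of_neg h0] at ht2; exact ht2)
    rw [abs_of_neg h0]
    have e1 : -t • Λ (BB (-w) u) = t • Λ (BB w u) := by
      simp only [map_neg, _root_.neg_apply, smul_neg, neg_smul, neg_neg]
    rwa [e1] at h1
  · simp [h0]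
  · rw [abs_of_pos h0] at ht1 ⊢
    exact hb₁ t h0 ht1

end Short

end Vale.Agent.Lib.P084.Thm
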