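import Mathlib
import Vale.Agent.Lib.P084.Thm.Short

/-! Minimisers of `‖y‖ - ξ y` on an affine hyperplane, for an arbitrary norm. -/

namespace Vale.Agent.Lib.P084.Thm

open Set Metric Filter Topology
open Vale.Agent.Lib.P084 Vale.Agent.Lib.P084.Str Vale.Agent.Lib.P084.Dens

section Min

variable {E : Type*} [NormedAddCommGroup E] [NormedSpace ℝ E]

/-- `y` minimises `‖y‖ - ξ y` on `{φ = 1}`, with value `a`. -/
structure Mn (φ ξ : StrongDual ℝ E) (y : E) (a : ℝ) : Prop where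
  aff : φ y = 1
  val : ‖y‖ - ξ y = a
  dual : ∀ v, ξ v + a * φ v ≤ ‖v‖

variable {φ ξ ξ' : StrongDual ℝ E} {y y' : E} {a a' : ℝ}

lemma Mn.ne_zero (hm : Mn φ ξ y a) : y ≠ 0 := by
  rintro rfl
  have := hm.aff
  rw [map_zero] at this
  exact zero_ne_one this

lemma Mn.le (hm : Mn φ ξ y a) {v : E} (hv : φ v = 1) : a ≤ ‖v‖ - ξ v := by
  have h1 := hm.dual v
  rw [hv] at h1
  linarith

lemma Mn.val_eq (hm : Mn φ ξ y a) (hm' : Mn φ ξ y' a') : a' = a := by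
  have h1 := hm.le hm'.aff
  have h2 := hm'.le hm.aff
  rw [hm'.val] at h1
  rw [hm.val] at h2
  linarith

/-- The variational characterisation of minimisers. -/
lemma Mn.of_min (hy : φ y = 1) (hmin : ∀ v, φ v = 1 → ‖y‖ - ξ y ≤ ‖v‖ - ξ v) :
    Mn φ ξ y (‖y‖ - ξ y) := by
  refine ⟨hy, rfl, fun v => ?_⟩
  obtain ⟨a, ha⟩ : ∃ a, a = ‖y‖ - ξ y := ⟨_, rfl⟩
  rw [← ha] at hmin ⊢
  obtain ⟨s, hs⟩ : ∃ s, s = |φ v| + 1 := ⟨_, rfl⟩
  have hs0 : 0 < s := by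
    rw [hs]
    positivity
  obtain ⟨q, hq⟩ : ∃ q, q = φ v + s := ⟨_, rfl⟩
  have hq0 : 0 < q := by
    rw [hq, hs]
    have := neg_abs_le (φ v)
    linarith
  obtain ⟨w, hw⟩ : ∃ w, w = v + s • y := ⟨_, rfl⟩
  have hφw : φ w = q := by
    rw [hw, map_add, map_smul, hy, hq]
    simp
  have h1 := hmin (q⁻¹ • w) (by rw [map_smul, hφw, smul_eq_mul, inv_mul_cancel₀ hq0.ne'])
  rw [norm_smul, norm_inv, Real.norm_of_nonneg hq0.le, map_smul, smul_eq_mul] at h1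
  have h2 : a * q ≤ ‖w‖ - ξ w := by
    have h3 := mul_le_mul_of_nonneg_right h1 hq0.le
    have e : (q⁻¹ * ‖w‖ - q⁻¹ * ξ w) * q = ‖w‖ - ξ w := by
      field_simp
    rwa [e] at h3
  have h4 : ‖w‖ ≤ ‖v‖ + s * ‖y‖ := by
    rw [hw]
    refine (norm_add_le _ _).trans ?_
    rw [norm_smul, Real.norm_of_nonneg hs0.le]
  have h5 : ξ w = ξ v + s * ξ y := by
    rw [hw, map_add, map_smul, smul_eq_mul]
  rw [hq] at h2
  have h6 : a * s = s * ‖y‖ - s * ξ y := by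
    rw [ha]
    ring
  nlinarith

/-- A functional of the form `ξ + a φ` of norm at most one at a point where it norms. -/
lemma Mn.of_dual (hy : φ y = 1) (hd : ∀ v, ξ v + a * φ v ≤ ‖v‖) (hv : ξ y + a = ‖y‖) :
    Mn φ ξ y a :=
  ⟨hy, by linarith, hd⟩

/-- Convexity of the set of minimisers. -/
lemma Mn.convex (hm : Mn φ ξ y a) (hm' : Mn φ ξ y' a) {s : ℝ} (hs0 : 0 ≤ s) (hs1 : s ≤ 1) :
    Mn φ ξ ((1 - s) • y + s • y') a := by
  have haff : φ ((1 - s) • y + s • y') = 1 := by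
    rw [map_add, map_smul, map_smul, hm.aff, hm'.aff]
    simp
  refine ⟨haff, ?_, hm.dual⟩
  have h1 := hm.dual ((1 - s) • y + s • y')
  rw [haff] at h1
  have h2 : ‖(1 - s) • y + s • y'‖ ≤ (1 - s) * ‖y‖ + s * ‖y'‖ := by
    refine (norm_add_le _ _).trans ?_
    rw [norm_smul, norm_smul, Real.norm_of_nonneg hs0, Real.norm_of_nonneg (by linarith)]
  have h3 : ξ ((1 - s) • y + s • y') = (1 - s) * ξ y + s * ξ y' := by
    rw [map_add, map_smul, map_smul]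
    simp
  have h4 := hm.val
  have h5 := hm'.val
  rw [h3] at h1 ⊢
  have h6 : (1 - s) * ‖y‖ + s * ‖y'‖ = (1 - s) * (a + ξ y) + s * (a + ξ y') := by
    rw [← h4]
    have : ‖y'‖ = ‖y‖ - ξ y + ξ y' := by linarith
    rw [this]
    ring
  rw [h6] at h2
  nlinarith

/-- The value is a concave function of the functional. -/
lemma Mn.super (hm : Mn φ ξ y a) (hm' : Mn φ ξ' y' a') : a' ≤ a - (ξ' y - ξ y) := by
  have h1 := hm'.le hm.aff
  have h2 := hm.val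
  linarith

variable {p : E}

/-- The trivial minimiser. -/
lemma Mn.base (hp : ‖p‖ = 1) (hφ : φ p = 1) (hφ1 : ‖φ‖ ≤ 1) : Mn φ 0 p 1 := by
  refine ⟨hφ, by simp [hp], fun v => ?_⟩
  have h1 : φ v ≤ ‖φ‖ * ‖v‖ := (le_abs_self _).trans (φ.le_opNorm v)
  have h2 : ‖φ‖ * ‖v‖ ≤ 1 * ‖v‖ := mul_le_mul_of_nonneg_right hφ1 (norm_nonneg v)
  simp only [_root_.zero_apply, zero_add, one_mul] at *
  linarith

/-- The norm of a point of the hyperplane is at least one. -/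
lemma one_le_of_aff (hφ1 : ‖φ‖ ≤ 1) (hy : φ y = 1) : 1 ≤ ‖y‖ := by
  have h1 : φ y ≤ ‖φ‖ * ‖y‖ := (le_abs_self _).trans (φ.le_opNorm y)
  rw [hy] at h1
  have h2 : ‖φ‖ * ‖y‖ ≤ 1 * ‖y‖ := mul_le_mul_of_nonneg_right hφ1 (norm_nonneg y)
  linarith

/-- Upper bound for the value. -/
lemma Mn.le_one (hm : Mn φ ξ y a) (hp : ‖p‖ = 1) (hφ : φ p = 1) (hξ : ξ p = 0) : a ≤ 1 := by
  have := hm.le hφ
  rw [hp, hξ] at this
  linarith

/-- A bound for the minimisers. -/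
lemma Mn.norm_bound (hm : Mn φ ξ y a) (hp : ‖p‖ = 1) (hφ : φ p = 1) (hξ : ξ p = 0) {θ : ℝ}
    (hb : ∀ w, φ w = 0 → ξ w ≤ θ * ‖w‖) (hθ0 : 0 ≤ θ) : (1 - θ) * ‖y‖ ≤ 1 + θ := by
  have h1 := hm.le_one hp hφ hξ
  have h2 := hm.val
  have h3 := hb (y - p) (by rw [map_sub, hm.aff, hφ, sub_self])
  rw [map_sub, hξ, sub_zero] at h3
  have h4 : ‖y - p‖ ≤ ‖y‖ + 1 := by
    have := norm_sub_le y p
    rwa [hp] at this
  have h5 : θ * ‖y - p‖ ≤ θ * (‖y‖ + 1) := mul_le_mul_of_nonneg_left h4 hθ0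
  nlinarith

/-- Existence of a minimiser. -/
theorem exists_Mn [FiniteDimensional ℝ E] (hp : ‖p‖ = 1) (hφ : φ p = 1) (hξ0 : ξ p = 0)
    {θ : ℝ} (hθ : θ < 1) (hb : ∀ w, φ w = 0 → ξ w ≤ θ * ‖w‖) : ∃ y a, Mn φ ξ y a := by
  obtain ⟨R, hR⟩ : ∃ R, R = 3 / (1 - θ) := ⟨_, rfl⟩
  have h1θ : 0 < 1 - θ := by linarith
  have hR0 : 0 < R := by
    rw [hR]
    positivity
  let K : Set E := closedBall p R ∩ {v | φ v = 1}
  have hKc : IsCompact K :=
    (isCompact_closedBall p R).inter_right (isClosed_eq φ.continuous continuous_const)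
  have hKne : K.Nonempty := ⟨p, mem_closedBall_self hR0.le, hφ⟩
  have hcont : ContinuousOn (fun v : E => ‖v‖ - ξ v) K := by
    refine Continuous.continuousOn ?_
    fun_prop
  obtain ⟨y, hyK, hmin⟩ := hKc.exists_isMinOn hKne hcont
  have hyaff : φ y = 1 := hyK.2
  have hyval : ‖y‖ - ξ y ≤ 1 := by
    have h1 : (fun v : E => ‖v‖ - ξ v) y ≤ (fun v : E => ‖v‖ - ξ v) p :=
      hmin ⟨mem_closedBall_self hR0.le, hφ⟩
    simpa [hp, hξ0] using h1
  have hglobal : ∀ v, φ v = 1 → ‖y‖ - ξ y ≤ ‖v‖ - ξ v := by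
    intro v hv
    by_cases hvK : ‖v - p‖ ≤ R
    · exact hmin ⟨by rwa [mem_closedBall, dist_eq_norm], hv⟩
    · push Not at hvK
      have hd : φ (v - p) = 0 := by
        rw [map_sub, hv, hφ, sub_self]
      have h2 := hb _ hd
      rw [map_sub, hξ0, sub_zero] at h2
      have h3 : ‖v - p‖ ≤ ‖v‖ + 1 := by
        have := norm_sub_le v p
        rwa [hp] at this
      have h4 : (1 - θ) * R < (1 - θ) * ‖v - p‖ := mul_lt_mul_of_pos_left hvK h1θ
      have h5 : (1 - θ) * R = 3 := by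
        rw [hR]
        field_simp
      nlinarith
  exact ⟨y, _, Mn.of_min hyaff hglobal⟩

/-- Continuous dependence, at a functional with only one minimiser. -/
theorem Mn.close [FiniteDimensional ℝ E] (hm : Mn φ ξ y a)
    (huniq : ∀ v, φ v = 1 → ‖v‖ - ξ v = a → v = y) {δ : ℝ} (hδ : 0 < δ) :
    ∃ η : ℝ, 0 < η ∧ ∀ ξ' y' a', ‖ξ' - ξ‖ < η → Mn φ ξ' y' a' → ‖y' - y‖ < δ := by
  let S : Set E := sphere y δ ∩ {v | φ v = 1}
  have hSc : IsCompact S :=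
    (isCompact_sphere y δ).inter_right (isClosed_eq φ.continuous continuous_const)
  have key : ∀ v ∈ S, 0 < ‖v‖ - ξ v - a := by
    rintro v ⟨hv1, hv2⟩
    have hv2' : φ v = 1 := hv2
    have h1 := hm.le hv2'
    refine lt_of_le_of_ne (by linarith) fun h0 => ?_
    have h3 := huniq v hv2' (by linarith)
    rw [mem_sphere, h3, dist_self] at hv1
    exact hδ.ne hv1
  obtain ⟨μ, hμ, hμS⟩ : ∃ μ : ℝ, 0 < μ ∧ ∀ v ∈ S, μ ≤ ‖v‖ - ξ v - a := by
    rcases S.eq_empty_or_nonempty with he | hne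
    · exact ⟨1, one_pos, fun v hv => by rw [he] at hv; exact absurd hv (notMem_empty v)⟩
    · have hcont : ContinuousOn (fun v : E => ‖v‖ - ξ v - a) S := by
        refine Continuous.continuousOn ?_
        fun_prop
      obtain ⟨v₀, hv₀, hmin⟩ := hSc.exists_isMinOn hne hcont
      exact ⟨_, key v₀ hv₀, fun v hv => hmin hv⟩
  refine ⟨μ / δ, by positivity, fun ξ' y' a' hξ' hm' => ?_⟩
  by_contra hcon
  push Not at hcon
  have hd0 : 0 < ‖y' - y‖ := hδ.trans_le hcon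
  obtain ⟨s, hs'⟩ : ∃ s, s = δ / ‖y' - y‖ := ⟨_, rfl⟩
  have hs0 : 0 < s := by
    rw [hs']
    positivity
  have hs1 : s ≤ 1 := by
    rw [hs', div_le_one hd0]
    exact hcon
  obtain ⟨v, hv⟩ : ∃ v, v = (1 - s) • y + s • y' := ⟨_, rfl⟩
  have hvy : v - y = s • (y' - y) := by
    rw [hv]
    module
  have hvn : ‖v - y‖ = δ := by
    rw [hvy, norm_smul, Real.norm_of_nonneg hs0.le, hs']
    field_simp
  have hvaff : φ v = 1 := by
    rw [hv, map_add, map_smul, map_smul, hm.aff, hm'.aff]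
    simp
  have hvS : v ∈ S := ⟨by rwa [mem_sphere, dist_eq_norm], hvaff⟩
  have h1 := hμS v hvS
  have h2 := hm'.le hm.aff
  have h3 := hm'.val
  have h4 := hm.val
  have h5 : ‖v‖ ≤ (1 - s) * ‖y‖ + s * ‖y'‖ := by
    rw [hv]
    refine (norm_add_le _ _).trans ?_
    rw [norm_smul, norm_smul, Real.norm_of_nonneg hs0.le, Real.norm_of_nonneg (by linarith)]
  have h6 : ξ' v = (1 - s) * ξ' y + s * ξ' y' := by
    rw [hv, map_add, map_smul, map_smul]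
    simp
  have h7 : ‖v‖ - ξ' v ≤ ‖y‖ - ξ' y := by
    have h8 : s * (‖y'‖ - ξ' y') ≤ s * (‖y‖ - ξ' y) :=
      mul_le_mul_of_nonneg_left (by linarith) hs0.le
    rw [h6]
    nlinarith
  have h9 : (ξ' - ξ) (v - y) ≤ ‖ξ' - ξ‖ * δ := by
    have := (ξ' - ξ).le_opNorm (v - y)
    rw [hvn, Real.norm_eq_abs] at this
    exact (le_abs_self _).trans this
  have h10 : ‖ξ' - ξ‖ * δ < μ := by
    rwa [lt_div_iff₀ hδ] at hξ'
  simp only [_root_.sub_apply, map_sub] at h9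
  linarith

end Min

end Vale.Agent.Lib.P084.Thm
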