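import Mathlib
import Vale.Agent.Lib.P084.Thm.Min
import Vale.Agent.Lib.P084.Str.Legendre

/-! Exposedness at a second order base point, chords and minimisers. -/

namespace Vale.Agent.Lib.P084.Thm

open Set Metric Filter Topology
open Vale.Agent.Lib.P084 Vale.Agent.Lib.P084.Str Vale.Agent.Lib.P084.Dens

section Gen

variable {E : Type*} [NormedAddCommGroup E] [NormedSpace ℝ E]

/-- A functional which exposes a point locally exposes it globally. -/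
lemma exposed_of_local {ψ : StrongDual ℝ E} {q : E} (hψ : ∀ v, ψ v ≤ ‖v‖) (hq : ‖q‖ = 1)
    (hψq : ψ q = 1) {ρ : ℝ} (hρ : 0 < ρ)
    (hloc : ∀ z, ‖z‖ = 1 → ‖z - q‖ < ρ → ψ z = 1 → z = q) {z : E} (hz : ‖z‖ = 1)
    (hψz : ψ z = 1) : z = q := by
  by_contra hne
  have hd0 : 0 < ‖z - q‖ := norm_pos_iff.2 (sub_ne_zero.2 hne)
  obtain ⟨s, hs⟩ : ∃ s, s = min 1 (ρ / (2 * ‖z - q‖)) := ⟨_, rfl⟩
  have hs0 : 0 < s := by
    rw [hs]
    positivity
  have hs1 : s ≤ 1 := hs ▸ min_le_left _ _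
  have hs2 : s * ‖z - q‖ ≤ ρ / 2 := by
    have h1 : s ≤ ρ / (2 * ‖z - q‖) := hs ▸ min_le_right _ _
    rw [le_div_iff₀ (by positivity)] at h1
    linarith
  obtain ⟨w, hw⟩ : ∃ w, w = (1 - s) • q + s • z := ⟨_, rfl⟩
  have h1 : ψ w = 1 := by
    rw [hw, map_add, map_smul, map_smul, hψq, hψz]
    simp
  have h2 : ‖w‖ ≤ 1 := by
    rw [hw]
    refine (norm_add_le _ _).trans ?_
    rw [norm_smul, norm_smul, hq, hz, Real.norm_of_nonneg hs0.le,
      Real.norm_of_nonneg (by linarith)]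
    linarith
  have h3 : ‖w‖ = 1 := le_antisymm h2 (by have := hψ w; rwa [h1] at this)
  have h4 : w - q = s • (z - q) := by
    rw [hw]
    module
  have h5 : ‖w - q‖ < ρ := by
    rw [h4, norm_smul, Real.norm_of_nonneg hs0.le]
    linarith
  have h6 := hloc w h3 h5 h1
  rw [h6, sub_self] at h4
  exact (smul_ne_zero hs0.ne' (sub_ne_zero.2 hne)) h4.symm

/-- A ray in the direction of a vector of the tangent hyperplane enters the ball. -/
lemma enter_ball {p y : E} (hd : DifferentiableAt ℝ (fun z : E => ‖z‖) p) (hp : ‖p‖ = 1)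
    (hy : chi p y = 1) : ∃ r₀ : ℝ, 0 < r₀ ∧ ∀ r : ℝ, 0 < r → r < r₀ → ‖p - r • y‖ ≤ 1 - r / 2 := by
  have hl : HasDerivAt (fun s : ℝ => p - s • y) (-y) 0 := by
    simpa using ((hasDerivAt_id (0 : ℝ)).smul_const y).const_sub p
  have hn : HasDerivAt (fun s : ℝ => ‖p - s • y‖) (chi p (-y)) 0 :=
    HasFDerivAt.comp_hasDerivAt_of_eq (0 : ℝ) hd.hasFDerivAt hl (by simp)
  rw [map_neg, hy] at hn
  have h1 := Asymptotics.isLittleO_iff.1 (hasDerivAt_iff_isLittleO_nhds_zero.1 hn)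
    (show (0 : ℝ) < 1 / 2 by norm_num)
  obtain ⟨r₀, hr₀, hb⟩ := Metric.eventually_nhds_iff.1 h1
  refine ⟨r₀, hr₀, fun r hr hrr => ?_⟩
  have h2 := @hb r (by rw [Real.dist_eq, sub_zero, abs_of_pos hr]; exact hrr)
  simp only [zero_add, zero_smul, sub_zero, smul_eq_mul, Real.norm_eq_abs, hp, abs_of_pos hr]
    at h2
  have h3 := (abs_le.1 h2).2
  linarith

/-- A ray in the direction of a vector of the tangent hyperplane leaves the ball. -/
lemma exit_chord' {p y : E} (hd : DifferentiableAt ℝ (fun z : E => ‖z‖) p) (hp : ‖p‖ = 1)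
    (hy : chi p y = 1) : ∃ t : ℝ, 0 < t ∧ ‖p - t • y‖ = 1 := by
  obtain ⟨r₀, hr₀, hb⟩ := enter_ball hd hp hy
  have h1 := hb (r₀ / 2) (by positivity) (by linarith)
  obtain ⟨s, hs1, hs2, _⟩ := Far.exit_of_mem hp (ε := r₀ / 2) (z := y) (by positivity)
    (by linarith)
  exact ⟨s, by linarith, hs2⟩

/-- Location of the exit time. -/
lemma exit_time' {p y : E} (hself : chi p p = 1) (hp : ‖p‖ = 1) (hy : chi p y = 1)
    (hd : ‖y - p‖ < 1) {t : ℝ} (ht : 0 < t) (hu : ‖p - t • y‖ = 1) :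
    1 ≤ t ∧ t ≤ 2 ∧ 2 - t ≤ 2 * ‖y - p‖ := by
  have h1 : |1 - t| ≤ 1 := by
    have := abs_chi_le p (p - t • y)
    rwa [map_sub, map_smul, hself, hy, hu, smul_eq_mul, mul_one] at this
  have ht2 : t ≤ 2 := by
    have := (abs_le.1 h1).1
    linarith
  have e : p - t • y = (1 - t) • p - t • (y - p) := by module
  have h2 : 1 ≤ |1 - t| + t * ‖y - p‖ := by
    have h3 := norm_sub_le ((1 - t) • p) (t • (y - p))
    rw [← e, hu, norm_smul, norm_smul, hp, mul_one, Real.norm_eq_abs, Real.norm_of_nonneg ht.le]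
      at h3
    exact h3
  have ht1 : 1 ≤ t := by
    by_contra hc
    push Not at hc
    rw [abs_of_pos (by linarith)] at h2
    have h4 : t * 1 ≤ t * ‖y - p‖ := by linarith
    have := le_of_mul_le_mul_left h4 ht
    linarith
  refine ⟨ht1, ht2, ?_⟩
  rw [abs_of_nonpos (by linarith)] at h2
  have h5 : t * ‖y - p‖ ≤ 2 * ‖y - p‖ := mul_le_mul_of_nonneg_right ht2 (norm_nonneg _)
  linarith

end Gen

section Tb

variable {X Y : Type*} [NormedAddCommGroup X] [NormedSpace ℝ X]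
  [NormedAddCommGroup Y] [NormedSpace ℝ Y] {g : X → Y} {h : Y → X} {p : X} {A : X →L[ℝ] Y}
  {Λ : Y →L[ℝ] X} {BB : X →L[ℝ] X →L[ℝ] Y} {HH : X →L[ℝ] X →L[ℝ] ℝ}
  [FiniteDimensional ℝ X]

/-- Coercivity of the curvature form on the tangent hyperplane. -/
lemma TB.coercive (P : TB g h p A Λ BB HH) : ∃ c : ℝ, 0 < c ∧ ∀ w, chi p w = 0 →
    c * ‖w‖ ^ 2 ≤ HH w w := by
  let S : Set X := sphere (0 : X) 1 ∩ {v | chi p v = 0}
  have hSc : IsCompact S :=
    (isCompact_sphere _ _).inter_right (isClosed_eq (chi p).continuous continuous_const)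
  have hcont : ContinuousOn (fun v : X => HH v v) S := by
    refine Continuous.continuousOn ?_
    fun_prop
  obtain ⟨c, hc, hcS⟩ : ∃ c : ℝ, 0 < c ∧ ∀ v ∈ S, c ≤ HH v v := by
    rcases S.eq_empty_or_nonempty with he | hne
    · exact ⟨1, one_pos, fun v hv => by rw [he] at hv; exact absurd hv (notMem_empty v)⟩
    · obtain ⟨v₀, hv₀, hmin⟩ := hSc.exists_isMinOn hne hcont
      have hv₀1 : ‖v₀‖ = 1 := by simpa using hv₀.1
      have hv₀0 : v₀ ≠ 0 := by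
        rintro rfl
        simp at hv₀1
      exact ⟨_, P.H_pos v₀ hv₀.2 hv₀0, fun v hv => hmin hv⟩
  refine ⟨c, hc, fun w hw => ?_⟩
  by_cases hw0 : w = 0
  · simp [hw0]
  have hn : 0 < ‖w‖ := norm_pos_iff.2 hw0
  have h1 := hcS (‖w‖⁻¹ • w) ⟨by simpa using unit_of_ne hw0, by simp [hw]⟩
  simp only [map_smul, _root_.smul_apply, smul_eq_mul] at h1
  have h2 : ‖w‖ ^ 2 * (‖w‖⁻¹ * (‖w‖⁻¹ * HH w w)) = HH w w := by
    field_simp
  have h3 := mul_le_mul_of_nonneg_left h1 (by positivity : 0 ≤ ‖w‖ ^ 2)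
  rw [h2] at h3
  linarith

/-- Curvature bound from below on the sphere. -/
lemma TB.curved (P : TB g h p A Λ BB HH) : ∃ c : ℝ, 0 < c ∧ ∀ᶠ y in 𝓝 p, ‖y‖ = 1 →
    c * ‖y - p‖ ^ 2 ≤ 1 - chi p y := by
  obtain ⟨c₀, hc₀, hcoer⟩ := P.coercive
  obtain ⟨ρ, hρ, hb⟩ := P.sphere_exp (e := c₀ / 16) (by positivity)
  obtain ⟨M, hM⟩ : ∃ M, M = 2 * ‖HH‖ + c₀ / 16 := ⟨_, rfl⟩
  have hM0 : 0 < M := by
    rw [hM]
    positivity
  refine ⟨c₀ / 16, by positivity, Metric.eventually_nhds_iff.2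
    ⟨min ρ (1 / (2 * M)), by positivity, fun {y} hy hy1 => ?_⟩⟩
  rw [dist_eq_norm] at hy
  have hy₁ : ‖y - p‖ < ρ := hy.trans_le (min_le_left _ _)
  have hy₂ : ‖y - p‖ * (2 * M) < 1 := by
    have := hy.trans_le (min_le_right _ _)
    rwa [lt_div_iff₀ (by positivity)] at this
  obtain ⟨h1, -⟩ := hb y hy1 hy₁
  obtain ⟨z, hz⟩ : ∃ z, z = y - p := ⟨_, rfl⟩
  rw [← hz] at h1 hy₂ ⊢
  have hzn : 0 ≤ ‖z‖ := norm_nonneg z
  obtain ⟨n, hn⟩ : ∃ n, n = 1 - chi p y := ⟨_, rfl⟩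
  have hn2 : n = -chi p z := by
    rw [hn, hz, map_sub, P.phi_self]
    ring
  have hn3 : n ≤ ‖z‖ := by
    rw [hn2, ← map_neg]
    have := chi_le p (-z)
    rwa [norm_neg] at this
  have hn0 : 0 ≤ n := by
    have := chi_le p y
    rw [hy1] at this
    rw [hn]
    linarith
  obtain ⟨w, hw⟩ : ∃ w, w = y - chi p y • p := ⟨_, rfl⟩
  rw [← hw] at h1
  have hwP : chi p w = 0 := by
    rw [hw, map_sub, map_smul, P.phi_self]
    simp
  have hzw : z = w - n • p := by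
    rw [hz, hw, hn, sub_smul, one_smul]
    abel
  have hwz : w = z + n • p := by
    rw [hzw]
    abel
  have hw1 : ‖w‖ ≤ 2 * ‖z‖ := by
    rw [hwz]
    refine (norm_add_le _ _).trans ?_
    rw [norm_smul, P.unit, mul_one, Real.norm_of_nonneg hn0]
    linarith
  have hw2 : ‖z‖ ≤ ‖w‖ + n := by
    rw [hzw]
    refine (norm_sub_le _ _).trans ?_
    rw [norm_smul, P.unit, mul_one, Real.norm_of_nonneg hn0]
  have hHw : HH w w ≤ ‖HH‖ * ‖w‖ ^ 2 := (le_abs_self _).trans (P.abs_hh w)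
  have hw3 : ‖w‖ ^ 2 ≤ 4 * ‖z‖ ^ 2 := by
    have := pow_le_pow_left₀ (norm_nonneg w) hw1 2
    nlinarith
  have e1 : 1 - chi p y - 1 / 2 * HH w w = n - 1 / 2 * HH w w := by rw [hn]
  rw [e1] at h1
  have h2 := abs_le.1 h1
  have hHw2 : HH w w ≤ 4 * ‖HH‖ * ‖z‖ ^ 2 := by
    have := mul_le_mul_of_nonneg_left hw3 (norm_nonneg HH)
    linarith
  have hn4 : n ≤ M * ‖z‖ ^ 2 := by
    rw [hM]
    nlinarith [h2.2]
  have hn5 : n ≤ 1 / 2 * ‖z‖ := by
    have h3 : M * ‖z‖ ^ 2 = (‖z‖ * (2 * M)) * (‖z‖ / 2) := by ring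
    rw [h3] at hn4
    have h4 : (‖z‖ * (2 * M)) * (‖z‖ / 2) ≤ 1 * (‖z‖ / 2) :=
      mul_le_mul_of_nonneg_right hy₂.le (by positivity)
    linarith
  have hw4 : 1 / 2 * ‖z‖ ≤ ‖w‖ := by linarith
  have hw5 : (1 / 4) * ‖z‖ ^ 2 ≤ ‖w‖ ^ 2 := by
    have := pow_le_pow_left₀ (by positivity) hw4 2
    nlinarith
  have h6 := hcoer w hwP
  have h7 : c₀ * ((1 / 4) * ‖z‖ ^ 2) ≤ c₀ * ‖w‖ ^ 2 := mul_le_mul_of_nonneg_left hw5 hc₀.le
  rw [← hn]
  nlinarith [h2.1]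

/-- The functional `chi p` exposes `p`. -/
lemma TB.exposes_phi (P : TB g h p A Λ BB HH) {z : X} (hz : ‖z‖ = 1) (hφ : chi p z = 1) : z = p := by
  obtain ⟨c, hc, hb⟩ := P.curved
  obtain ⟨ρ, hρ, hb'⟩ := Metric.eventually_nhds_iff.1 hb
  refine exposed_of_local (chi_le p) P.unit P.phi_self hρ (fun w hw hwρ hwφ => ?_) hz hφ
  have h1 := @hb' w (by rwa [dist_eq_norm]) hw
  rw [hwφ, sub_self] at h1
  have h2 : ‖w - p‖ ^ 2 ≤ 0 := by
    by_contra hc2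
    push Not at hc2
    have := mul_pos hc hc2
    linarith
  have h3 : ‖w - p‖ = 0 := by
    have := sq_nonneg ‖w - p‖
    exact pow_eq_zero_iff (two_ne_zero) |>.1 (le_antisymm h2 this)
  exact sub_eq_zero.1 (norm_eq_zero.1 h3)

variable [FiniteDimensional ℝ Y]

/-- The second derivative has no normal part along the sphere. -/
lemma TB.Phi_BB (P : TB g h p A Λ BB HH) {y : X} (hy : ‖y‖ = 1) :
    chi (g p) (BB (y - p) (y - p)) = 0 := by
  have e1 : y - p = (y - chi p y • p) - (1 - chi p y) • p := by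
    rw [sub_smul, one_smul]
    abel
  have hw : chi p (y - chi p y • p) = 0 := by
    rw [map_sub, map_smul, P.phi_self]
    simp
  rw [e1, P.B_tan]
  exact Phi_B P hw hw

/-- The curvature bound for the image. -/
lemma TB.Phi_gap (P : TB g h p A Λ BB HH) : ∃ c : ℝ, 0 < c ∧ ∀ᶠ y in 𝓝 p, ‖y‖ = 1 →
    c * ‖y - p‖ ^ 2 ≤ 1 - chi (g p) (g y) := by
  obtain ⟨c, hc, hb⟩ := P.curved
  refine ⟨c / 2, by positivity, ?_⟩
  filter_upwards [hb, P.T_exp (c / 2) (by positivity)] with y h1 h2 hy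
  have h3 := h1 hy
  have h4 := h2 hy
  have h5 := abs_chi_le (g p) (g y - A y - (1 / 2 : ℝ) • BB (y - p) (y - p))
  rw [map_sub, map_sub, map_smul, P.Phi_BB hy, P.Phi] at h5
  simp only [smul_zero, sub_zero] at h5
  have h6 := (abs_le.1 (h5.trans h4)).2
  linarith

/-- The functional `chi (g p)` exposes `g p`. -/
lemma TB.exposes_Phi (P : TB g h p A Λ BB HH) {z : Y} (hz : ‖z‖ = 1) (hφ : chi (g p) z = 1) :
    z = g p := by
  obtain ⟨c, hc, hb⟩ := P.Phi_gap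
  obtain ⟨ρ, hρ, hb'⟩ := Metric.eventually_nhds_iff.1 hb
  refine exposed_of_local (chi_le (g p)) P.y_unit P.Phi_self hρ (fun w hw hwρ hwφ => ?_) hz hφ
  have hy1 : ‖h w‖ = 1 := P.iso.map_h _ hw
  have hgy : g (h w) = w := P.iso.right _ hw
  have hd : ‖h w - p‖ = ‖w - g p‖ := by
    have := P.iso.iso _ _ hy1 P.unit
    rw [hgy] at this
    exact this.symm
  have h1 := @hb' (h w) (by rw [dist_eq_norm, hd]; exact hwρ) hy1
  rw [hgy, hwφ, sub_self] at h1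
  have h2 : ‖h w - p‖ ^ 2 ≤ 0 := by
    by_contra hc2
    push Not at hc2
    have := mul_pos hc hc2
    linarith
  have h3 : ‖h w - p‖ = 0 := by
    have := sq_nonneg ‖h w - p‖
    exact pow_eq_zero_iff (two_ne_zero) |>.1 (le_antisymm h2 this)
  rw [hd] at h3
  exact sub_eq_zero.1 (norm_eq_zero.1 h3)

end Tb

section Chord

variable {X Y : Type*} [NormedAddCommGroup X] [NormedSpace ℝ X]
  [NormedAddCommGroup Y] [NormedSpace ℝ Y] {g : X → Y} {h : Y → X} {p : X} {A : X →L[ℝ] Y}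
  {Λ : Y →L[ℝ] X} {BB : X →L[ℝ] X →L[ℝ] Y} {HH : X →L[ℝ] X →L[ℝ] ℝ}
  [FiniteDimensional ℝ X] [FiniteDimensional ℝ Y]

/-- The chord inequality. -/
lemma TB.chord_ge (P : TB g h p A Λ BB HH) {ξ : StrongDual ℝ X} {y : X} {a t : ℝ}
    (hm : Mn (chi p) ξ y a) (ht : 0 < t) (hu : ‖p - t • y‖ = 1) {w : X} (hw : chi p w = 0) :
    ‖g p - g (p - t • y)‖ + ξ w ≤ ‖g p - g (p - t • y) + A w‖ := by
  obtain ⟨u, hud⟩ : ∃ u, u = p - t • y := ⟨_, rfl⟩
  rw [← hud] at hu ⊢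
  have hut : p - u = t • y := by
    rw [hud, sub_sub_cancel]
  obtain ⟨q, hq⟩ : ∃ q, q = g p - g u := ⟨_, rfl⟩
  rw [← hq]
  have hqn : ‖q‖ = ‖p - u‖ := by
    rw [hq]
    exact P.iso.iso _ _ P.unit hu
  refine le_of_forall_pos_le_add fun ε hε => ?_
  obtain ⟨s₀, hs₀, hb⟩ := chord_first P.iso P.dX P.unit P.Ax P.bigO hu hw hε
  obtain ⟨s, hs⟩ : ∃ s, s = min (s₀ / 2) (1 / 2) := ⟨_, rfl⟩
  have hs0 : 0 < s := by
    rw [hs]
    positivity
  have hs1 : s < s₀ := by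
    have : s ≤ s₀ / 2 := hs ▸ min_le_left _ _
    linarith
  have hs2 : s ≤ 1 / 2 := hs ▸ min_le_right _ _
  have h1 := hb s hs0 hs1
  rw [← hq] at h1
  have h2 := hm.dual ((p - u) + s • w)
  have e1 : ξ ((p - u) + s • w) + a * chi p ((p - u) + s • w) = t * ‖y‖ + s * ξ w := by
    rw [hut, map_add, map_add, map_smul, map_smul, map_smul, map_smul, hw, hm.aff]
    have := hm.val
    simp only [smul_eq_mul, mul_zero, add_zero, mul_one]
    rw [← this]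
    ring
  rw [e1] at h2
  have h3 : ‖p - u‖ = t * ‖y‖ := by
    rw [hut, norm_smul, Real.norm_of_nonneg ht.le]
  have h4 : ‖q + s • A w‖ ≤ (1 - s) * ‖q‖ + s * ‖q + A w‖ := by
    have e2 : q + s • A w = (1 - s) • q + s • (q + A w) := by module
    rw [e2]
    refine (norm_add_le _ _).trans ?_
    rw [norm_smul, norm_smul, Real.norm_of_nonneg hs0.le, Real.norm_of_nonneg (by linarith)]
  have h5 := (abs_le.1 h1).1
  have h6 : s * (‖q‖ + ξ w - ε) ≤ s * ‖q + A w‖ := by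
    rw [hqn, h3] at h4 ⊢
    nlinarith
  have h7 := le_of_mul_le_mul_left h6 hs0
  linarith

/-- **A chord in the direction of a minimiser gives a minimiser of the transported problem.** -/
theorem TB.mate (P : TB g h p A Λ BB HH) {ξ : StrongDual ℝ X} {y : X} {a t : ℝ}
    (hm : Mn (chi p) ξ y a) (ht : 0 < t) (hu : ‖p - t • y‖ = 1) :
    ∃ (t₂ : ℝ) (y₂ : Y) (b : ℝ), 0 < t₂ ∧ g p - g (p - t • y) = t₂ • y₂ ∧
      Mn (chi (g p)) (ξ.comp Λ) y₂ b ∧
      t₂ * b = t * a + ξ (Λ (g (p - t • y)) - (p - t • y)) := by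
  obtain ⟨u, hud⟩ : ∃ u, u = p - t • y := ⟨_, rfl⟩
  have hge := fun (w : X) (hw : chi p w = 0) => P.chord_ge hm ht hu hw
  rw [← hud] at hu hge ⊢
  have hut : p - u = t • y := by
    rw [hud, sub_sub_cancel]
  have hne : u ≠ p := by
    rintro rfl
    rw [sub_self] at hut
    exact (smul_ne_zero ht.ne' hm.ne_zero) hut.symm
  obtain ⟨q, hq⟩ : ∃ q, q = g p - g u := ⟨_, rfl⟩
  rw [← hq] at hge ⊢
  have hgu : ‖g u‖ = 1 := P.iso.map_g _ hu
  have hlt : chi (g p) (g u) < 1 := by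
    refine lt_of_le_of_ne ?_ fun hc => hne ?_
    · have := chi_le (g p) (g u)
      rwa [hgu] at this
    · have h1 := P.exposes_Phi hgu hc
      have h2 := congrArg h h1
      rwa [P.iso.left _ hu, P.iso.left _ P.unit] at h2
  obtain ⟨t₂, ht₂⟩ : ∃ t₂, t₂ = chi (g p) q := ⟨_, rfl⟩
  have ht₂0 : 0 < t₂ := by
    rw [ht₂, hq, map_sub, P.Phi_self]
    linarith
  obtain ⟨y₂, hy₂⟩ : ∃ y₂, y₂ = t₂⁻¹ • q := ⟨_, rfl⟩
  have hq2 : q = t₂ • y₂ := by
    rw [hy₂, smul_smul, mul_inv_cancel₀ ht₂0.ne', one_smul]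
  have hy₂aff : chi (g p) y₂ = 1 := by
    rw [hy₂, map_smul, ← ht₂, smul_eq_mul, inv_mul_cancel₀ ht₂0.ne']
  have hm₂ : Mn (chi (g p)) (ξ.comp Λ) y₂ (‖y₂‖ - (ξ.comp Λ) y₂) := by
    refine Mn.of_min hy₂aff fun v hv => ?_
    obtain ⟨w, hw⟩ : ∃ w, w = Λ (t₂ • v - q) := ⟨_, rfl⟩
    have hw0 : chi p w = 0 := by
      rw [hw, P.PhiL, map_sub, map_smul, hv, ← ht₂]
      simp
    have hAw : A w = t₂ • v - q := by
      rw [hw, P.right]
    have h1 := hge w hw0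
    rw [hAw, add_sub_cancel, norm_smul, Real.norm_of_nonneg ht₂0.le, hq2, norm_smul,
      Real.norm_of_nonneg ht₂0.le] at h1
    have e1 : ξ w = t₂ * ξ (Λ v) - t₂ * ξ (Λ y₂) := by
      rw [hw, hq2, ← smul_sub, map_smul, map_smul, map_sub, map_sub, smul_eq_mul]
      ring
    rw [e1] at h1
    simp only [ContinuousLinearMap.comp_apply]
    have h2 : t₂ * (‖y₂‖ - ξ (Λ y₂)) ≤ t₂ * (‖v‖ - ξ (Λ v)) := by nlinarith
    exact le_of_mul_le_mul_left h2 ht₂0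
  refine ⟨t₂, y₂, _, ht₂0, hq2, hm₂, ?_⟩
  have h1 := hm.val
  have hn : t₂ * ‖y₂‖ = t * ‖y‖ := by
    have h2 : ‖q‖ = ‖p - u‖ := by
      rw [hq]
      exact P.iso.iso _ _ P.unit hu
    rw [hq2, norm_smul, Real.norm_of_nonneg ht₂0.le, hut, norm_smul,
      Real.norm_of_nonneg ht.le] at h2
    exact h2
  have h3 : t₂ * ξ (Λ y₂) = ξ p - ξ (Λ (g u)) := by
    have h4 : Λ (g p - g u) = t₂ • Λ y₂ := by
      rw [← hq, hq2, map_smul]
    rw [map_sub, P.Lx] at h4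
    have h5 := congrArg ξ h4
    rw [map_sub, map_smul, smul_eq_mul] at h5
    exact h5.symm
  have h6 : t * ξ y = ξ p - ξ u := by
    have h5 := congrArg ξ hut
    rw [map_sub, map_smul, smul_eq_mul] at h5
    exact h5.symm
  rw [← h1, map_sub]
  simp only [ContinuousLinearMap.comp_apply]
  nlinarith

end Chord

end Vale.Agent.Lib.P084.Thm
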