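import Mathlib
import Vale.Agent.Lib.P084.Thm.Mate

/-! Expansions of minimisers and of their chord mates. -/

namespace Vale.Agent.Lib.P084.Thm

open Set Metric Filter Topology
open Vale.Agent.Lib.P084 Vale.Agent.Lib.P084.Str Vale.Agent.Lib.P084.Dens

section Exp

variable {X Y : Type*} [NormedAddCommGroup X] [NormedSpace ℝ X]
  [NormedAddCommGroup Y] [NormedSpace ℝ Y] {g : X → Y} {h : Y → X} {p : X} {A : X →L[ℝ] Y}
  {Λ : Y →L[ℝ] X} {BB : X →L[ℝ] X →L[ℝ] Y} {HH : X →L[ℝ] X →L[ℝ] ℝ}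
  [FiniteDimensional ℝ X]

/-- The image chord in the direction of a point of the tangent hyperplane. -/
lemma TB.chord_vector (P : TB g h p A Λ BB HH) {y₁ : X} {t : ℝ} (hu : ‖p - t • y₁‖ = 1) :
    g p - g (p - t • y₁) = t • A y₁ + (t ^ 2 / 2) • BB (y₁ - p) (y₁ - p) +
      (g (t • y₁ - p) - A (t • y₁ - p) -
        (1 / 2 : ℝ) • BB (t • y₁ - p - p) (t • y₁ - p - p)) := by
  have := P.nontrivial
  have hv : ‖t • y₁ - p‖ = 1 := by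
    rw [← norm_neg, neg_sub]
    exact hu
  have e1 : p - t • y₁ = -(t • y₁ - p) := by abel
  rw [e1, Vale.Agent.Lib.P084.sphere_odd P.iso hv]
  have e2 : t • y₁ - p - p = (t - 2) • p + t • (y₁ - p) := by module
  have e3 : BB (t • y₁ - p - p) (t • y₁ - p - p) = t ^ 2 • BB (y₁ - p) (y₁ - p) := by
    rw [e2]
    simp only [map_add, map_smul, _root_.add_apply, _root_.smul_apply, P.B_x, P.B_x', smul_zero,
      zero_add, add_zero, smul_smul]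
    congr 1
    ring
  have e4 : A (t • y₁ - p) = t • A y₁ - g p := by
    rw [map_sub, map_smul, P.Ax]
  rw [e3, e4]
  module

lemma TB.e_vector (P : TB g h p A Λ BB HH) {y₁ : X} {t t₂ : ℝ} {y₂ R Q : Y}
    (h1 : t₂ • y₂ = t • A y₁ + (t ^ 2 / 2) • Q + R) :
    t₂ • (Λ y₂ - y₁ - Λ Q) = (t - t₂) • y₁ + (t ^ 2 / 2 - t₂) • Λ Q + Λ R := by
  have h2 : t₂ • Λ y₂ = t • y₁ + (t ^ 2 / 2) • Λ Q + Λ R := by
    rw [← map_smul, h1, map_add, map_add, map_smul, map_smul, P.left]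
  rw [smul_sub, smul_sub, h2]
  module


variable [FiniteDimensional ℝ Y]

/-- **Second order expansion of the chord mate, in terms of the first point.** -/
theorem TB.e_exp₁ (P : TB g h p A Λ BB HH) {e' : ℝ} (he' : 0 < e') :
    ∃ r : ℝ, 0 < r ∧ ∀ (y₁ : X) (t t₂ : ℝ) (y₂ : Y), chi p y₁ = 1 → ‖y₁ - p‖ < r → 0 < t →
      ‖p - t • y₁‖ = 1 → chi (g p) y₂ = 1 → g p - g (p - t • y₁) = t₂ • y₂ →
      ‖Λ y₂ - y₁ - Λ (BB (y₁ - p) (y₁ - p))‖ ≤ e' * ‖y₁ - p‖ ^ 2 := by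
  obtain ⟨W, hW⟩ : ∃ W, W = ‖Λ‖ * ‖BB‖ := ⟨_, rfl⟩
  have hW0 : 0 ≤ W := by
    rw [hW]
    positivity
  obtain ⟨e₁, he₁⟩ : ∃ e₁, e₁ = min 1 (e' / (2 * (64 + 32 * ‖Λ‖))) := ⟨_, rfl⟩
  have he₁0 : 0 < e₁ := by
    rw [he₁]
    positivity
  have he₁1 : e₁ ≤ 1 := by rw [he₁]; exact min_le_left _ _
  have he₁2 : (64 + 32 * ‖Λ‖) * e₁ ≤ e' / 2 := by
    have h1 : e₁ ≤ e' / (2 * (64 + 32 * ‖Λ‖)) := by rw [he₁]; exact min_le_right _ _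
    rw [le_div_iff₀ (by positivity)] at h1
    linarith
  obtain ⟨ρ, hρ, hbρ⟩ := Metric.eventually_nhds_iff.1 (P.T_exp e₁ he₁0)
  obtain ⟨r, hr⟩ : ∃ r, r = min (1 / 8) (min (ρ / 4) (e' / (16 * (W + 1)))) := ⟨_, rfl⟩
  have hr0 : 0 < r := by
    rw [hr]
    positivity
  have hr1 : r ≤ 1 / 8 := by rw [hr]; exact min_le_left _ _
  have hr2 : r ≤ ρ / 4 := by rw [hr]; exact (min_le_right _ _).trans (min_le_left _ _)
  have hr3 : r * (16 * (W + 1)) ≤ e' := by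
    have h1 : r ≤ e' / (16 * (W + 1)) := by
      rw [hr]
      exact (min_le_right _ _).trans (min_le_right _ _)
    rwa [le_div_iff₀ (by positivity)] at h1
  refine ⟨r, hr0, fun y₁ t t₂ y₂ hy₁aff hdr ht hu hy₂aff hp' => ?_⟩
  obtain ⟨d, hd⟩ : ∃ d, d = y₁ - p := ⟨_, rfl⟩
  rw [← hd] at hdr ⊢
  have hdn : 0 ≤ ‖d‖ := norm_nonneg d
  have hd18 : ‖d‖ ≤ 1 / 8 := hdr.le.trans hr1
  obtain ⟨ht1, ht2, ht3⟩ := exit_time' P.phi_self P.unit hy₁aff (by rw [← hd]; linarith) ht hu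
  rw [← hd] at ht3
  have hvec := P.chord_vector hu
  rw [← hd, hp'] at hvec
  obtain ⟨R, hR⟩ : ∃ R, R = g (t • y₁ - p) - A (t • y₁ - p) -
      (1 / 2 : ℝ) • BB (t • y₁ - p - p) (t • y₁ - p - p) := ⟨_, rfl⟩
  rw [← hR] at hvec
  -- size of the remainder
  have hz : t • y₁ - p - p = (t - 2) • p + t • d := by
    rw [hd]
    module
  have hzn : ‖t • y₁ - p - p‖ ≤ 4 * ‖d‖ := by
    rw [hz]
    refine (norm_add_le _ _).trans ?_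
    rw [norm_smul, norm_smul, P.unit, mul_one, Real.norm_eq_abs, Real.norm_of_nonneg ht.le,
      abs_of_nonpos (by linarith)]
    have : t * ‖d‖ ≤ 2 * ‖d‖ := mul_le_mul_of_nonneg_right ht2 hdn
    linarith
  have hv1 : ‖t • y₁ - p‖ = 1 := by
    rw [← norm_neg, neg_sub]
    exact hu
  have hRb : ‖R‖ ≤ 16 * e₁ * ‖d‖ ^ 2 := by
    have h1 := @hbρ (t • y₁ - p) (by
      rw [dist_eq_norm]
      linarith) hv1
    rw [← hR] at h1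
    refine h1.trans ?_
    have h2 := pow_le_pow_left₀ (norm_nonneg _) hzn 2
    have h3 := mul_le_mul_of_nonneg_left h2 he₁0.le
    nlinarith
  -- the scalar relation
  have hdP : chi p d = 0 := by
    rw [hd, map_sub, hy₁aff, P.phi_self, sub_self]
  have ht₂' : t₂ = t + chi (g p) R := by
    have h1 := congrArg (chi (g p)) hvec
    rw [map_smul, hy₂aff, map_add, map_add, map_smul, map_smul, P.Phi, hy₁aff,
      Phi_B P hdP hdP] at h1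
    simpa using h1
  have hvL := P.e_vector hvec
  -- the final estimate
  have hy₁ : ‖y₁‖ ≤ 1 + ‖d‖ := by
    have e1 : y₁ = p + d := by rw [hd]; abel
    rw [e1]
    refine (norm_add_le _ _).trans ?_
    rw [P.unit]
  have hQ : ‖Λ (BB d d)‖ ≤ W * ‖d‖ ^ 2 := by
    have h1 := Λ.le_opNorm (BB d d)
    have h2 := (BB d).le_opNorm d
    have h3 := BB.le_opNorm d
    have h4 : ‖BB d‖ * ‖d‖ ≤ ‖BB‖ * ‖d‖ * ‖d‖ := mul_le_mul_of_nonneg_right h3 hdn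
    rw [hW]
    calc ‖Λ (BB d d)‖ ≤ ‖Λ‖ * ‖BB d d‖ := h1
      _ ≤ ‖Λ‖ * (‖BB‖ * ‖d‖ * ‖d‖) :=
        mul_le_mul_of_nonneg_left (h2.trans h4) (norm_nonneg _)
      _ = ‖Λ‖ * ‖BB‖ * ‖d‖ ^ 2 := by ring
  have ht₂0 : 0 < t₂ := by
    rw [ht₂']
    have h1 : |chi (g p) R| ≤ ‖R‖ := abs_chi_le _ _
    have h2 := (abs_le.1 h1).1
    nlinarith
  have hEn : t₂ * ‖Λ y₂ - y₁ - Λ (BB d d)‖ ≤ |t - t₂| * ‖y₁‖ + |t ^ 2 / 2 - t₂| * ‖Λ (BB d d)‖ +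
      ‖Λ R‖ := by
    have h1 := congrArg norm hvL
    rw [norm_smul, Real.norm_of_nonneg ht₂0.le] at h1
    rw [h1]
    refine (norm_add_le _ _).trans (add_le_add ((norm_add_le _ _).trans ?_) le_rfl)
    rw [norm_smul, norm_smul, Real.norm_eq_abs, Real.norm_eq_abs]
  refine Str.e_arith hdn hd18 ht1 ht2 ht3 ht₂' (abs_chi_le _ _) hRb he₁0 he₁1 hy₁ hW0 hQ
    (norm_nonneg _) (norm_nonneg Λ) (Λ.le_opNorm R) hEn (norm_nonneg _) (norm_nonneg _) he₁2 ?_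
  have h1 : ‖d‖ * (16 * (W + 1)) ≤ e' := by
    have := mul_le_mul_of_nonneg_right hdr.le (by positivity : 0 ≤ 16 * (W + 1))
    linarith
  nlinarith

/-- The minimiser is close to the base point for small functionals. -/
lemma TB.near (P : TB g h p A Λ BB HH) {r : ℝ} (hr : 0 < r) :
    ∃ η : ℝ, 0 < η ∧ ∀ ξ y a, ‖ξ‖ < η → Mn (chi p) ξ y a → ‖y - p‖ < r := by
  obtain ⟨η, hη, hb⟩ := (Mn.base P.unit P.phi_self (chi_norm_le p)).close (fun v hv hv2 => by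
    refine P.exposes_phi ?_ hv
    simpa using hv2) hr
  exact ⟨η, hη, fun ξ y a h1 h2 => hb ξ y a (by rwa [sub_zero]) h2⟩

/-- **First order expansion of the minimiser.** -/
theorem TB.minimizer_exp (P : TB g h p A Λ BB HH) {e : ℝ} (he : 0 < e) :
    ∃ r : ℝ, 0 < r ∧ ∀ η y a, chi p η = 0 → ‖η‖ < r → Mn (chi p) (HH η) y a →
      ‖y - p - η‖ ≤ e * ‖η‖ := by
  obtain ⟨c₀, hc₀, hcoer⟩ := P.coercive
  obtain ⟨ε, hε⟩ : ∃ ε, ε = min (c₀ / 8) (c₀ * e ^ 2 / 12) := ⟨_, rfl⟩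
  have hε0 : 0 < ε := by
    rw [hε]
    positivity
  have hε1 : ε ≤ c₀ / 8 := hε ▸ min_le_left _ _
  have hε2 : ε ≤ c₀ * e ^ 2 / 12 := hε ▸ min_le_right _ _
  obtain ⟨ρ, hρ, hN⟩ := Metric.eventually_nhds_iff.1 (P.N_exp ε hε0)
  obtain ⟨η₀, hη₀, hb₀⟩ := P.near hρ
  refine ⟨min ρ (η₀ / (‖HH‖ + 1)), by positivity, fun η y a hη hηr hm => ?_⟩
  have hη₁ : ‖η‖ < ρ := hηr.trans_le (min_le_left _ _)
  have hη₂ : ‖η‖ * (‖HH‖ + 1) < η₀ := by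
    have := hηr.trans_le (min_le_right _ _)
    rwa [lt_div_iff₀ (by positivity)] at this
  have hHη : ‖HH η‖ < η₀ := by
    refine (HH.le_opNorm η).trans_lt ?_
    nlinarith [norm_nonneg HH, norm_nonneg η]
  have hd := hb₀ _ y a hHη hm
  obtain ⟨d, hddef⟩ : ∃ d, d = y - p := ⟨_, rfl⟩
  rw [← hddef] at hd ⊢
  have hy : y = p + d := by rw [hddef]; abel
  have h1 := @hN y (by rw [dist_eq_norm, ← hddef]; exact hd)
  have h2 := @hN (p + η) (by rw [dist_eq_norm, add_sub_cancel_left]; exact hη₁)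
  rw [← hddef, hm.aff] at h1
  rw [add_sub_cancel_left, map_add, P.phi_self, hη, add_zero] at h2
  have h3 := hm.le (v := p + η) (by rw [map_add, P.phi_self, hη, add_zero])
  rw [map_add, P.H_x', zero_add] at h3
  have h4 := hm.val
  have h5 : HH η y = HH η d := by
    rw [hy, map_add, P.H_x', zero_add]
  rw [h5] at h4
  obtain ⟨v, hv⟩ : ∃ v, v = d - η := ⟨_, rfl⟩
  have hvP : chi p v = 0 := by
    rw [hv, hddef, map_sub, map_sub, hm.aff, P.phi_self, hη]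
    simp
  have h6 := hcoer v hvP
  have e1 : HH v v = HH d d - 2 * HH η d + HH η η := by
    rw [hv]
    simp only [map_sub, _root_.sub_apply, P.H_sym d η]
    ring
  have h7 := abs_le.1 h1
  have h8 := abs_le.1 h2
  have h9 : c₀ / 2 * ‖v‖ ^ 2 ≤ ε * (‖d‖ ^ 2 + ‖η‖ ^ 2) := by
    rw [e1] at h6
    nlinarith [h7.1, h8.2]
  have h10 : ‖d‖ ≤ ‖v‖ + ‖η‖ := by
    have e2 : d = v + η := by rw [hv]; abel
    rw [e2]
    exact norm_add_le _ _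
  have h11 : ‖d‖ ^ 2 ≤ 2 * ‖v‖ ^ 2 + 2 * ‖η‖ ^ 2 := by
    have := pow_le_pow_left₀ (norm_nonneg d) h10 2
    nlinarith [sq_nonneg (‖v‖ - ‖η‖)]
  have h12 : ε * ‖d‖ ^ 2 ≤ ε * (2 * ‖v‖ ^ 2 + 2 * ‖η‖ ^ 2) :=
    mul_le_mul_of_nonneg_left h11 hε0.le
  have h13 : ε * ‖v‖ ^ 2 ≤ c₀ / 8 * ‖v‖ ^ 2 :=
    mul_le_mul_of_nonneg_right hε1 (by positivity)
  have h14 : c₀ * ‖v‖ ^ 2 ≤ 12 * ε * ‖η‖ ^ 2 := by nlinarith
  have h15 : 12 * ε * ‖η‖ ^ 2 ≤ c₀ * e ^ 2 * ‖η‖ ^ 2 :=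
    mul_le_mul_of_nonneg_right (by linarith) (by positivity)
  have h16 : ‖v‖ ^ 2 ≤ (e * ‖η‖) ^ 2 := by
    have h17 : c₀ * ‖v‖ ^ 2 ≤ c₀ * (e * ‖η‖) ^ 2 := by
      calc _ ≤ _ := h14.trans h15
        _ = _ := by ring
    exact le_of_mul_le_mul_left h17 hc₀
  have e3 : d - η = v := hv.symm
  rw [e3]
  exact (pow_le_pow_iff_left₀ (norm_nonneg v) (by positivity) two_ne_zero).1 h16

/-- **Second order expansion of the chord mate.** -/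
theorem TB.e_exp₂ (P : TB g h p A Λ BB HH) {e' : ℝ} (he' : 0 < e') :
    ∃ r : ℝ, 0 < r ∧ ∀ (η y₁ : X) (a₁ t t₂ : ℝ) (y₂ : Y), chi p η = 0 → ‖η‖ < r →
      Mn (chi p) (HH η) y₁ a₁ → 0 < t → ‖p - t • y₁‖ = 1 → chi (g p) y₂ = 1 →
      g p - g (p - t • y₁) = t₂ • y₂ → ‖Λ y₂ - y₁ - Λ (BB η η)‖ ≤ e' * ‖η‖ ^ 2 := by
  obtain ⟨W, hW⟩ : ∃ W, W = ‖Λ‖ * ‖BB‖ := ⟨_, rfl⟩
  have hW0 : 0 ≤ W := by
    rw [hW]
    positivity
  obtain ⟨r₁, hr₁, hb₁⟩ := P.e_exp₁ (e' := e' / 8) (by positivity)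
  obtain ⟨e₂, he₂⟩ : ∃ e₂, e₂ = min 1 (e' / (6 * (W + 1))) := ⟨_, rfl⟩
  have he₂0 : 0 < e₂ := by
    rw [he₂]
    positivity
  have he₂1 : e₂ ≤ 1 := by rw [he₂]; exact min_le_left _ _
  have he₂2 : e₂ * (6 * (W + 1)) ≤ e' := by
    have h1 : e₂ ≤ e' / (6 * (W + 1)) := by rw [he₂]; exact min_le_right _ _
    rwa [le_div_iff₀ (by positivity)] at h1
  obtain ⟨r₂, hr₂, hb₂⟩ := P.minimizer_exp he₂0
  refine ⟨min r₂ (r₁ / 2), by positivity, fun η y₁ a₁ t t₂ y₂ hη hηr hm₁ ht hu hy₂ hp' => ?_⟩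
  have hη₁ : ‖η‖ < r₂ := hηr.trans_le (min_le_left _ _)
  have hη₂ : ‖η‖ < r₁ / 2 := hηr.trans_le (min_le_right _ _)
  have hdη := hb₂ η y₁ a₁ hη hη₁ hm₁
  obtain ⟨d, hddef⟩ : ∃ d, d = y₁ - p := ⟨_, rfl⟩
  rw [← hddef] at hdη
  have hηn : 0 ≤ ‖η‖ := norm_nonneg η
  have hdn : ‖d‖ ≤ 2 * ‖η‖ := by
    have e1 : d = (d - η) + η := by abel
    have h2 : ‖d‖ ≤ ‖d - η‖ + ‖η‖ := by
      conv_lhs => rw [e1]
      exact norm_add_le _ _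
    nlinarith
  have hd : ‖y₁ - p‖ < r₁ := by
    rw [← hddef]
    linarith
  have h1 := hb₁ y₁ t t₂ y₂ hm₁.aff hd ht hu hy₂ hp'
  rw [← hddef] at h1
  have hdsq : ‖d‖ ^ 2 ≤ 4 * ‖η‖ ^ 2 := by
    have := pow_le_pow_left₀ (norm_nonneg d) hdn 2
    nlinarith
  have hsplit : BB d d - BB η η = BB (d - η) (d + η) := by
    simp only [map_sub, map_add, _root_.sub_apply, P.B_sym η d]
    abel
  have e1 : Λ y₂ - y₁ - Λ (BB η η) = (Λ y₂ - y₁ - Λ (BB d d)) + Λ (BB (d - η) (d + η)) := by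
    rw [← hsplit, map_sub]
    abel
  rw [e1]
  refine (norm_add_le _ _).trans ?_
  have h2 : ‖Λ (BB (d - η) (d + η))‖ ≤ W * (‖d - η‖ * ‖d + η‖) := by
    have h3 := Λ.le_opNorm (BB (d - η) (d + η))
    have h4 := (BB (d - η)).le_opNorm (d + η)
    have h5 := BB.le_opNorm (d - η)
    have h6 : ‖BB (d - η)‖ * ‖d + η‖ ≤ ‖BB‖ * ‖d - η‖ * ‖d + η‖ :=
      mul_le_mul_of_nonneg_right h5 (norm_nonneg _)
    rw [hW]
    calc _ ≤ ‖Λ‖ * ‖BB (d - η) (d + η)‖ := h3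
      _ ≤ ‖Λ‖ * (‖BB‖ * ‖d - η‖ * ‖d + η‖) :=
        mul_le_mul_of_nonneg_left (h4.trans h6) (norm_nonneg _)
      _ = _ := by ring
  have h7 : ‖d + η‖ ≤ 3 * ‖η‖ := by
    refine (norm_add_le _ _).trans ?_
    linarith
  have h8 : ‖d - η‖ * ‖d + η‖ ≤ (e₂ * ‖η‖) * (3 * ‖η‖) :=
    mul_le_mul hdη h7 (norm_nonneg _) (by positivity)
  have h9 : W * (‖d - η‖ * ‖d + η‖) ≤ W * ((e₂ * ‖η‖) * (3 * ‖η‖)) :=
    mul_le_mul_of_nonneg_left h8 hW0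
  have h10 : W * ((e₂ * ‖η‖) * (3 * ‖η‖)) ≤ e' / 2 * ‖η‖ ^ 2 := by
    have h11 : W * e₂ * 3 ≤ e' / 2 := by nlinarith
    have h12 := mul_le_mul_of_nonneg_right h11 (by positivity : 0 ≤ ‖η‖ ^ 2)
    calc _ = W * e₂ * 3 * ‖η‖ ^ 2 := by ring
      _ ≤ _ := h12
  have h13 : e' / 8 * ‖d‖ ^ 2 ≤ e' / 8 * (4 * ‖η‖ ^ 2) :=
    mul_le_mul_of_nonneg_left hdsq (by positivity)
  linarith

/-- Families of minimisers for functionals given by small tangent vectors. -/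
lemma TB.exists_family (P : TB g h p A Λ BB HH) :
    ∃ (r₀ : ℝ) (y₁ : X → X) (y₂ : X → Y) (a₁ a₂ : X → ℝ), 0 < r₀ ∧
      (∀ η, chi p η = 0 → ‖η‖ < r₀ →
        Mn (chi p) (HH η) (y₁ η) (a₁ η) ∧ Mn (chi (g p)) ((HH η).comp Λ) (y₂ η) (a₂ η)) ∧
      ∀ e : ℝ, 0 < e → ∃ r : ℝ, 0 < r ∧ ∀ η, chi p η = 0 → ‖η‖ < r →
        ‖Λ (y₂ η) - y₁ η - Λ (BB η η)‖ ≤ e * ‖η‖ ^ 2 := by
  obtain ⟨r₀, hr₀⟩ : ∃ r₀, r₀ = 1 / (2 * (‖HH‖ + 1)) := ⟨_, rfl⟩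
  have hr₀0 : 0 < r₀ := by
    rw [hr₀]
    positivity
  have hex : ∀ η : X, ∃ q : X × Y × ℝ × ℝ × ℝ × ℝ, chi p η = 0 → ‖η‖ < r₀ →
      Mn (chi p) (HH η) q.1 q.2.2.1 ∧ Mn (chi (g p)) ((HH η).comp Λ) q.2.1 q.2.2.2.1 ∧
      0 < q.2.2.2.2.1 ∧ ‖p - q.2.2.2.2.1 • q.1‖ = 1 ∧
      g p - g (p - q.2.2.2.2.1 • q.1) = q.2.2.2.2.2 • q.2.1 := by
    intro η
    by_cases hη : chi p η = 0 ∧ ‖η‖ < r₀
    · have hξ0 : HH η p = 0 := P.H_x' η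
      have hsmall : ‖HH‖ * ‖η‖ ≤ 1 / 2 := by
        have h1 : ‖η‖ * (2 * (‖HH‖ + 1)) < 1 := by
          have := hη.2
          rw [hr₀, lt_div_iff₀ (by positivity)] at this
          exact this
        nlinarith [norm_nonneg HH, norm_nonneg η]
      obtain ⟨y, a, hm⟩ := exists_Mn P.unit P.phi_self hξ0 (θ := 1 / 2) (by norm_num)
        (fun w _ => by
          have h1 := (HH η).le_opNorm w
          have h2 := HH.le_opNorm η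
          rw [Real.norm_eq_abs] at h1
          have h3 : ‖HH η‖ * ‖w‖ ≤ 1 / 2 * ‖w‖ :=
            mul_le_mul_of_nonneg_right (h2.trans hsmall) (norm_nonneg w)
          exact (le_abs_self _).trans (h1.trans h3))
      obtain ⟨t, ht, hu⟩ := exit_chord' P.dX P.unit hm.aff
      obtain ⟨t₂, y₂, b, _, hq, hm₂, _⟩ := P.mate hm ht hu
      exact ⟨⟨y, y₂, a, b, t, t₂⟩, fun _ _ => ⟨hm, hm₂, ht, hu, hq⟩⟩
    · exact ⟨⟨0, 0, 0, 0, 0, 0⟩, fun h1 h2 => absurd ⟨h1, h2⟩ hη⟩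
  choose q hq using hex
  refine ⟨r₀, fun η => (q η).1, fun η => (q η).2.1, fun η => (q η).2.2.1, fun η => (q η).2.2.2.1,
    hr₀0, fun η h1 h2 => ⟨(hq η h1 h2).1, (hq η h1 h2).2.1⟩, fun e he => ?_⟩
  obtain ⟨r, hr, hb⟩ := P.e_exp₂ he
  refine ⟨min r r₀, by positivity, fun η hη hηr => ?_⟩
  have h1 := hq η hη (hηr.trans_le (min_le_right _ _))
  exact hb η _ _ _ _ _ hη (hηr.trans_le (min_le_left _ _)) h1.1 h1.2.2.1 h1.2.2.2.1 h1.2.1.aff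
    h1.2.2.2.2

end Exp

end Vale.Agent.Lib.P084.Thm
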