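import Mathlib
import Vale.Agent.Lib.P084.Thm.Exp
import Vale.Agent.Lib.P084.Str.Rigid
import Vale.Agent.Lib.P084.Loc.Cubic

/-! Total symmetry of the second derivative, without smoothness, and its vanishing. -/

namespace Vale.Agent.Lib.P084.Thm

open Set Metric Filter Topology
open Vale.Agent.Lib.P084 Vale.Agent.Lib.P084.Str Vale.Agent.Lib.P084.Dens

section Mesh

/-- A telescoping estimate along a line. -/
lemma mesh {F L : ℝ → ℝ} {E K : ℝ}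
    (hF : ∀ s s' : ℝ, 0 ≤ s → s ≤ s' → s' ≤ 1 →
      F s' - F s ≤ (s' - s) * (E + L s' - L s) + K * (s' - s) ^ 2) :
    F 1 - F 0 ≤ E := by
  have key : ∀ m : ℕ, 0 < m → F 1 - F 0 ≤ E + (L 1 - L 0 + K) / m := by
    intro m hm
    have hm' : (0 : ℝ) < m := by exact_mod_cast hm
    have step : ∀ i : ℕ, i ≤ m → F ((i : ℝ) / m) - F 0 ≤
        ((i : ℝ) / m) * E + (1 / (m : ℝ)) * (L ((i : ℝ) / m) - L 0) + ((i : ℝ) / (m : ℝ) ^ 2) * K := by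
      intro i
      induction i with
      | zero =>
        intro _
        simp
      | succ i ih =>
        intro hi
        have h1 := ih (by omega)
        have hi' : ((i : ℝ) + 1) ≤ m := by exact_mod_cast hi
        have h2 := hF ((i : ℝ) / m) (((i : ℝ) + 1) / m) (by positivity)
          (by
            apply div_le_div_of_nonneg_right _ hm'.le
            linarith)
          (by rwa [div_le_one hm'])
        have e1 : ((i : ℝ) + 1) / m - (i : ℝ) / m = 1 / m := by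
          field_simp
          ring
        rw [e1] at h2
        have e2 : ((i + 1 : ℕ) : ℝ) = (i : ℝ) + 1 := by push_cast; ring
        rw [e2]
        have e3 : K * (1 / (m : ℝ)) ^ 2 = (1 / (m : ℝ) ^ 2) * K := by
          field_simp
        rw [e3] at h2
        have e4 : ((i : ℝ) + 1) / m * E = (i : ℝ) / m * E + 1 / m * E := by ring
        have e5 : ((i : ℝ) + 1) / (m : ℝ) ^ 2 * K = (i : ℝ) / (m : ℝ) ^ 2 * K + 1 / (m : ℝ) ^ 2 * K := by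
          ring
        rw [e4, e5]
        have e6 : 1 / (m : ℝ) * (E + L (((i : ℝ) + 1) / m) - L ((i : ℝ) / m)) =
            1 / m * E + 1 / m * (L (((i : ℝ) + 1) / m) - L ((i : ℝ) / m)) := by ring
        rw [e6] at h2
        have e7 : 1 / (m : ℝ) * (L (((i : ℝ) + 1) / m) - L 0) =
            1 / m * (L (((i : ℝ) + 1) / m) - L ((i : ℝ) / m)) + 1 / m * (L ((i : ℝ) / m) - L 0) := by
          ring
        rw [e7]
        linarith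
    have h1 := step m le_rfl
    have e1 : (m : ℝ) / m = 1 := div_self hm'.ne'
    rw [e1, one_mul] at h1
    have e2 : (m : ℝ) / (m : ℝ) ^ 2 = 1 / m := by
      field_simp
    rw [e2] at h1
    have e3 : (L 1 - L 0 + K) / m = 1 / m * (L 1 - L 0) + 1 / m * K := by ring
    rw [e3]
    linarith
  by_contra hc
  push Not at hc
  obtain ⟨gap, hgap⟩ : ∃ gap, gap = F 1 - F 0 - E := ⟨_, rfl⟩
  have hgap0 : 0 < gap := by
    rw [hgap]
    linarith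
  obtain ⟨m, hm⟩ := exists_nat_gt (|L 1 - L 0 + K| / gap)
  have hm0 : (0 : ℝ) < m := lt_of_le_of_lt (by positivity) hm
  have hm1 : 0 < m := by exact_mod_cast hm0
  have h1 := key m hm1
  have h2 : (L 1 - L 0 + K) / m ≤ |L 1 - L 0 + K| / m :=
    div_le_div_of_nonneg_right (le_abs_self _) hm0.le
  have h3 : |L 1 - L 0 + K| / m < gap := by
    rw [div_lt_iff₀ hm0]
    rw [div_lt_iff₀ hgap0] at hm
    linarith
  linarith

end Mesh

section Two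

variable {V : Type*} [NormedAddCommGroup V] [NormedSpace ℝ V]

/-- The comparison of the two paths at one scale. -/
lemma two_path_step' {ω : V → ℝ} (C : V →L[ℝ] V →L[ℝ] V →L[ℝ] ℝ) (hC : ∀ a b c, C a b c = C b a c)
    {e r : ℝ} (he : 0 ≤ e)
    (hb : ∀ (a b : V) (ε : ℝ), 0 < ε → ε * (‖a‖ + ‖b‖) < r →
      |ω (ε • a + ε • b) - ω (ε • a) + ε ^ 3 * (C a a b + C a b b + 1 / 3 * C b b b)| ≤
        e * (ε * (‖a‖ + ‖b‖)) ^ 2 * (ε * ‖b‖))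
    (a b : V) {ε : ℝ} (hε0 : 0 < ε) (h₂ : ε * (‖a‖ + ‖b‖) < r) :
    |C a a b + C a b b - (C b b a + C b a a)| ≤ e * (4 * (‖a‖ + ‖b‖ + 1) ^ 3) := by
  have ha0 := norm_nonneg a
  have hb0 := norm_nonneg b
  have hεa : ε * ‖a‖ ≤ ε * (‖a‖ + ‖b‖) := mul_le_mul_of_nonneg_left (by linarith) hε0.le
  have hεb : ε * ‖b‖ ≤ ε * (‖a‖ + ‖b‖) := mul_le_mul_of_nonneg_left (by linarith) hε0.le
  have hab := hb a b ε hε0 h₂
  have hba := hb b a ε hε0 (by rwa [add_comm])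
  have h0a := hb 0 a ε hε0 (by
    rw [norm_zero, zero_add]
    linarith)
  have h0b := hb 0 b ε hε0 (by
    rw [norm_zero, zero_add]
    linarith)
  simp only [smul_zero, zero_add, map_zero, _root_.zero_apply, norm_zero] at h0a h0b
  rw [add_comm (ε • b)] at hba
  obtain ⟨N, hN⟩ : ∃ N, N = ‖a‖ + ‖b‖ + 1 := ⟨_, rfl⟩
  rw [← hN]
  have c1 := cube_bound (N := N) hε0 (add_nonneg ha0 hb0) hb0 (by linarith) (by linarith)
  have c2 := cube_bound (N := N) hε0 (add_nonneg hb0 ha0) ha0 (by linarith) (by linarith)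
  have c3 := cube_bound (N := N) hε0 ha0 ha0 (by linarith) (by linarith)
  have c4 := cube_bound (N := N) hε0 hb0 hb0 (by linarith) (by linarith)
  have d1 : |ω (ε • a + ε • b) - ω (ε • a) + ε ^ 3 * (C a a b + C a b b + 1 / 3 * C b b b)| ≤
      e * (ε ^ 3 * N ^ 3) := hab.trans (by
    rw [mul_assoc]
    exact mul_le_mul_of_nonneg_left c1 he)
  have d2 : |ω (ε • a + ε • b) - ω (ε • b) + ε ^ 3 * (C b b a + C b a a + 1 / 3 * C a a a)| ≤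
      e * (ε ^ 3 * N ^ 3) := hba.trans (by
    rw [mul_assoc]
    exact mul_le_mul_of_nonneg_left c2 he)
  have d3 : |ω (ε • a) - ω 0 + ε ^ 3 * (1 / 3 * C a a a)| ≤ e * (ε ^ 3 * N ^ 3) := h0a.trans (by
    rw [mul_assoc]
    exact mul_le_mul_of_nonneg_left c3 he)
  have d4 : |ω (ε • b) - ω 0 + ε ^ 3 * (1 / 3 * C b b b)| ≤ e * (ε ^ 3 * N ^ 3) := h0b.trans (by
    rw [mul_assoc]
    exact mul_le_mul_of_nonneg_left c4 he)
  have h5 := four_abs d1 d2 d3 d4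
  have hε3 : 0 < ε ^ 3 := by positivity
  have e1 : ω (ε • a + ε • b) - ω (ε • a) + ε ^ 3 * (C a a b + C a b b + 1 / 3 * C b b b) +
      (ω (ε • a) - ω 0 + ε ^ 3 * (1 / 3 * C a a a)) -
      (ω (ε • a + ε • b) - ω (ε • b) + ε ^ 3 * (C b b a + C b a a + 1 / 3 * C a a a)) -
      (ω (ε • b) - ω 0 + ε ^ 3 * (1 / 3 * C b b b)) =
      ε ^ 3 * (C a a b + C a b b - (C b b a + C b a a)) := by ring
  rw [e1, abs_mul, abs_of_pos hε3] at h5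
  have e2 : 4 * (e * (ε ^ 3 * N ^ 3)) = ε ^ 3 * (e * (4 * N ^ 3)) := by ring
  rw [e2] at h5
  exact le_of_mul_le_mul_left h5 hε3

/-- **Two paths.** -/
theorem two_path' {ω : V → ℝ} (C : V →L[ℝ] V →L[ℝ] V →L[ℝ] ℝ) (hC : ∀ a b c, C a b c = C b a c)
    (hest : ∀ e : ℝ, 0 < e → ∃ r : ℝ, 0 < r ∧ ∀ (a b : V) (ε : ℝ), 0 < ε → ε * (‖a‖ + ‖b‖) < r →
      |ω (ε • a + ε • b) - ω (ε • a) + ε ^ 3 * (C a a b + C a b b + 1 / 3 * C b b b)| ≤
        e * (ε * (‖a‖ + ‖b‖)) ^ 2 * (ε * ‖b‖)) (a b : V) : C a a b = C a b a := by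
  -- the identity from comparing two paths
  have key : ∀ a b : V, C a a b + C a b b = C b b a + C b a a := by
    intro a b
    obtain ⟨M, hM⟩ : ∃ M, M = 4 * (‖a‖ + ‖b‖ + 1) ^ 3 := ⟨_, rfl⟩
    have hM0 : 0 < M := by
      rw [hM]
      positivity
    have hmain : ∀ e : ℝ, 0 < e →
        |C a a b + C a b b - (C b b a + C b a a)| ≤ e * M := by
      intro e he
      obtain ⟨r, hr, hb⟩ := hest e he
      obtain ⟨ε, hε⟩ : ∃ ε, ε = r / (2 * (‖a‖ + ‖b‖ + 1)) := ⟨_, rfl⟩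
      have hε0 : 0 < ε := by
        rw [hε]
        positivity
      have hε1 : ε * (‖a‖ + ‖b‖ + 1) < r := by
        rw [hε]
        have : r / (2 * (‖a‖ + ‖b‖ + 1)) * (‖a‖ + ‖b‖ + 1) = r / 2 := by
          field_simp
        rw [this]
        linarith
      have hε2 : ε * (‖a‖ + ‖b‖) < r := by
        have : ε * (‖a‖ + ‖b‖) ≤ ε * (‖a‖ + ‖b‖ + 1) := by
          have := mul_le_mul_of_nonneg_left (by linarith : ‖a‖ + ‖b‖ ≤ ‖a‖ + ‖b‖ + 1) hε0.le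
          exact this
        linarith
      rw [hM]
      exact two_path_step' C hC he.le hb a b hε0 hε2
    by_contra hne
    have hpos := abs_pos.2 (sub_ne_zero.2 hne)
    have h1 := hmain (|C a a b + C a b b - (C b b a + C b a a)| / (2 * M)) (by positivity)
    have h2 : |C a a b + C a b b - (C b b a + C b a a)| / (2 * M) * M =
        |C a a b + C a b b - (C b b a + C b a a)| / 2 := by
      field_simp
    rw [h2] at h1
    linarith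
  have h1 := key a b
  have h2 := key a (-b)
  simp only [map_neg, _root_.neg_apply, neg_neg] at h2
  rw [hC b a a] at h1 h2
  linarith


end Two

section Sym

variable {X Y : Type*} [NormedAddCommGroup X] [NormedSpace ℝ X]
  [NormedAddCommGroup Y] [NormedSpace ℝ Y] {g : X → Y} {h : Y → X} {p : X} {A : X →L[ℝ] Y}
  {Λ : Y →L[ℝ] X} {BB : X →L[ℝ] X →L[ℝ] Y} {HH : X →L[ℝ] X →L[ℝ] ℝ}
  [FiniteDimensional ℝ X] [FiniteDimensional ℝ Y]

/-- The basic inequality for the difference of the values. -/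
lemma TB.omega_step (P : TB g h p A Λ BB HH) {η η' : X} {y₁ y₁' : X} {y₂ y₂' : Y}
    {a₁ a₁' a₂ a₂' : ℝ} (m₁ : Mn (chi p) (HH η) y₁ a₁) (m₂ : Mn (chi (g p)) ((HH η).comp Λ) y₂ a₂)
    (m₁' : Mn (chi p) (HH η') y₁' a₁') (m₂' : Mn (chi (g p)) ((HH η').comp Λ) y₂' a₂') :
    (a₂' - a₁') - (a₂ - a₁) ≤ HH (η' - η) (y₁' - Λ y₂) := by
  have h1 := m₂.super m₂'
  have h2 := m₁'.super m₁
  simp only [ContinuousLinearMap.comp_apply] at h1
  simp only [map_sub, _root_.sub_apply]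
  linarith

lemma frac_abs {z C : ℝ} (h0 : 0 ≤ z) (h1 : z ≤ 1) : z * C ≤ |C| := by
  have h2 : z * C ≤ z * |C| := mul_le_mul_of_nonneg_left (le_abs_self C) h0
  have h3 : z * |C| ≤ 1 * |C| := mul_le_mul_of_nonneg_right h1 (abs_nonneg C)
  linarith

lemma line_arith {W d Ln Lo Hc C₀ C₁ C₂ s E A₁ A₂ : ℝ}
    (h7 : W ≤ d * (Ln - (Hc + Lo + (C₀ + 2 * s * C₁ + s ^ 2 * C₂))))
    (h6 : d * (-Hc) ≤ d * E) (h14 : d ^ 2 * ((s + d + 2 * s) / 3 * C₂) ≤ d ^ 2 * A₂)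
    (h15 : d ^ 2 * C₁ ≤ d ^ 2 * A₁) :
    W + d * C₀ + (2 * s * d + d ^ 2) * C₁ + (s ^ 2 * d + s * d ^ 2 + d ^ 3 / 3) * C₂ ≤
      d * (E + Ln - Lo) + (A₁ + A₂) * d ^ 2 := by
  nlinarith

/-- The one sided estimate along a segment. -/
lemma TB.line_le (P : TB g h p A Λ BB HH) {r₀ : ℝ} {y₁ : X → X} {y₂ : X → Y} {a₁ a₂ : X → ℝ}
    (hfam : ∀ η, chi p η = 0 → ‖η‖ < r₀ →
      Mn (chi p) (HH η) (y₁ η) (a₁ η) ∧ Mn (chi (g p)) ((HH η).comp Λ) (y₂ η) (a₂ η))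
    {e r R : ℝ} (he : 0 ≤ e) (hR₀ : R < r₀) (hR : R < r)
    (hest : ∀ η, chi p η = 0 → ‖η‖ < r →
      ‖Λ (y₂ η) - y₁ η - Λ (BB η η)‖ ≤ e / (‖HH‖ + 1) * ‖η‖ ^ 2)
    {η c : X} (hη : chi p η = 0) (hc : chi p c = 0) (h1 : ‖η‖ ≤ R) (h2 : ‖η + c‖ ≤ R) :
    (a₂ (η + c) - a₁ (η + c)) - (a₂ η - a₁ η) ≤
      -(HH (Λ (BB η η)) c + HH (Λ (BB η c)) c + 1 / 3 * HH (Λ (BB c c)) c) + e * R ^ 2 * ‖c‖ := by
  obtain ⟨C₀, hC₀⟩ : ∃ C₀, C₀ = HH (Λ (BB η η)) c := ⟨_, rfl⟩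
  obtain ⟨C₁, hC₁⟩ : ∃ C₁, C₁ = HH (Λ (BB η c)) c := ⟨_, rfl⟩
  obtain ⟨C₂, hC₂⟩ : ∃ C₂, C₂ = HH (Λ (BB c c)) c := ⟨_, rfl⟩
  rw [← hC₀, ← hC₁, ← hC₂]
  have hpt : ∀ s : ℝ, 0 ≤ s → s ≤ 1 → chi p (η + s • c) = 0 ∧ ‖η + s • c‖ ≤ R := by
    intro s hs0 hs1
    refine ⟨by rw [map_add, map_smul, hη, hc]; simp, ?_⟩
    have e1 : η + s • c = (1 - s) • η + s • (η + c) := by module
    rw [e1]
    refine (norm_add_le _ _).trans ?_
    rw [norm_smul, norm_smul, Real.norm_of_nonneg hs0, Real.norm_of_nonneg (by linarith)]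
    have h3 := mul_le_mul_of_nonneg_left h1 (by linarith : 0 ≤ 1 - s)
    have h4 := mul_le_mul_of_nonneg_left h2 hs0
    linarith
  have hmesh := mesh (F := fun s : ℝ => (a₂ (η + s • c) - a₁ (η + s • c)) +
      (s * C₀ + s ^ 2 * C₁ + s ^ 3 / 3 * C₂)) (L := fun s : ℝ => HH c (y₁ (η + s • c)))
      (E := e * R ^ 2 * ‖c‖) (K := |C₁| + |C₂|) ?_
  · simp only [one_smul, zero_smul, add_zero, one_mul, one_pow, zero_mul, ne_eq,
      OfNat.ofNat_ne_zero, not_false_eq_true, zero_pow, zero_div] at hmesh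
    linarith
  intro s s' hs hss hs'
  obtain ⟨hη₁, hη₂⟩ := hpt s hs (by linarith)
  obtain ⟨hη₁', hη₂'⟩ := hpt s' (by linarith) hs'
  obtain ⟨m₁, m₂⟩ := hfam _ hη₁ (by linarith)
  obtain ⟨m₁', m₂'⟩ := hfam _ hη₁' (by linarith)
  have h3 := P.omega_step m₁ m₂ m₁' m₂'
  have e1 : (η + s' • c) - (η + s • c) = (s' - s) • c := by module
  rw [e1, map_smul, _root_.smul_apply, smul_eq_mul, map_sub] at h3
  obtain ⟨E', hE'⟩ : ∃ E', E' = Λ (y₂ (η + s • c)) - y₁ (η + s • c) - Λ (BB (η + s • c) (η + s • c)) :=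
    ⟨_, rfl⟩
  have hE'b : ‖E'‖ ≤ e / (‖HH‖ + 1) * R ^ 2 := by
    rw [hE']
    refine (hest _ hη₁ (by linarith)).trans ?_
    refine mul_le_mul_of_nonneg_left ?_ (by positivity)
    exact pow_le_pow_left₀ (norm_nonneg _) hη₂ 2
  have e2 : HH c (Λ (y₂ (η + s • c))) = HH c E' + HH c (y₁ (η + s • c)) +
      HH c (Λ (BB (η + s • c) (η + s • c))) := by
    rw [hE', map_sub, map_sub]
    ring
  have e3 : HH c (Λ (BB (η + s • c) (η + s • c))) = C₀ + 2 * s * C₁ + s ^ 2 * C₂ := by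
    rw [P.H_sym c, hC₀, hC₁, hC₂]
    simp only [map_add, map_smul, _root_.add_apply, _root_.smul_apply, smul_eq_mul, P.B_sym c η]
    ring
  have hE'c : |HH c E'| ≤ e * R ^ 2 * ‖c‖ := by
    have h4 := (HH c).le_opNorm E'
    rw [Real.norm_eq_abs] at h4
    refine h4.trans ?_
    have h5 := HH.le_opNorm c
    have h6 : ‖HH c‖ * ‖E'‖ ≤ (‖HH‖ * ‖c‖) * (e / (‖HH‖ + 1) * R ^ 2) :=
      mul_le_mul h5 hE'b (norm_nonneg _) (by positivity)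
    refine h6.trans ?_
    have e4 : (‖HH‖ * ‖c‖) * (e / (‖HH‖ + 1) * R ^ 2) =
        e * R ^ 2 * ‖c‖ * (‖HH‖ / (‖HH‖ + 1)) := by
      field_simp
    rw [e4]
    have h7 : ‖HH‖ / (‖HH‖ + 1) ≤ 1 := by
      rw [div_le_one (by positivity)]
      linarith
    have h8 : 0 ≤ e * R ^ 2 * ‖c‖ := by positivity
    nlinarith
  rw [e2, e3] at h3
  obtain ⟨d, hd⟩ : ∃ d, d = s' - s := ⟨_, rfl⟩
  have hd0 : 0 ≤ d := by
    rw [hd]
    linarith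
  have hs'd : s' = s + d := by rw [hd]; ring
  rw [← hd] at h3 ⊢
  obtain ⟨Ln, hLn⟩ : ∃ Ln, Ln = HH c (y₁ (η + s' • c)) := ⟨_, rfl⟩
  obtain ⟨Lo, hLo⟩ : ∃ Lo, Lo = HH c (y₁ (η + s • c)) := ⟨_, rfl⟩
  rw [← hLn, ← hLo] at h3 ⊢
  obtain ⟨W, hW⟩ : ∃ W, W = (a₂ (η + s' • c) - a₁ (η + s' • c)) - (a₂ (η + s • c) - a₁ (η + s • c)) :=
    ⟨_, rfl⟩
  rw [← hW] at h3
  have h5 := abs_le.1 hE'c
  have h6 : d * (-(HH c E')) ≤ d * (e * R ^ 2 * ‖c‖) :=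
    mul_le_mul_of_nonneg_left (by linarith [h5.1]) hd0
  have h7 : W ≤ d * (Ln - (HH c E' + Lo + (C₀ + 2 * s * C₁ + s ^ 2 * C₂))) := h3
  have h8 : (s + d + 2 * s) / 3 ≤ 1 := by
    rw [hs'd] at hs'
    linarith
  have h9 : 0 ≤ (s + d + 2 * s) / 3 := by positivity
  have h10 : (s + d + 2 * s) / 3 * C₂ ≤ |C₂| := frac_abs h9 h8
  have h14 : d ^ 2 * ((s + d + 2 * s) / 3 * C₂) ≤ d ^ 2 * |C₂| :=
    mul_le_mul_of_nonneg_left h10 (by positivity)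
  have h15 : d ^ 2 * C₁ ≤ d ^ 2 * |C₁| :=
    mul_le_mul_of_nonneg_left (le_abs_self _) (by positivity)
  have e5 : (a₂ (η + s' • c) - a₁ (η + s' • c) + (s' * C₀ + s' ^ 2 * C₁ + s' ^ 3 / 3 * C₂)) -
      (a₂ (η + s • c) - a₁ (η + s • c) + (s * C₀ + s ^ 2 * C₁ + s ^ 3 / 3 * C₂)) =
      W + d * C₀ + (2 * s * d + d ^ 2) * C₁ + (s ^ 2 * d + s * d ^ 2 + d ^ 3 / 3) * C₂ := by
    rw [hW, hs'd]
    ring
  rw [e5]
  exact line_arith h7 h6 h14 h15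

/-- The two sided estimate along a segment. -/
lemma TB.line_abs (P : TB g h p A Λ BB HH) {r₀ : ℝ} {y₁ : X → X} {y₂ : X → Y} {a₁ a₂ : X → ℝ}
    (hfam : ∀ η, chi p η = 0 → ‖η‖ < r₀ →
      Mn (chi p) (HH η) (y₁ η) (a₁ η) ∧ Mn (chi (g p)) ((HH η).comp Λ) (y₂ η) (a₂ η))
    {e r R : ℝ} (he : 0 ≤ e) (hR₀ : R < r₀) (hR : R < r)
    (hest : ∀ η, chi p η = 0 → ‖η‖ < r →
      ‖Λ (y₂ η) - y₁ η - Λ (BB η η)‖ ≤ e / (‖HH‖ + 1) * ‖η‖ ^ 2)
    {η c : X} (hη : chi p η = 0) (hc : chi p c = 0) (h1 : ‖η‖ ≤ R) (h2 : ‖η + c‖ ≤ R) :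
    |(a₂ (η + c) - a₁ (η + c)) - (a₂ η - a₁ η) +
      (HH (Λ (BB η η)) c + HH (Λ (BB η c)) c + 1 / 3 * HH (Λ (BB c c)) c)| ≤ e * R ^ 2 * ‖c‖ := by
  have h3 := P.line_le hfam he hR₀ hR hest hη hc h1 h2
  have h4 := P.line_le hfam he hR₀ hR hest (η := η + c) (c := -c)
    (by rw [map_add, hη, hc, add_zero]) (by rw [map_neg, hc, neg_zero]) h2
    (by rwa [add_neg_cancel_right])
  rw [add_neg_cancel_right, norm_neg] at h4
  have e1 : HH (Λ (BB (η + c) (η + c))) (-c) + HH (Λ (BB (η + c) (-c))) (-c) +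
      1 / 3 * HH (Λ (BB (-c) (-c))) (-c) =
      -(HH (Λ (BB η η)) c + HH (Λ (BB η c)) c + 1 / 3 * HH (Λ (BB c c)) c) := by
    simp only [map_add, map_neg, _root_.add_apply, _root_.neg_apply, neg_neg, P.B_sym c η]
    ring
  rw [e1] at h4
  rw [abs_le]
  constructor <;> linarith

/-- The second derivative as a map into the tangent hyperplane. -/
lemma TB.exists_Delta (P : TB g h p A Λ BB HH) :
    ∃ Δ : Tan p →L[ℝ] Tan p →L[ℝ] Tan p, ∀ a b : Tan p,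
      ((Δ a b : Tan p) : X) = Λ (BB a b) := by
  let f : X →L[ℝ] X := ContinuousLinearMap.id ℝ X - (chi p).smulRight p
  have hf : ∀ z, f z ∈ Tan p := by
    intro z
    rw [mem_Tan]
    simp [f, P.phi_self]
  let π : X →L[ℝ] Tan p := f.codRestrict (Tan p) hf
  let ι : Tan p →L[ℝ] X := (Tan p).subtypeL
  refine ⟨((ContinuousLinearMap.compL ℝ (Tan p) Y (Tan p)) (π.comp Λ)).comp
    (BB.bilinearComp ι ι), fun a b => ?_⟩
  have h1 : chi p (Λ (BB a b)) = 0 := by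
    rw [P.PhiL]
    exact Phi_B P (mem_Tan.1 a.2) (mem_Tan.1 b.2)
  change f (Λ (BB a b)) = _
  simp [f, h1]

/-- **Total symmetry.** -/
theorem TB.sym_C (P : TB g h p A Λ BB HH) {a b c : X} (ha : chi p a = 0) (hb : chi p b = 0)
    (hc : chi p c = 0) : HH (Λ (BB a b)) c = HH (Λ (BB a c)) b := by
  obtain ⟨Δ, hΔ⟩ := P.exists_Delta
  obtain ⟨r₀, y₁, y₂, a₁, a₂, hr₀, hfam, hexp⟩ := P.exists_family
  let ι : Tan p →L[ℝ] X := (Tan p).subtypeL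
  let hh : Tan p →L[ℝ] Tan p →L[ℝ] ℝ := HH.bilinearComp ι ι
  let C : Tan p →L[ℝ] Tan p →L[ℝ] Tan p →L[ℝ] ℝ :=
    (ContinuousLinearMap.compL ℝ (Tan p) (Tan p) (Tan p →L[ℝ] ℝ) hh).comp Δ
  have hC : ∀ q₁ q₂ q₃ : Tan p, C q₁ q₂ q₃ = HH (Λ (BB q₁ q₂)) q₃ := by
    intro q₁ q₂ q₃
    change HH ((Δ q₁ q₂ : Tan p) : X) q₃ = _
    rw [hΔ]
  have hC1 : ∀ q₁ q₂ q₃, C q₁ q₂ q₃ = C q₂ q₁ q₃ := by
    intro q₁ q₂ q₃
    rw [hC, hC, P.B_sym]
  have hkey : ∀ q₁ q₂ : Tan p, C q₁ q₁ q₂ = C q₁ q₂ q₁ := by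
    refine two_path' (ω := fun v : Tan p => a₂ v - a₁ v) C hC1 fun e he => ?_
    obtain ⟨r, hr, hb'⟩ := hexp (e / (‖HH‖ + 1)) (by positivity)
    refine ⟨min r r₀, by positivity, fun q₁ q₂ ε hε hq => ?_⟩
    have hR₁ : ε * (‖q₁‖ + ‖q₂‖) < r := hq.trans_le (min_le_left _ _)
    have hR₂ : ε * (‖q₁‖ + ‖q₂‖) < r₀ := hq.trans_le (min_le_right _ _)
    have hq₁n : 0 ≤ ‖q₁‖ := norm_nonneg _
    have hq₂n : 0 ≤ ‖q₂‖ := norm_nonneg _
    have hη : ‖((ε • q₁ : Tan p) : X)‖ ≤ ε * (‖q₁‖ + ‖q₂‖) := by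
      have e1 : ‖((ε • q₁ : Tan p) : X)‖ = ε * ‖q₁‖ := by
        change ‖ε • q₁‖ = _
        rw [norm_smul, Real.norm_of_nonneg hε.le]
      rw [e1]
      exact mul_le_mul_of_nonneg_left (by linarith) hε.le
    have hηc : ‖((ε • q₁ : Tan p) : X) + ((ε • q₂ : Tan p) : X)‖ ≤ ε * (‖q₁‖ + ‖q₂‖) := by
      change ‖ε • q₁ + ε • q₂‖ ≤ _
      refine (norm_add_le _ _).trans ?_
      rw [norm_smul, norm_smul, Real.norm_of_nonneg hε.le]
      nlinarith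
    have h1 := P.line_abs hfam (e := e) (r := r) he.le hR₂ hR₁ hb'
      (η := ((ε • q₁ : Tan p) : X)) (c := ((ε • q₂ : Tan p) : X))
      (mem_Tan.1 (ε • q₁).2) (mem_Tan.1 (ε • q₂).2) hη hηc
    have e2 : ‖((ε • q₂ : Tan p) : X)‖ = ε * ‖q₂‖ := by
      change ‖ε • q₂‖ = _
      rw [norm_smul, Real.norm_of_nonneg hε.le]
    rw [e2] at h1
    have e3 : HH (Λ (BB ((ε • q₁ : Tan p) : X) ((ε • q₁ : Tan p) : X))) ((ε • q₂ : Tan p) : X) +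
        HH (Λ (BB ((ε • q₁ : Tan p) : X) ((ε • q₂ : Tan p) : X))) ((ε • q₂ : Tan p) : X) +
        1 / 3 * HH (Λ (BB ((ε • q₂ : Tan p) : X) ((ε • q₂ : Tan p) : X))) ((ε • q₂ : Tan p) : X) =
        ε ^ 3 * (C q₁ q₁ q₂ + C q₁ q₂ q₂ + 1 / 3 * C q₂ q₂ q₂) := by
      rw [hC, hC, hC]
      simp only [Submodule.coe_smul, map_smul, _root_.smul_apply, smul_eq_mul]
      ring
    rw [e3] at h1
    have e4 : ((ε • q₁ + ε • q₂ : Tan p) : X) = ((ε • q₁ : Tan p) : X) + ((ε • q₂ : Tan p) : X) := rfl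
    simp only [e4]
    have e5 : (a₂ (((ε • q₁ : Tan p) : X) + ((ε • q₂ : Tan p) : X)) -
        a₁ (((ε • q₁ : Tan p) : X) + ((ε • q₂ : Tan p) : X))) -
        (a₂ ((ε • q₁ : Tan p) : X) - a₁ ((ε • q₁ : Tan p) : X)) +
        ε ^ 3 * (C q₁ q₁ q₂ + C q₁ q₂ q₂ + 1 / 3 * C q₂ q₂ q₂) =
        (a₂ (((ε • q₁ : Tan p) : X) + ((ε • q₂ : Tan p) : X)) -
        a₁ (((ε • q₁ : Tan p) : X) + ((ε • q₂ : Tan p) : X))) -
        (a₂ ((ε • q₁ : Tan p) : X) - a₁ ((ε • q₁ : Tan p) : X)) +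
        ε ^ 3 * (C q₁ q₁ q₂ + C q₁ q₂ q₂ + 1 / 3 * C q₂ q₂ q₂) := rfl
    exact h1
  have hfin := tri_symm C hC1 hkey ⟨a, mem_Tan.2 ha⟩ ⟨b, mem_Tan.2 hb⟩ ⟨c, mem_Tan.2 hc⟩
  rw [hC, hC] at hfin
  exact hfin

/-- **The second derivative vanishes on the tangent hyperplane.** -/
theorem TB.B_zero (P : TB g h p A Λ BB HH) (hdim : 3 ≤ Module.finrank ℝ X) {a b : X}
    (ha : chi p a = 0) (hb : chi p b = 0) : BB a b = 0 := by
  obtain ⟨Δ, hΔ⟩ := P.exists_Delta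
  let ι : Tan p →L[ℝ] X := (Tan p).subtypeL
  let hh : Tan p →L[ℝ] Tan p →L[ℝ] ℝ := HH.bilinearComp ι ι
  have hfr : 2 ≤ Module.finrank ℝ (Tan p) := by
    have h1 := LinearMap.finrank_range_add_finrank_ker ((chi p : X →L[ℝ] ℝ) : X →ₗ[ℝ] ℝ)
    have h2 : Module.finrank ℝ (LinearMap.range ((chi p : X →L[ℝ] ℝ) : X →ₗ[ℝ] ℝ)) ≤
        Module.finrank ℝ ℝ := Submodule.finrank_le _
    rw [Module.finrank_self] at h2
    have h3 : Module.finrank ℝ (Tan p) =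
        Module.finrank ℝ (LinearMap.ker ((chi p : X →L[ℝ] ℝ) : X →ₗ[ℝ] ℝ)) := rfl
    omega
  have hzero := Loc.cubic_rigid' (V := Tan p) (h := hh) hfr
    (fun q₁ q₂ => P.H_sym q₁ q₂)
    (fun q hq => P.H_pos q (mem_Tan.1 q.2) (fun h0 => hq (Subtype.ext h0)))
    Δ (fun q₁ q₂ => Subtype.ext (by rw [hΔ, hΔ, P.B_sym]))
    (fun q₁ q₂ q₃ => by
      change HH ((Δ q₁ q₂ : Tan p) : X) q₃ = HH ((Δ q₁ q₃ : Tan p) : X) q₂
      rw [hΔ, hΔ]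
      exact P.sym_C (mem_Tan.1 q₁.2) (mem_Tan.1 q₂.2) (mem_Tan.1 q₃.2))
    (fun u _ w hw => by
      have h1 := P.stationary (u := (u : X)) (w := (w : X)) (mem_Tan.1 u.2) (mem_Tan.1 w.2) hw
      have e1 : (fun t : ℝ => ‖u + t • Δ w u‖) = fun t : ℝ => ‖(u : X) + t • Λ (BB w u)‖ := by
        funext t
        change ‖((u + t • Δ w u : Tan p) : X)‖ = _
        rw [Submodule.coe_add, Submodule.coe_smul, hΔ]
      rw [e1]
      exact h1)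
  have h1 := hΔ ⟨a, mem_Tan.2 ha⟩ ⟨b, mem_Tan.2 hb⟩
  rw [hzero] at h1
  have h2 : Λ (BB a b) = 0 := h1.symm
  have h3 := P.right (BB a b)
  rw [h2, map_zero] at h3
  exact h3.symm

end Sym

end Vale.Agent.Lib.P084.Thm
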