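import Mathlib
import Vale.Agent.Lib.P084.Thm.Sym

/-! From the vanishing of the second derivative to a base point. -/

namespace Vale.Agent.Lib.P084.Thm

open Set Metric Filter Topology
open Vale.Agent.Lib.P084 Vale.Agent.Lib.P084.Str Vale.Agent.Lib.P084.Dens

section Uni

variable {X Y : Type*} [NormedAddCommGroup X] [NormedSpace ℝ X]
  [NormedAddCommGroup Y] [NormedSpace ℝ Y] {g : X → Y} {h : Y → X} {p : X} {A : X →L[ℝ] Y}
  {Λ : Y →L[ℝ] X} {BB : X →L[ℝ] X →L[ℝ] Y} {HH : X →L[ℝ] X →L[ℝ] ℝ}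

/-- Scaling of a short chord, at all small scales. -/
lemma TB.second_scale' (P : TB g h p A Λ BB HH) {N e : ℝ} (hN : 0 ≤ N) (he : 0 < e) :
    ∃ ε₀ : ℝ, 0 < ε₀ ∧ ∀ a b : X, chi p a = 0 → chi p b = 0 → ‖a‖ ≤ N → ‖b‖ ≤ N →
      ∀ ε : ℝ, 0 < ε → ε < ε₀ → ∃ (θ : ℝ) (ρ : Y),
      ‖A (a - b) + ρ‖ = ‖(a - b) - θ • p‖ ∧
      |θ - ε / 2 * HH (a + b) (a - b)| ≤ e * ε ∧
      ‖ρ + θ • g p - (ε / 2) • BB (a + b) (a - b)‖ ≤ e * ε := by
  obtain ⟨M, hM⟩ : ∃ M, M = 2 * N ^ 2 + 1 := ⟨_, rfl⟩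
  have hM0 : 0 < M := by
    rw [hM]
    positivity
  obtain ⟨δ₀, hδ₀, hc⟩ := P.chart (e := e / M) (by positivity)
  refine ⟨δ₀ / (N + 1), by positivity, fun a b ha hb haN hbN ε hε0 hεε => ?_⟩
  have hε2 : ε * (N + 1) < δ₀ := by
    rwa [lt_div_iff₀ (by positivity)] at hεε
  have hεa : ‖ε • a‖ < δ₀ := by
    rw [norm_smul, Real.norm_of_nonneg hε0.le]
    have := mul_le_mul_of_nonneg_left haN hε0.le
    nlinarith
  have hεb : ‖ε • b‖ < δ₀ := by
    rw [norm_smul, Real.norm_of_nonneg hε0.le]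
    have := mul_le_mul_of_nonneg_left hbN hε0.le
    nlinarith
  have hsq : ‖a‖ ^ 2 + ‖b‖ ^ 2 ≤ 2 * N ^ 2 := by
    have h1 := pow_le_pow_left₀ (norm_nonneg a) haN 2
    have h2 := pow_le_pow_left₀ (norm_nonneg b) hbN 2
    linarith
  obtain ⟨na, _, _, hya, hna, hga⟩ := hc (ε • a) (by rw [map_smul, ha]; simp) hεa
  obtain ⟨nb, _, _, hyb, hnb, hgb⟩ := hc (ε • b) (by rw [map_smul, hb]; simp) hεb
  have hna2 : ‖ε • a‖ ^ 2 = ε ^ 2 * ‖a‖ ^ 2 := by
    rw [norm_smul, Real.norm_of_nonneg hε0.le, mul_pow]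
  have hnb2 : ‖ε • b‖ ^ 2 = ε ^ 2 * ‖b‖ ^ 2 := by
    rw [norm_smul, Real.norm_of_nonneg hε0.le, mul_pow]
  rw [hna2] at hna hga
  rw [hnb2] at hnb hgb
  obtain ⟨θ, hθ⟩ : ∃ θ, θ = (na - nb) / ε := ⟨_, rfl⟩
  have hθε : ε * θ = na - nb := by
    rw [hθ]
    field_simp
  -- the error terms
  obtain ⟨Ea, hEa⟩ : ∃ Ea, Ea = g ((1 - na) • p + ε • a) - (1 - na) • g p - A (ε • a) -
      (1 / 2 : ℝ) • BB (ε • a) (ε • a) := ⟨_, rfl⟩
  obtain ⟨Eb, hEb⟩ : ∃ Eb, Eb = g ((1 - nb) • p + ε • b) - (1 - nb) • g p - A (ε • b) -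
      (1 / 2 : ℝ) • BB (ε • b) (ε • b) := ⟨_, rfl⟩
  rw [← hEa] at hga
  rw [← hEb] at hgb
  have hBab : BB (a + b) (a - b) = BB a a - BB b b := by
    simp only [map_add, map_sub, _root_.add_apply, P.B_sym b a]
    abel
  have hHab : HH (a + b) (a - b) = HH a a - HH b b := by
    simp only [map_add, map_sub, _root_.add_apply, P.H_sym b a]
    ring
  have hdiffg : g ((1 - na) • p + ε • a) - g ((1 - nb) • p + ε • b) =
      ε • (A (a - b) + (-(θ • g p) + (ε / 2) • BB (a + b) (a - b) + ε⁻¹ • (Ea - Eb))) := by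
    have e1 : g ((1 - na) • p + ε • a) = (1 - na) • g p + A (ε • a) +
        (1 / 2 : ℝ) • BB (ε • a) (ε • a) + Ea := by
      rw [hEa]
      abel
    have e2 : g ((1 - nb) • p + ε • b) = (1 - nb) • g p + A (ε • b) +
        (1 / 2 : ℝ) • BB (ε • b) (ε • b) + Eb := by
      rw [hEb]
      abel
    rw [e1, e2, hBab, map_sub]
    simp only [map_smul, _root_.smul_apply, smul_add, smul_sub, smul_neg, smul_smul, hθε]
    rw [mul_inv_cancel₀ hε0.ne', one_smul, one_smul]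
    have e3 : ε * (ε / 2) = 1 / 2 * ε * ε := by ring
    have e4 : 1 / 2 * (ε * ε) = 1 / 2 * ε * ε := by ring
    rw [e3, e4]
    module
  have hdiffy : ((1 - na) • p + ε • a) - ((1 - nb) • p + ε • b) = ε • ((a - b) - θ • p) := by
    rw [smul_sub, smul_sub, smul_smul, hθε]
    module
  refine ⟨θ, -(θ • g p) + (ε / 2) • BB (a + b) (a - b) + ε⁻¹ • (Ea - Eb), ?_, ?_, ?_⟩
  · have h1 := P.iso.iso _ _ hya hyb
    rw [hdiffg, hdiffy, norm_smul, norm_smul] at h1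
    exact mul_left_cancel₀ (by simpa using hε0.ne') h1
  · have e1 : θ - ε / 2 * HH (a + b) (a - b) =
        ((na - 1 / 2 * HH (ε • a) (ε • a)) - (nb - 1 / 2 * HH (ε • b) (ε • b))) / ε := by
      rw [hHab, hθ]
      simp only [map_smul, _root_.smul_apply, smul_eq_mul]
      field_simp
      ring
    rw [e1, abs_div, abs_of_pos hε0, div_le_iff₀ hε0]
    refine (abs_sub _ _).trans ?_
    have h1 : e / M * (ε ^ 2 * ‖a‖ ^ 2) + e / M * (ε ^ 2 * ‖b‖ ^ 2) ≤ e * ε * ε := by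
      have e2 : e / M * (ε ^ 2 * ‖a‖ ^ 2) + e / M * (ε ^ 2 * ‖b‖ ^ 2) =
          e * ε * ε * ((‖a‖ ^ 2 + ‖b‖ ^ 2) / M) := by
        field_simp
      rw [e2]
      have h2 : (‖a‖ ^ 2 + ‖b‖ ^ 2) / M ≤ 1 := by
        rw [div_le_one hM0, hM]
        linarith
      have h3 : 0 ≤ e * ε * ε := by positivity
      exact mul_le_of_le_one_right h3 h2
    linarith
  · have e1 : -(θ • g p) + (ε / 2) • BB (a + b) (a - b) + ε⁻¹ • (Ea - Eb) + θ • g p -
        (ε / 2) • BB (a + b) (a - b) = ε⁻¹ • (Ea - Eb) := by abel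
    rw [e1, norm_smul, norm_inv, Real.norm_of_nonneg hε0.le, inv_mul_le_iff₀ hε0]
    refine (norm_sub_le _ _).trans ?_
    have h1 : e / M * (ε ^ 2 * ‖a‖ ^ 2) + e / M * (ε ^ 2 * ‖b‖ ^ 2) ≤ ε * (e * ε) := by
      have e2 : e / M * (ε ^ 2 * ‖a‖ ^ 2) + e / M * (ε ^ 2 * ‖b‖ ^ 2) =
          ε * (e * ε) * ((‖a‖ ^ 2 + ‖b‖ ^ 2) / M) := by
        field_simp
      rw [e2]
      have h2 : (‖a‖ ^ 2 + ‖b‖ ^ 2) / M ≤ 1 := by
        rw [div_le_one hM0, hM]
        linarith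
      have h3 : 0 ≤ ε * (e * ε) := by positivity
      exact mul_le_of_le_one_right h3 h2
    linarith


variable [FiniteDimensional ℝ X] [FiniteDimensional ℝ Y]

/-- The last step of the first order relation along tangent vectors. -/
lemma TB.D_final (P : TB g h p A Λ BB HH) {k z v u : X} {κ s θ μ e : ℝ} {ρ : Y}
    (hz : z = v - κ • p) (hAz : A z = A v - κ • g p) (hu : u = k + s • v) (hμ : μ = θ - s * κ)
    (hiso : ‖A u + ρ‖ = ‖u - θ • p‖) (hρ : ‖ρ + θ • g p‖ ≤ e / 6 * s)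
    (hμb2 : 2 * |μ| ≤ (e / 3 + e / 2) * s) : |‖A k + s • A z‖ - ‖k + s • z‖| ≤ e * s := by
  have e1 : k + s • z = (u - θ • p) + μ • p := by
    rw [hu, hz, hμ, smul_sub, sub_smul, smul_smul]
    abel
  have e2 : A k + s • A z = (A u + ρ) - (ρ + θ • g p) + μ • g p := by
    rw [hu, hAz, hμ, map_add, map_smul, smul_sub, sub_smul, smul_smul]
    abel
  have h3 : |‖k + s • z‖ - ‖u - θ • p‖| ≤ |μ| := by
    have h4 := abs_norm_sub_norm_le (k + s • z) (u - θ • p)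
    have e0 : k + s • z - (u - θ • p) = μ • p := by
      rw [e1]
      abel
    rw [e0, norm_smul, P.unit, mul_one, Real.norm_eq_abs] at h4
    exact h4
  have h5 : |‖A k + s • A z‖ - ‖A u + ρ‖| ≤ e / 6 * s + |μ| := by
    have h4 := abs_norm_sub_norm_le (A k + s • A z) (A u + ρ)
    have e3 : A k + s • A z - (A u + ρ) = -(ρ + θ • g p) + μ • g p := by
      rw [e2]
      abel
    rw [e3] at h4
    refine h4.trans ((norm_add_le _ _).trans ?_)
    rw [norm_neg, norm_smul, P.y_unit, mul_one, Real.norm_eq_abs]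
    linarith
  rw [hiso] at h5
  have h6 := abs_le.1 h3
  have h7 := abs_le.1 h5
  rw [abs_le]
  constructor <;> nlinarith [h6.1, h6.2, h7.1, h7.2]

/-- **The norm of the linear map along a tangent vector, to first order.** -/
theorem TB.D_est (P : TB g h p A Λ BB HH) (hB : ∀ a b, chi p a = 0 → chi p b = 0 → BB a b = 0)
    {k z : X} (hk : chi p k = 0) (hk0 : k ≠ 0) {e : ℝ} (he : 0 < e) :
    ∃ s₀ : ℝ, 0 < s₀ ∧ ∀ s : ℝ, 0 < s → s < s₀ → |‖A k + s • A z‖ - ‖k + s • z‖| ≤ e * s := by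
  obtain ⟨v, hv⟩ : ∃ v, v = z - chi p z • p := ⟨_, rfl⟩
  have hvP : chi p v = 0 := by
    rw [hv, map_sub, map_smul, P.phi_self]
    simp
  obtain ⟨κ, hκ⟩ : ∃ κ, κ = -chi p z := ⟨_, rfl⟩
  have hz : z = v - κ • p := by
    rw [hv, hκ, neg_smul]
    abel
  have hAz : A z = A v - κ • g p := by
    rw [hz, map_sub, map_smul, P.Ax]
  have hHk : 0 < HH k k := P.H_pos k hk hk0
  obtain ⟨w, hw⟩ : ∃ w, w = (2 * κ / HH k k) • k := ⟨_, rfl⟩
  have hwP : chi p w = 0 := by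
    rw [hw, map_smul, hk]
    simp
  have hwk : HH w k = 2 * κ := by
    rw [hw, map_smul, _root_.smul_apply, smul_eq_mul]
    field_simp
  obtain ⟨N, hN⟩ : ∃ N, N = ‖w‖ + ‖k‖ + ‖v‖ + 1 := ⟨_, rfl⟩
  have hN0 : 0 ≤ N := by
    rw [hN]
    positivity
  obtain ⟨K₁, hK₁⟩ : ∃ K₁, K₁ = |HH w v| := ⟨_, rfl⟩
  have hK₁0 : 0 ≤ K₁ := by
    rw [hK₁]
    positivity
  obtain ⟨ε₀, hε₀, hsc⟩ := P.second_scale' (N := N) (e := e / 6) hN0 (by positivity)
  refine ⟨min ε₀ (min 1 (e / (2 * (K₁ + 1)))), by positivity, fun s hs hss => ?_⟩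
  have hs₁ : s < ε₀ := hss.trans_le (min_le_left _ _)
  have hs₂ : s < 1 := (hss.trans_le (min_le_right _ _)).trans_le (min_le_left _ _)
  have hs₃ : s * (2 * (K₁ + 1)) < e := by
    have := (hss.trans_le (min_le_right _ _)).trans_le (min_le_right _ _)
    rwa [lt_div_iff₀ (by positivity)] at this
  obtain ⟨u, hu⟩ : ∃ u, u = k + s • v := ⟨_, rfl⟩
  have huP : chi p u = 0 := by
    rw [hu, map_add, map_smul, hk, hvP]
    simp
  obtain ⟨a, ha⟩ : ∃ a, a = (1 / 2 : ℝ) • (w + u) := ⟨_, rfl⟩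
  obtain ⟨b, hb⟩ : ∃ b, b = (1 / 2 : ℝ) • (w - u) := ⟨_, rfl⟩
  have hsub : a - b = u := by
    rw [ha, hb]
    module
  have hadd : a + b = w := by
    rw [ha, hb]
    module
  have haP : chi p a = 0 := by
    rw [ha, map_smul, map_add, hwP, huP]
    simp
  have hbP : chi p b = 0 := by
    rw [hb, map_smul, map_sub, hwP, huP]
    simp
  have hun : ‖u‖ ≤ ‖k‖ + ‖v‖ := by
    rw [hu]
    refine (norm_add_le _ _).trans ?_
    rw [norm_smul, Real.norm_of_nonneg hs.le]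
    have : s * ‖v‖ ≤ 1 * ‖v‖ := mul_le_mul_of_nonneg_right hs₂.le (norm_nonneg v)
    linarith
  have haN : ‖a‖ ≤ N := by
    rw [ha, norm_smul, hN]
    have h1 := norm_add_le w u
    norm_num
    nlinarith [norm_nonneg w, norm_nonneg k, norm_nonneg v, norm_nonneg u]
  have hbN : ‖b‖ ≤ N := by
    rw [hb, norm_smul, hN]
    have h1 := norm_sub_le w u
    norm_num
    nlinarith [norm_nonneg w, norm_nonneg k, norm_nonneg v, norm_nonneg u]
  obtain ⟨θ, ρ, hiso, hθ, hρ⟩ := hsc a b haP hbP haN hbN s hs hs₁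
  rw [hsub] at hiso hθ hρ
  rw [hadd] at hθ hρ
  rw [hB w u hwP huP, smul_zero, sub_zero] at hρ
  have eH : HH w u = 2 * κ + s * HH w v := by
    rw [hu, map_add, map_smul, hwk, smul_eq_mul]
  rw [eH] at hθ
  obtain ⟨μ, hμ⟩ : ∃ μ, μ = θ - s * κ := ⟨_, rfl⟩
  have hμb : |μ| ≤ e / 6 * s + s ^ 2 * K₁ / 2 := by
    have e1 : μ = (θ - s / 2 * (2 * κ + s * HH w v)) + s ^ 2 / 2 * HH w v := by
      rw [hμ]
      ring
    rw [e1]
    refine (abs_add_le _ _).trans ?_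
    rw [abs_mul, abs_of_nonneg (by positivity : 0 ≤ s ^ 2 / 2), ← hK₁]
    have : s ^ 2 / 2 * K₁ = s ^ 2 * K₁ / 2 := by ring
    linarith
  have hμb2 : 2 * |μ| ≤ (e / 3 + e / 2) * s := by
    have h1 : s ^ 2 * K₁ = s * (s * K₁) := by ring
    have h2 : s * K₁ ≤ e / 2 := by nlinarith
    have h3 : s * (s * K₁) ≤ s * (e / 2) := mul_le_mul_of_nonneg_left h2 hs.le
    rw [h1] at hμb
    nlinarith
  exact P.D_final hz hAz hu hμ hiso hρ hμb2

end Uni

section Bs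

variable {X Y : Type*} [NormedAddCommGroup X] [NormedSpace ℝ X]
  [NormedAddCommGroup Y] [NormedSpace ℝ Y]

/-- **A second order base point.** -/
structure Bs (g : X → Y) (h : Y → X) (p : X) (A : X →L[ℝ] Y) (Λ : Y →L[ℝ] X) : Prop where
  iso : SphereIso g h
  unit : ‖p‖ = 1
  dX : DifferentiableAt ℝ (fun z : X => ‖z‖) p
  dY : DifferentiableAt ℝ (fun z : Y => ‖z‖) (g p)
  Ax : A p = g p
  left : ∀ x, Λ (A x) = x
  right : ∀ y, A (Λ y) = y
  bp1 : ∀ ε : ℝ, 0 < ε → ∀ᶠ y in 𝓝 p, ‖y‖ = 1 → ‖g y - A y‖ ≤ ε * ‖y - p‖ ^ 2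
  bp2 : ∃ c : ℝ, 0 < c ∧ ∀ᶠ y in 𝓝 p, ‖y‖ = 1 → c * ‖y - p‖ ^ 2 ≤ 1 - chi p y
  D : ∀ k z, chi p k = 0 → k ≠ 0 → ∀ e : ℝ, 0 < e → ∃ s₀ : ℝ, 0 < s₀ ∧ ∀ s : ℝ, 0 < s → s < s₀ →
    |‖A k + s • A z‖ - ‖k + s • z‖| ≤ e * s

variable {g : X → Y} {h : Y → X} {p : X} {A : X →L[ℝ] Y} {Λ : Y →L[ℝ] X}

lemma Bs.p_ne (B : Bs g h p A Λ) : p ≠ 0 := by
  intro h0
  have := B.unit
  rw [h0, norm_zero] at this
  exact zero_ne_one this

lemma Bs.nontrivial (B : Bs g h p A Λ) : Nontrivial X := ⟨⟨p, 0, B.p_ne⟩⟩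

lemma Bs.y_unit (B : Bs g h p A Λ) : ‖g p‖ = 1 := B.iso.map_g _ B.unit

lemma Bs.phi_self (B : Bs g h p A Λ) : chi p p = 1 := chi_self_unit B.dX B.unit

lemma Bs.Phi_self (B : Bs g h p A Λ) : chi (g p) (g p) = 1 := chi_self_unit B.dY B.y_unit

lemma Bs.hgx (B : Bs g h p A Λ) : h (g p) = p := B.iso.left _ B.unit

lemma Bs.Lx (B : Bs g h p A Λ) : Λ (g p) = p := by
  rw [← B.Ax, B.left]

lemma Bs.bigO (B : Bs g h p A Λ) : BigO g p A := by
  refine ⟨1, ?_⟩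
  filter_upwards [B.bp1 1 one_pos] with y hy hy1
  exact hy hy1

variable [FiniteDimensional ℝ X]

/-- `A` preserves the norm on the tangent hyperplane. -/
lemma Bs.normA (B : Bs g h p A Λ) {w : X} (hw : chi p w = 0) : ‖A w‖ = ‖w‖ :=
  first_norm' B.iso B.dX B.unit B.Ax B.bigO hw

/-- `Φ₀ ∘ A = φ₀`. -/
lemma Bs.Phi (B : Bs g h p A Λ) (z : X) : chi (g p) (A z) = chi p z := by
  have := B.nontrivial
  have hself := B.phi_self
  have hself' := B.Phi_self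
  have hP : ∀ w, chi p w = 0 → chi (g p) (A w) = chi p w := by
    intro w hw
    have hd1 : DifferentiableAt ℝ (fun z : X => ‖z‖) (p - -p) := by
      have e : p - -p = (2 : ℝ) • p := by
        rw [two_smul]
        abel
      rw [e]
      exact (B.dX.hasFDerivAt.hasFDerivAt_norm_smul_pos two_pos).differentiableAt
    have hd2 : DifferentiableAt ℝ (fun z : Y => ‖z‖) (g p - g (-p)) := by
      have e : g p - g (-p) = (2 : ℝ) • g p := by
        rw [sphere_odd B.iso B.unit, two_smul]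
        abel
      rw [e]
      exact (B.dY.hasFDerivAt.hasFDerivAt_norm_smul_pos two_pos).differentiableAt
    have h1 := first_chord' B.iso B.dX B.unit B.Ax B.bigO (u := -p) (by rw [norm_neg]; exact B.unit)
      hw hd1 hd2
    rw [sphere_odd B.iso B.unit] at h1
    have e1 : g p - -g p = (2 : ℝ) • g p := by
      rw [two_smul]
      abel
    have e2 : p - -p = (2 : ℝ) • p := by
      rw [two_smul]
      abel
    rwa [e1, e2, chi_smul two_pos, chi_smul two_pos] at h1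
  have hz : chi p (z - chi p z • p) = 0 := by
    rw [map_sub, map_smul, hself]
    simp
  have h1 := hP _ hz
  rw [hz] at h1
  have e : z = (z - chi p z • p) + chi p z • p := by abel
  rw [e, map_add, map_add, map_add, hz, h1, map_smul, map_smul, map_smul, B.Ax, hself, hself']

lemma Bs.PhiL (B : Bs g h p A Λ) (z : Y) : chi p (Λ z) = chi (g p) z := by
  rw [← B.Phi, B.right]

/-- The base point seen from the other side. -/
lemma Bs.symm (B : Bs g h p A Λ) : Bs h g (g p) Λ A := by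
  refine { iso := B.iso.symm, unit := B.y_unit, dX := B.dY, dY := ?_, Ax := ?_, left := B.right,
           right := B.left, bp1 := ?_, bp2 := ?_, D := ?_ }
  · rw [B.hgx]
    exact B.dX
  · rw [B.Lx, B.hgx]
  · intro ε hε
    obtain ⟨δ, hδ, hb⟩ := Metric.eventually_nhds_iff.1 (B.bp1 (ε / (‖Λ‖ + 1)) (by positivity))
    refine Metric.eventually_nhds_iff.2 ⟨δ, hδ, fun {y'} hy' hy'1 => ?_⟩
    have hx1 : ‖h y'‖ = 1 := B.iso.map_h _ hy'1
    have hgy : g (h y') = y' := B.iso.right _ hy'1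
    have hd : ‖h y' - p‖ = ‖y' - g p‖ := by
      have := B.iso.iso _ _ hx1 B.unit
      rw [hgy] at this
      exact this.symm
    rw [dist_eq_norm, ← hd] at hy'
    have h2 := @hb (h y') (by rwa [dist_eq_norm]) hx1
    rw [hgy] at h2
    have e : h y' - Λ y' = -Λ (y' - A (h y')) := by
      rw [map_sub, B.left]
      abel
    rw [e, norm_neg, ← hd]
    refine (Λ.le_opNorm _).trans ?_
    have h3 : ‖Λ‖ * ‖y' - A (h y')‖ ≤ (‖Λ‖ + 1) * (ε / (‖Λ‖ + 1) * ‖h y' - p‖ ^ 2) :=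
      mul_le_mul (by linarith) h2 (norm_nonneg _) (by positivity)
    have h4 : (‖Λ‖ + 1) * (ε / (‖Λ‖ + 1) * ‖h y' - p‖ ^ 2) = ε * ‖h y' - p‖ ^ 2 := by
      field_simp
    linarith
  · have hPhi : ∀ z, chi (g p) (A z) = chi p z := B.Phi
    obtain ⟨c, hc, hcb⟩ := B.bp2
    obtain ⟨δ₁, hδ₁, hb₁⟩ := Metric.eventually_nhds_iff.1 hcb
    obtain ⟨δ₂, hδ₂, hb₂⟩ := Metric.eventually_nhds_iff.1 (B.bp1 (c / 2) (by positivity))
    refine ⟨c / 2, by positivity, Metric.eventually_nhds_iff.2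
      ⟨min δ₁ δ₂, lt_min hδ₁ hδ₂, fun {y'} hy' hy'1 => ?_⟩⟩
    have hx1 : ‖h y'‖ = 1 := B.iso.map_h _ hy'1
    have hgy : g (h y') = y' := B.iso.right _ hy'1
    have hd : ‖h y' - p‖ = ‖y' - g p‖ := by
      have := B.iso.iso _ _ hx1 B.unit
      rw [hgy] at this
      exact this.symm
    rw [dist_eq_norm, ← hd] at hy'
    have h1 := @hb₁ (h y') (by rw [dist_eq_norm]; exact hy'.trans_le (min_le_left _ _)) hx1
    have h2 := @hb₂ (h y') (by rw [dist_eq_norm]; exact hy'.trans_le (min_le_right _ _)) hx1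
    rw [hgy] at h2
    rw [← hd]
    have h3 : chi (g p) y' = chi p (h y') + chi (g p) (y' - A (h y')) := by
      rw [map_sub, hPhi]
      ring
    have h4 : |chi (g p) (y' - A (h y'))| ≤ ‖y' - A (h y')‖ := abs_chi_le _ _
    have h5 := (abs_le.1 h4).2
    rw [h3]
    have h6 : c / 2 * ‖h y' - p‖ ^ 2 + c / 2 * ‖h y' - p‖ ^ 2 = c * ‖h y' - p‖ ^ 2 := by ring
    linarith
  · intro k z hk hk0 e he
    have hk' : chi p (Λ k) = 0 := by rw [B.PhiL, hk]
    have hk0' : Λ k ≠ 0 := by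
      intro h0
      have := B.right k
      rw [h0, map_zero] at this
      exact hk0 this.symm
    obtain ⟨s₀, hs₀, hb⟩ := B.D (Λ k) (Λ z) hk' hk0' e he
    refine ⟨s₀, hs₀, fun s hs hss => ?_⟩
    have h1 := hb s hs hss
    rw [B.right, B.right, abs_sub_comm] at h1
    exact h1

/-- The first order relation along tangent vectors, dual form. -/
lemma Bs.D_dual (B : Bs g h p A Λ) {k : X} (hk : chi p k = 0) (hk0 : k ≠ 0) {F : StrongDual ℝ X}
    (hF : ∀ v, F v ≤ ‖v‖) (hFk : F k = ‖k‖) (z : Y) : F (Λ z) ≤ ‖z‖ := by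
  refine le_of_forall_pos_le_add fun e he => ?_
  obtain ⟨s₀, hs₀, hb⟩ := B.D k (Λ z) hk hk0 e he
  have hs : 0 < s₀ / 2 := by positivity
  have h1 := hb (s₀ / 2) hs (by linarith)
  rw [B.right] at h1
  obtain ⟨s, hsd⟩ : ∃ s, s = s₀ / 2 := ⟨_, rfl⟩
  rw [← hsd] at h1 hs
  have h2 := hF (k + s • Λ z)
  rw [map_add, map_smul, hFk, smul_eq_mul] at h2
  have h3 : ‖A k + s • z‖ ≤ ‖k‖ + s * ‖z‖ := by
    refine (norm_add_le _ _).trans ?_
    rw [B.normA hk, norm_smul, Real.norm_of_nonneg hs.le]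
  have h4 := (abs_le.1 h1).1
  have h5 : s * F (Λ z) ≤ s * (‖z‖ + e) := by nlinarith
  exact le_of_mul_le_mul_left h5 hs

variable [FiniteDimensional ℝ Y]

/-- The first order relation along tangent vectors, other dual form. -/
lemma Bs.D_dual' (B : Bs g h p A Λ) {k : X} (hk : chi p k = 0) (hk0 : k ≠ 0) {F : StrongDual ℝ Y}
    (hF : ∀ v, F v ≤ ‖v‖) (hFk : F (A k) = ‖k‖) (z : X) : F (A z) ≤ ‖z‖ := by
  refine B.symm.D_dual (k := A k) (by rw [B.Phi, hk]) ?_ hF (by rw [hFk, B.normA hk]) z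
  intro h0
  have := B.left k
  rw [h0, map_zero] at this
  exact hk0 this.symm

/-- The functional `chi p` exposes `p`. -/
lemma Bs.exposes_phi (B : Bs g h p A Λ) {z : X} (hz : ‖z‖ = 1) (hφ : chi p z = 1) : z = p := by
  obtain ⟨c, hc, hb⟩ := B.bp2
  obtain ⟨ρ, hρ, hb'⟩ := Metric.eventually_nhds_iff.1 hb
  refine exposed_of_local (chi_le p) B.unit B.phi_self hρ (fun w hw hwρ hwφ => ?_) hz hφ
  have h1 := @hb' w (by rwa [dist_eq_norm]) hw
  rw [hwφ, sub_self] at h1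
  have h2 : ‖w - p‖ ^ 2 ≤ 0 := by
    by_contra hc2
    push Not at hc2
    have := mul_pos hc hc2
    linarith
  have h3 : ‖w - p‖ = 0 := by
    have := sq_nonneg ‖w - p‖
    exact pow_eq_zero_iff (two_ne_zero) |>.1 (le_antisymm h2 this)
  exact sub_eq_zero.1 (norm_eq_zero.1 h3)

/-- The functional `chi (g p)` exposes `g p`. -/
lemma Bs.exposes_Phi (B : Bs g h p A Λ) {z : Y} (hz : ‖z‖ = 1) (hφ : chi (g p) z = 1) :
    z = g p :=
  B.symm.exposes_phi hz hφ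

end Bs

section ToBs

variable {X Y : Type*} [NormedAddCommGroup X] [NormedSpace ℝ X]
  [NormedAddCommGroup Y] [NormedSpace ℝ Y] {g : X → Y} {h : Y → X} {p : X} {A : X →L[ℝ] Y}
  {Λ : Y →L[ℝ] X} {BB : X →L[ℝ] X →L[ℝ] Y} {HH : X →L[ℝ] X →L[ℝ] ℝ}
  [FiniteDimensional ℝ X] [FiniteDimensional ℝ Y]

/-- **A second order point in dimension at least three is a base point.** -/
theorem TB.toBs (P : TB g h p A Λ BB HH) (hdim : 3 ≤ Module.finrank ℝ X) : Bs g h p A Λ := by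
  refine { iso := P.iso, unit := P.unit, dX := P.dX, dY := P.dY, Ax := P.Ax, left := P.left,
           right := P.right, bp1 := fun ε hε => ?_, bp2 := P.curved,
           D := fun k z hk hk0 e he => P.D_est (fun a b ha hb => P.B_zero hdim ha hb) hk hk0 he }
  obtain ⟨ρ, hρ, hb⟩ := P.sphere_exp hε
  refine Metric.eventually_nhds_iff.2 ⟨ρ, hρ, fun {y} hy hy1 => ?_⟩
  rw [dist_eq_norm] at hy
  obtain ⟨-, h2⟩ := hb y hy1 hy
  have hwP : chi p (y - chi p y • p) = 0 := by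
    rw [map_sub, map_smul, P.phi_self]
    simp
  rw [P.B_zero hdim hwP hwP, smul_zero, sub_zero] at h2
  exact h2

end ToBs

end Vale.Agent.Lib.P084.Thm
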