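import Mathlib
import Vale.Agent.Lib.P084.Thm.Bs

/-! The radial test at a base point. -/

namespace Vale.Agent.Lib.P084.Thm

open Set Metric Filter Topology
open Vale.Agent.Lib.P084 Vale.Agent.Lib.P084.Str Vale.Agent.Lib.P084.Dens

section Radial

variable {X Y : Type*} [NormedAddCommGroup X] [NormedSpace ℝ X]
  [NormedAddCommGroup Y] [NormedSpace ℝ Y] {g : X → Y} {h : Y → X} {p : X} {A : X →L[ℝ] Y}
  {Λ : Y →L[ℝ] X} [FiniteDimensional ℝ X] [FiniteDimensional ℝ Y]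

/-- The chord inequality. -/
lemma Bs.chord_ge (P : Bs g h p A Λ) {ξ : StrongDual ℝ X} {y : X} {a t : ℝ}
    (hm : Mn (chi p) ξ y a) (ht : 0 < t) (hu : ‖p - t • y‖ = 1) {w : X} (hw : chi p w = 0) :
    ‖g p - g (p - t • y)‖ + ξ w ≤ ‖g p - g (p - t • y) + A w‖ := by
  obtain ⟨u, hud⟩ : ∃ u, u = p - t • y := ⟨_, rfl⟩
  rw [← hud] at hu ⊢
  have hut : p - u = t • y := by
    rw [hud, sub_sub_cancel]
  obtain ⟨q, hq⟩ : ∃ q, q = g p - g u := ⟨_, rfl⟩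
  rw [← hq]
  have hqn : ‖q‖ = ‖p - u‖ := by
    rw [hq]
    exact P.iso.iso _ _ P.unit hu
  refine le_of_forall_pos_le_add fun ε hε => ?_
  obtain ⟨s₀, hs₀, hb⟩ := chord_first P.iso P.dX P.unit P.Ax P.bigO hu hw hε
  obtain ⟨s, hs⟩ : ∃ s, s = min (s₀ / 2) (1 / 2) := ⟨_, rfl⟩
  have hs0 : 0 < s := by
    rw [hs]
    positivity
  have hs1 : s < s₀ := by
    have : s ≤ s₀ / 2 := hs ▸ min_le_left _ _
    linarith
  have hs2 : s ≤ 1 / 2 := hs ▸ min_le_right _ _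
  have h1 := hb s hs0 hs1
  rw [← hq] at h1
  have h2 := hm.dual ((p - u) + s • w)
  have e1 : ξ ((p - u) + s • w) + a * chi p ((p - u) + s • w) = t * ‖y‖ + s * ξ w := by
    rw [hut, map_add, map_add, map_smul, map_smul, map_smul, map_smul, hw, hm.aff]
    have := hm.val
    simp only [smul_eq_mul, mul_zero, add_zero, mul_one]
    rw [← this]
    ring
  rw [e1] at h2
  have h3 : ‖p - u‖ = t * ‖y‖ := by
    rw [hut, norm_smul, Real.norm_of_nonneg ht.le]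
  have h4 : ‖q + s • A w‖ ≤ (1 - s) * ‖q‖ + s * ‖q + A w‖ := by
    have e2 : q + s • A w = (1 - s) • q + s • (q + A w) := by module
    rw [e2]
    refine (norm_add_le _ _).trans ?_
    rw [norm_smul, norm_smul, Real.norm_of_nonneg hs0.le, Real.norm_of_nonneg (by linarith)]
  have h5 := (abs_le.1 h1).1
  have h6 : s * (‖q‖ + ξ w - ε) ≤ s * ‖q + A w‖ := by
    rw [hqn, h3] at h4 ⊢
    nlinarith
  have h7 := le_of_mul_le_mul_left h6 hs0
  linarith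

/-- **A chord in the direction of a minimiser gives a minimiser of the transported problem.** -/
theorem Bs.mate (P : Bs g h p A Λ) {ξ : StrongDual ℝ X} {y : X} {a t : ℝ}
    (hm : Mn (chi p) ξ y a) (ht : 0 < t) (hu : ‖p - t • y‖ = 1) :
    ∃ (t₂ : ℝ) (y₂ : Y) (b : ℝ), 0 < t₂ ∧ g p - g (p - t • y) = t₂ • y₂ ∧
      Mn (chi (g p)) (ξ.comp Λ) y₂ b ∧
      t₂ * b = t * a + ξ (Λ (g (p - t • y)) - (p - t • y)) := by
  obtain ⟨u, hud⟩ : ∃ u, u = p - t • y := ⟨_, rfl⟩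
  have hge := fun (w : X) (hw : chi p w = 0) => P.chord_ge hm ht hu hw
  rw [← hud] at hu hge ⊢
  have hut : p - u = t • y := by
    rw [hud, sub_sub_cancel]
  have hne : u ≠ p := by
    rintro rfl
    rw [sub_self] at hut
    exact (smul_ne_zero ht.ne' hm.ne_zero) hut.symm
  obtain ⟨q, hq⟩ : ∃ q, q = g p - g u := ⟨_, rfl⟩
  rw [← hq] at hge ⊢
  have hgu : ‖g u‖ = 1 := P.iso.map_g _ hu
  have hlt : chi (g p) (g u) < 1 := by
    refine lt_of_le_of_ne ?_ fun hc => hne ?_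
    · have := chi_le (g p) (g u)
      rwa [hgu] at this
    · have h1 := P.exposes_Phi hgu hc
      have h2 := congrArg h h1
      rwa [P.iso.left _ hu, P.iso.left _ P.unit] at h2
  obtain ⟨t₂, ht₂⟩ : ∃ t₂, t₂ = chi (g p) q := ⟨_, rfl⟩
  have ht₂0 : 0 < t₂ := by
    rw [ht₂, hq, map_sub, P.Phi_self]
    linarith
  obtain ⟨y₂, hy₂⟩ : ∃ y₂, y₂ = t₂⁻¹ • q := ⟨_, rfl⟩
  have hq2 : q = t₂ • y₂ := by
    rw [hy₂, smul_smul, mul_inv_cancel₀ ht₂0.ne', one_smul]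
  have hy₂aff : chi (g p) y₂ = 1 := by
    rw [hy₂, map_smul, ← ht₂, smul_eq_mul, inv_mul_cancel₀ ht₂0.ne']
  have hm₂ : Mn (chi (g p)) (ξ.comp Λ) y₂ (‖y₂‖ - (ξ.comp Λ) y₂) := by
    refine Mn.of_min hy₂aff fun v hv => ?_
    obtain ⟨w, hw⟩ : ∃ w, w = Λ (t₂ • v - q) := ⟨_, rfl⟩
    have hw0 : chi p w = 0 := by
      rw [hw, P.PhiL, map_sub, map_smul, hv, ← ht₂]
      simp
    have hAw : A w = t₂ • v - q := by
      rw [hw, P.right]
    have h1 := hge w hw0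
    rw [hAw, add_sub_cancel, norm_smul, Real.norm_of_nonneg ht₂0.le, hq2, norm_smul,
      Real.norm_of_nonneg ht₂0.le] at h1
    have e1 : ξ w = t₂ * ξ (Λ v) - t₂ * ξ (Λ y₂) := by
      rw [hw, hq2, ← smul_sub, map_smul, map_smul, map_sub, map_sub, smul_eq_mul]
      ring
    rw [e1] at h1
    simp only [ContinuousLinearMap.comp_apply]
    have h2 : t₂ * (‖y₂‖ - ξ (Λ y₂)) ≤ t₂ * (‖v‖ - ξ (Λ v)) := by nlinarith
    exact le_of_mul_le_mul_left h2 ht₂0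
  refine ⟨t₂, y₂, _, ht₂0, hq2, hm₂, ?_⟩
  have h1 := hm.val
  have hn : t₂ * ‖y₂‖ = t * ‖y‖ := by
    have h2 : ‖q‖ = ‖p - u‖ := by
      rw [hq]
      exact P.iso.iso _ _ P.unit hu
    rw [hq2, norm_smul, Real.norm_of_nonneg ht₂0.le, hut, norm_smul,
      Real.norm_of_nonneg ht.le] at h2
    exact h2
  have h3 : t₂ * ξ (Λ y₂) = ξ p - ξ (Λ (g u)) := by
    have h4 : Λ (g p - g u) = t₂ • Λ y₂ := by
      rw [← hq, hq2, map_smul]
    rw [map_sub, P.Lx] at h4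
    have h5 := congrArg ξ h4
    rw [map_sub, map_smul, smul_eq_mul] at h5
    exact h5.symm
  have h6 : t * ξ y = ξ p - ξ u := by
    have h5 := congrArg ξ hut
    rw [map_sub, map_smul, smul_eq_mul] at h5
    exact h5.symm
  rw [← h1, map_sub]
  simp only [ContinuousLinearMap.comp_apply]
  nlinarith


lemma radial_arith {t n t₂ a₁ a₂ e M nL nR pR xR yy xy xu xg K : ℝ} (hn : 0 ≤ n)
    (hM : 0 ≤ M) (hnL : 0 ≤ nL) (hK : K = e / (2 * (M * nL + M + 1))) (he : 0 < e)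
    (hR : nR ≤ K * n) (hnR : 0 ≤ nR)
    (hxR : |xR| ≤ M * (nL * nR)) (hpR : |pR| ≤ nR) (ha₂ : |a₂| ≤ M) (hlt : a₂ - a₁ ≤ -e)
    (hyy : yy = a₁ + xy)
    (hd : xR + xu + (t - n) * xy - xg + a₂ * (pR - n + t₂) ≤ (t - n) * yy) :
    t₂ * a₂ + e / 2 * n ≤ t * a₁ + (xg - xu) := by
  have h1 : n * (a₂ - a₁) ≤ n * (-e) := mul_le_mul_of_nonneg_left hlt hn
  have h2 : |a₂ * pR| ≤ M * nR := by
    rw [abs_mul]
    exact mul_le_mul ha₂ hpR (abs_nonneg _) hM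
  have h3 := (abs_le.1 hxR).1
  have h4 := (abs_le.1 h2).1
  have h5 : (M * nL + M) * nR ≤ e / 2 * n := by
    have h6 : (M * nL + M) * nR ≤ (M * nL + M) * (K * n) :=
      mul_le_mul_of_nonneg_left hR (by positivity)
    refine h6.trans ?_
    have h7 : (M * nL + M) * K ≤ e / 2 := by
      rw [hK]
      have h8 : 0 < M * nL + M + 1 := by positivity
      have e1 : (M * nL + M) * (e / (2 * (M * nL + M + 1))) =
          e / 2 * ((M * nL + M) / (M * nL + M + 1)) := by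
        field_simp
      rw [e1]
      have h9 : (M * nL + M) / (M * nL + M + 1) ≤ 1 := by
        rw [div_le_one h8]
        linarith
      exact mul_le_of_le_one_right (by positivity) h9
    have h10 := mul_le_mul_of_nonneg_right h7 hn
    calc _ = (M * nL + M) * K * n := by ring
      _ ≤ _ := h10
  rw [hyy] at hd
  nlinarith

/-- **The radial test.** -/
theorem Bs.radial (B : Bs g h p A Λ) {y₁ : X} {t : ℝ} (ht : 0 < t) (hy₁ : chi p y₁ = 1)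
    (hu : ‖p - t • y₁‖ = 1) {e M : ℝ} (he : 0 < e) (hM : 0 ≤ M) :
    ∃ δ : ℝ, 0 < δ ∧ ∀ (ξ' : StrongDual ℝ X) (y' : X) (a₁' : ℝ) (y₂' : Y) (a₂' : ℝ),
      ‖ξ'‖ ≤ M → |a₂'| ≤ M → a₂' - a₁' ≤ -e → ‖y' - y₁‖ < δ → Mn (chi p) ξ' y' a₁' →
      Mn (chi (g p)) (ξ'.comp Λ) y₂' a₂' →
      ∃ n : ℝ, 0 ≤ n ∧ n < t ∧ ‖(p - t • y₁) + (t - n) • y'‖ = 1 ∧
        chi (g p) (g p - g (p - t • y₁)) * a₂' + e / 2 * n ≤
          t * a₁' + ξ' (Λ (g (p - t • y₁)) - (p - t • y₁)) := by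
  obtain ⟨c, hc, hcb⟩ := B.bp2
  obtain ⟨K, hK⟩ : ∃ K, K = e / (2 * (M * ‖Λ‖ + M + 1)) := ⟨_, rfl⟩
  have hK0 : 0 < K := by
    rw [hK]
    positivity
  obtain ⟨ρ, hρ, hb⟩ := Metric.eventually_nhds_iff.1 (hcb.and (B.bp1 (c * K) (by positivity)))
  obtain ⟨r₀, hr₀, hent⟩ := enter_ball B.dX B.unit hy₁
  obtain ⟨δ₀, hδ₀⟩ : ∃ δ₀, δ₀ = min (t / 2) (min (r₀ / 2) (ρ / (2 * (‖y₁‖ + 1)))) := ⟨_, rfl⟩
  have hδ₀0 : 0 < δ₀ := by
    rw [hδ₀]
    positivity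
  have hδ₀1 : δ₀ ≤ t / 2 := hδ₀ ▸ min_le_left _ _
  have hδ₀2 : δ₀ ≤ r₀ / 2 := hδ₀ ▸ (min_le_right _ _).trans (min_le_left _ _)
  have hδ₀3 : δ₀ * (2 * (‖y₁‖ + 1)) ≤ ρ := by
    have h1 : δ₀ ≤ ρ / (2 * (‖y₁‖ + 1)) := hδ₀ ▸ (min_le_right _ _).trans (min_le_right _ _)
    rwa [le_div_iff₀ (by positivity)] at h1
  refine ⟨min (δ₀ / (2 * t)) (ρ / (2 * t)), by positivity,
    fun ξ' y' a₁' y₂' a₂' hξ' ha₂ hlt hnear hm₁ hm₂ => ?_⟩
  have hw₁ : t * ‖y' - y₁‖ < δ₀ / 2 := by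
    have h1 := hnear.trans_le (min_le_left _ _)
    rw [lt_div_iff₀ (by positivity)] at h1
    nlinarith
  have hw₂ : t * ‖y' - y₁‖ < ρ / 2 := by
    have h1 := hnear.trans_le (min_le_right _ _)
    rw [lt_div_iff₀ (by positivity)] at h1
    nlinarith
  obtain ⟨u, hud⟩ : ∃ u, u = p - t • y₁ := ⟨_, rfl⟩
  rw [← hud] at hu ⊢
  obtain ⟨w, hw⟩ : ∃ w, w = y' - y₁ := ⟨_, rfl⟩
  rw [← hw] at hw₁ hw₂
  have hwP : chi p w = 0 := by
    rw [hw, map_sub, hm₁.aff, hy₁, sub_self]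
  have hφu : chi p u = 1 - t := by
    rw [hud, map_sub, map_smul, hy₁, B.phi_self]
    simp
  -- the intermediate value
  have hcont : ContinuousOn (fun s : ℝ => ‖u + s • y'‖) (Icc (t - δ₀) t) := by
    refine Continuous.continuousOn ?_
    fun_prop
  have hle : t - δ₀ ≤ t := by linarith
  have hr1 : (1 : ℝ) ≤ ‖u + t • y'‖ := by
    have h1 := chi_le p (u + t • y')
    rw [map_add, map_smul, hφu, hm₁.aff] at h1
    simp only [smul_eq_mul, mul_one] at h1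
    linarith
  have hr2 : ‖u + (t - δ₀) • y'‖ ≤ 1 := by
    have e1 : u + (t - δ₀) • y' = (p - δ₀ • y₁) + (t - δ₀) • w := by
      rw [hud, hw]
      module
    rw [e1]
    refine (norm_add_le _ _).trans ?_
    have h1 := hent δ₀ hδ₀0 (by linarith)
    rw [norm_smul, Real.norm_of_nonneg (by linarith)]
    have h2 : (t - δ₀) * ‖w‖ ≤ t * ‖w‖ :=
      mul_le_mul_of_nonneg_right (by linarith) (norm_nonneg w)
    linarith
  obtain ⟨s, hs, hs1'⟩ := intermediate_value_Icc hle hcont ⟨hr2, hr1⟩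
  have hs1 : ‖u + s • y'‖ = 1 := hs1'
  obtain ⟨n, hn⟩ : ∃ n, n = t - s := ⟨_, rfl⟩
  have hsn : s = t - n := by rw [hn]; ring
  have hn0 : 0 ≤ n := by
    rw [hn]
    linarith [hs.2]
  have hn1 : n ≤ δ₀ := by
    rw [hn]
    linarith [hs.1]
  rw [hsn] at hs1
  refine ⟨n, hn0, by linarith, hs1, ?_⟩
  obtain ⟨x, hx⟩ : ∃ x, x = u + (t - n) • y' := ⟨_, rfl⟩
  rw [← hx] at hs1
  have hφx : chi p x = 1 - n := by
    rw [hx, map_add, map_smul, hφu, hm₁.aff]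
    simp only [smul_eq_mul, mul_one]
    ring
  have htn : 0 < t - n := by linarith
  have hxp : x - p = (t - n) • w - n • y₁ := by
    rw [hx, hud, hw]
    module
  have hxn : ‖x - p‖ < ρ := by
    rw [hxp]
    refine (norm_sub_le _ _).trans_lt ?_
    rw [norm_smul, norm_smul, Real.norm_of_nonneg htn.le, Real.norm_of_nonneg hn0]
    have h1 : (t - n) * ‖w‖ ≤ t * ‖w‖ :=
      mul_le_mul_of_nonneg_right (by linarith) (norm_nonneg w)
    have h2 : n * ‖y₁‖ ≤ δ₀ * ‖y₁‖ := mul_le_mul_of_nonneg_right hn1 (norm_nonneg _)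
    nlinarith [norm_nonneg y₁]
  obtain ⟨h1, h2⟩ := @hb x (by rwa [dist_eq_norm])
  have h3 := h1 hs1
  have h4 := h2 hs1
  rw [hφx] at h3
  obtain ⟨R, hRd⟩ : ∃ R, R = g x - A x := ⟨_, rfl⟩
  rw [← hRd] at h4
  have hRb : ‖R‖ ≤ K * n := by
    refine h4.trans ?_
    have e1 : c * K * ‖x - p‖ ^ 2 = K * (c * ‖x - p‖ ^ 2) := by ring
    rw [e1]
    exact mul_le_mul_of_nonneg_left (by linarith) hK0.le
  -- the test vector
  obtain ⟨z, hz⟩ : ∃ z, z = g x - g u := ⟨_, rfl⟩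
  have hzn : ‖z‖ = (t - n) * ‖y'‖ := by
    rw [hz, B.iso.iso _ _ hs1 hu, hx, add_sub_cancel_left, norm_smul, Real.norm_of_nonneg htn.le]
  have hzR : z = R + A x - g u := by
    rw [hz, hRd]
    abel
  have hΦz : chi (g p) z = chi (g p) R - n + chi (g p) (g p - g u) := by
    rw [hzR, map_sub, map_add, B.Phi, hφx, map_sub, B.Phi_self]
    ring
  have hΛz : ξ' (Λ z) = ξ' (Λ R) + ξ' u + (t - n) * ξ' y' - ξ' (Λ (g u)) := by
    rw [hzR, map_sub, map_add, B.left, hx, map_sub, map_add, map_add, map_smul, smul_eq_mul]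
    ring
  have hd := hm₂.dual z
  simp only [ContinuousLinearMap.comp_apply] at hd
  rw [hΛz, hΦz, hzn] at hd
  have hval := hm₁.val
  have hxR : |ξ' (Λ R)| ≤ M * (‖Λ‖ * ‖R‖) := by
    have h5 := ξ'.le_opNorm (Λ R)
    rw [Real.norm_eq_abs] at h5
    refine h5.trans ?_
    exact mul_le_mul hξ' (Λ.le_opNorm R) (norm_nonneg _) hM
  have hfin := radial_arith (t := t) (n := n) (t₂ := chi (g p) (g p - g u)) (a₁ := a₁') (a₂ := a₂')
    (e := e) (M := M) (nL := ‖Λ‖) (nR := ‖R‖) (pR := chi (g p) R) (xR := ξ' (Λ R)) (yy := ‖y'‖)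
    (xy := ξ' y') (xu := ξ' u) (xg := ξ' (Λ (g u))) (K := K) hn0 hM (norm_nonneg _) hK he hRb
    (norm_nonneg _) hxR (abs_chi_le _ _) ha₂ hlt (by linarith) hd
  have e9 : ξ' (Λ (g u) - u) = ξ' (Λ (g u)) - ξ' u := map_sub _ _ _
  rw [e9]
  exact hfin

/-- **A functional with a strict defect has only one minimiser.** -/
theorem Bs.unique_of_lt (B : Bs g h p A Λ) {ξ : StrongDual ℝ X} {y₁ : X} {a₁ a₂ t : ℝ} {y₂ : Y}
    (hm₁ : Mn (chi p) ξ y₁ a₁) (ht : 0 < t) (hu : ‖p - t • y₁‖ = 1)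
    (hm₂ : Mn (chi (g p)) (ξ.comp Λ) y₂ a₂)
    (hid : chi (g p) (g p - g (p - t • y₁)) * a₂ =
      t * a₁ + ξ (Λ (g (p - t • y₁)) - (p - t • y₁)))
    (hlt : a₂ < a₁) {v : X} (hv : chi p v = 1) (hval : ‖v‖ - ξ v = a₁) : v = y₁ := by
  by_contra hne
  have hm' : Mn (chi p) ξ v a₁ := ⟨hv, hval, hm₁.dual⟩
  obtain ⟨e, he⟩ : ∃ e, e = a₁ - a₂ := ⟨_, rfl⟩
  have he0 : 0 < e := by
    rw [he]
    linarith
  obtain ⟨δ, hδ, hb⟩ := B.radial (e := e) (M := ‖ξ‖ + |a₂|) ht hm₁.aff hu he0 (by positivity)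
  have hd0 : 0 < ‖v - y₁‖ := norm_pos_iff.2 (sub_ne_zero.2 hne)
  obtain ⟨l, hl⟩ : ∃ l, l = min 1 (δ / (2 * ‖v - y₁‖)) := ⟨_, rfl⟩
  have hl0 : 0 < l := by
    rw [hl]
    positivity
  have hl1 : l ≤ 1 := hl ▸ min_le_left _ _
  have hl2 : l * ‖v - y₁‖ < δ := by
    have h1 : l ≤ δ / (2 * ‖v - y₁‖) := hl ▸ min_le_right _ _
    rw [le_div_iff₀ (by positivity)] at h1
    linarith
  have hmc := hm₁.convex hm' hl0.le hl1
  obtain ⟨y', hy'⟩ : ∃ y', y' = (1 - l) • y₁ + l • v := ⟨_, rfl⟩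
  rw [← hy'] at hmc
  have hy'2 : y' - y₁ = l • (v - y₁) := by
    rw [hy']
    module
  obtain ⟨n, hn0, hnt, hunit, hineq⟩ := hb ξ y' a₁ y₂ a₂ (by linarith [abs_nonneg a₂])
    (by linarith [norm_nonneg ξ]) (by rw [he]; linarith)
    (by rw [hy'2, norm_smul, Real.norm_of_nonneg hl0.le]; exact hl2) hmc hm₂
  rw [hid] at hineq
  have hn : n = 0 := by
    have h1 : e / 2 * n ≤ 0 := by linarith
    by_contra hc
    have hc2 : 0 < n := lt_of_le_of_ne hn0 (Ne.symm hc)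
    have := mul_pos (half_pos he0) hc2
    linarith
  rw [hn, sub_zero] at hunit
  have e1 : (p - t • y₁) + t • y' = p + (t * l) • (v - y₁) := by
    have : (t * l) • (v - y₁) = t • (y' - y₁) := by
      rw [hy'2, smul_smul]
    rw [this]
    module
  rw [e1] at hunit
  have hφ : chi p (p + (t * l) • (v - y₁)) = 1 := by
    rw [map_add, map_smul, map_sub, hv, hm₁.aff, B.phi_self]
    simp
  have h2 := B.exposes_phi hunit hφ
  have h3 : (t * l) • (v - y₁) = 0 := by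
    have := h2
    rwa [add_eq_left] at this
  exact (smul_ne_zero (mul_pos ht hl0).ne' (sub_ne_zero.2 hne)) h3

end Radial

end Vale.Agent.Lib.P084.Thm
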