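import Mathlib
import Vale.Agent.Lib.P084.Thm.Radial

/-! The minimisation problem along a ray of functionals, for an arbitrary norm. -/

namespace Vale.Agent.Lib.P084.Thm

open Set Metric Filter Topology
open Vale.Agent.Lib.P084 Vale.Agent.Lib.P084.Str Vale.Agent.Lib.P084.Dens

section RayE

variable {E : Type*} [NormedAddCommGroup E] [NormedSpace ℝ E]
  {φ ξ₁ : StrongDual ℝ E} {p : E} {y : ℝ → E} {α : ℝ → ℝ}

/-- `α / τ` is strictly decreasing. -/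
lemma ray_anti' (hm : ∀ τ ∈ Ioo (0 : ℝ) 1, Mn φ (τ • ξ₁) (y τ) (α τ))
    (τ₁ τ₂ : ℝ) (h1 : 0 < τ₁) (h2 : τ₁ < τ₂) (h3 : τ₂ < 1) : α τ₂ / τ₂ < α τ₁ / τ₁ := by
  have hτ₁ : τ₁ ∈ Ioo (0 : ℝ) 1 := ⟨h1, h2.trans h3⟩
  have hτ₂ : τ₂ ∈ Ioo (0 : ℝ) 1 := ⟨h1.trans h2, h3⟩
  have h4 := (hm τ₂ hτ₂).le (hm τ₁ hτ₁).aff
  have h5 := (hm τ₁ hτ₁).val
  have h6 : 0 < ‖y τ₁‖ := norm_pos_iff.2 (hm τ₁ hτ₁).ne_zero
  have h0 : 0 < τ₂ := h1.trans h2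
  simp only [_root_.smul_apply, smul_eq_mul] at h4 h5
  rw [div_lt_div_iff₀ h0 h1]
  have h7 : τ₁ * ‖y τ₁‖ < τ₂ * ‖y τ₁‖ := mul_lt_mul_of_pos_right h2 h6
  rw [← h5]
  nlinarith

/-- Continuity of the value along a ray. -/
lemma ray_cont' (hp : ‖p‖ = 1) (hφ : φ p = 1) (hξ : ξ₁ p = 0)
    (hb : ∀ w, φ w = 0 → ξ₁ w ≤ ‖w‖)
    (hm : ∀ τ ∈ Ioo (0 : ℝ) 1, Mn φ (τ • ξ₁) (y τ) (α τ)) : ContinuousOn α (Ioo 0 1) := by
  intro τ hτ
  refine ContinuousAt.continuousWithinAt ?_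
  have hbound : ∀ τ' ∈ Ioo (0 : ℝ) 1, (1 - τ') * ‖y τ'‖ ≤ 1 + τ' := by
    intro τ' hτ'
    refine (hm τ' hτ').norm_bound hp hφ (by simp [hξ]) (θ := τ') (fun w hw => ?_) hτ'.1.le
    simp only [_root_.smul_apply, smul_eq_mul]
    exact mul_le_mul_of_nonneg_left (hb w hw) hτ'.1.le
  obtain ⟨b, hb'⟩ : ∃ b, b = (1 + τ) / 2 := ⟨_, rfl⟩
  have hτb : τ < b := by
    rw [hb']
    linarith [hτ.2]
  have hb1 : b < 1 := by
    rw [hb']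
    linarith [hτ.2]
  obtain ⟨C, hC⟩ : ∃ C, C = 2 / (1 - b) := ⟨_, rfl⟩
  have hC0 : 0 ≤ C := by
    rw [hC]
    apply div_nonneg <;> linarith
  have hyC : ∀ τ' ∈ Ioo (0 : ℝ) 1, τ' < b → ‖y τ'‖ ≤ C := by
    intro τ' hτ' hlt
    have h1 := hbound τ' hτ'
    rw [hC, le_div_iff₀ (by linarith)]
    have h2 : (1 - b) * ‖y τ'‖ ≤ (1 - τ') * ‖y τ'‖ :=
      mul_le_mul_of_nonneg_right (by linarith) (norm_nonneg _)
    linarith [hτ'.2]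
  obtain ⟨r, hr⟩ : ∃ r, r = min τ (b - τ) := ⟨_, rfl⟩
  have hr0 : 0 < r := by
    rw [hr]
    exact lt_min hτ.1 (by linarith)
  refine continuousAt_of_locally_lipschitz hr0 (‖ξ₁‖ * C) fun τ' hτ' => ?_
  rw [Real.dist_eq] at hτ'
  rw [Real.dist_eq, Real.dist_eq]
  have h1 := abs_lt.1 hτ'
  have h2 : τ' - τ < b - τ := h1.2.trans_le (hr ▸ min_le_right _ _)
  have h3 : -τ < τ' - τ := by
    have : -r < τ' - τ := h1.1
    have h4 : r ≤ τ := hr ▸ min_le_left _ _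
    linarith
  have hτ'I : τ' ∈ Ioo (0 : ℝ) 1 := ⟨by linarith, by linarith⟩
  have hτ'b : τ' < b := by linarith
  have h5 := (hm τ hτ).super (hm τ' hτ'I)
  have h6 := (hm τ' hτ'I).super (hm τ hτ)
  simp only [_root_.smul_apply, smul_eq_mul] at h5 h6
  have h7 : ∀ v, ‖v‖ ≤ C → |ξ₁ v| ≤ ‖ξ₁‖ * C := by
    intro v hv
    have h8 := ξ₁.le_opNorm v
    rw [Real.norm_eq_abs] at h8
    exact h8.trans (mul_le_mul_of_nonneg_left hv (norm_nonneg _))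
  have h8 := h7 _ (hyC τ hτ hτb)
  have h9 := h7 _ (hyC τ' hτ'I hτ'b)
  have h10 : |τ' - τ| * |ξ₁ (y τ)| ≤ |τ' - τ| * (‖ξ₁‖ * C) :=
    mul_le_mul_of_nonneg_left h8 (abs_nonneg _)
  have h11 : |τ' - τ| * |ξ₁ (y τ')| ≤ |τ' - τ| * (‖ξ₁‖ * C) :=
    mul_le_mul_of_nonneg_left h9 (abs_nonneg _)
  rw [← abs_mul] at h10 h11
  have h12 := abs_le.1 h10
  have h13 := abs_le.1 h11
  rw [abs_le]
  constructor <;> nlinarith [h12.1, h12.2, h13.1, h13.2]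

/-- Behaviour of the value at the origin of the ray. -/
lemma ray_limit_zero' [FiniteDimensional ℝ E] (hp : ‖p‖ = 1) (hφ : φ p = 1) (hφ1 : ‖φ‖ ≤ 1)
    (hξ : ξ₁ p = 0) (hexp : ∀ z, ‖z‖ = 1 → φ z = 1 → z = p)
    (hm : ∀ τ ∈ Ioo (0 : ℝ) 1, Mn φ (τ • ξ₁) (y τ) (α τ)) :
    Tendsto (fun τ : ℝ => (α τ - 1) / τ) (𝓝[>] 0) (𝓝 0) := by
  rw [Metric.tendsto_nhds]
  intro ε hε
  obtain ⟨η, hη, hb⟩ := (Mn.base hp hφ hφ1).close (fun v hv hv2 => hexp v (by simpa using hv2) hv)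
    (δ := ε / (2 * (‖ξ₁‖ + 1))) (by positivity)
  have h1 : ∀ᶠ τ in 𝓝[>] (0 : ℝ), τ < min 1 (η / (‖ξ₁‖ + 1)) := by
    refine nhdsWithin_le_nhds (gt_mem_nhds ?_)
    positivity
  filter_upwards [h1, self_mem_nhdsWithin] with τ hτ1 hτ0
  have hτ0' : 0 < τ := hτ0
  have hτI : τ ∈ Ioo (0 : ℝ) 1 := ⟨hτ0', hτ1.trans_le (min_le_left _ _)⟩
  have hτ2 : τ * (‖ξ₁‖ + 1) < η := by
    have := hτ1.trans_le (min_le_right _ _)
    rwa [lt_div_iff₀ (by positivity)] at this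
  have hm1 := hm τ hτI
  have hclose : ‖y τ - p‖ < ε / (2 * (‖ξ₁‖ + 1)) := by
    refine hb (τ • ξ₁) _ _ ?_ hm1
    rw [sub_zero, norm_smul, Real.norm_of_nonneg hτ0'.le]
    nlinarith [norm_nonneg ξ₁]
  have h2 := hm1.le_one hp hφ (by simp [hξ])
  have h3 := hm1.val
  simp only [_root_.smul_apply, smul_eq_mul] at h3
  have h4 := one_le_of_aff hφ1 hm1.aff
  have h5 : ξ₁ (y τ) = ξ₁ (y τ - p) := by
    rw [map_sub, hξ, sub_zero]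
  have h6 : |ξ₁ (y τ - p)| < ε := by
    have h7 := ξ₁.le_opNorm (y τ - p)
    rw [Real.norm_eq_abs] at h7
    refine h7.trans_lt ?_
    have h8 : ‖y τ - p‖ * (2 * (‖ξ₁‖ + 1)) < ε := by
      rwa [lt_div_iff₀ (by positivity)] at hclose
    nlinarith [norm_nonneg ξ₁, norm_nonneg (y τ - p)]
  rw [Real.dist_eq, sub_zero, abs_lt]
  have h9 := abs_lt.1 h6
  rw [h5] at h3
  have h10 : -(τ * ε) < α τ - 1 := by nlinarith [h9.2]
  have h11 : α τ - 1 ≤ 0 := by linarith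
  constructor
  · rw [lt_div_iff₀ hτ0']
    linarith
  · exact (div_nonpos_of_nonpos_of_nonneg h11 hτ0'.le).trans_lt hε

/-- The value of the problem at the boundary of the domain. -/
lemma top_value (hp : ‖p‖ = 1) (hφ : φ p = 1) (hξ : ξ₁ p = 0) (hb : ∀ w, φ w = 0 → ξ₁ w ≤ ‖w‖) :
    ∃ a₁ : ℝ, a₁ ≤ 1 ∧ (∀ v, ξ₁ v + a₁ * φ v ≤ ‖v‖) ∧
      ∀ e : ℝ, 0 < e → ∃ v, φ v = 1 ∧ ‖v‖ - ξ₁ v < a₁ + e := by
  let S : Set ℝ := {x | ∃ v, φ v = 1 ∧ ‖v‖ - ξ₁ v = x}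
  have hS1 : S.Nonempty := ⟨_, p, hφ, rfl⟩
  have hS2 : BddBelow S := by
    refine ⟨-1, ?_⟩
    rintro x ⟨v, hv, rfl⟩
    have h1 := hb (v - p) (by rw [map_sub, hv, hφ, sub_self])
    rw [map_sub, hξ, sub_zero] at h1
    have h2 := norm_sub_le v p
    rw [hp] at h2
    linarith
  obtain ⟨a₁, ha₁⟩ : ∃ a₁, a₁ = sInf S := ⟨_, rfl⟩
  have hlb : ∀ v, φ v = 1 → a₁ ≤ ‖v‖ - ξ₁ v := by
    intro v hv
    rw [ha₁]
    exact csInf_le hS2 ⟨v, hv, rfl⟩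
  have hne : ∀ e : ℝ, 0 < e → ∃ v, φ v = 1 ∧ ‖v‖ - ξ₁ v < a₁ + e := by
    intro e he
    obtain ⟨x, ⟨v, hv, hvx⟩, hx⟩ := exists_lt_of_csInf_lt hS1 (show sInf S < a₁ + e by
      rw [← ha₁]
      linarith)
    exact ⟨v, hv, by linarith⟩
  refine ⟨a₁, ?_, fun v => ?_, hne⟩
  · have := hlb p hφ
    rw [hp, hξ] at this
    linarith
  · obtain ⟨s, hs⟩ : ∃ s, s = |φ v| + 1 := ⟨_, rfl⟩
    have hs0 : 0 < s := by
      rw [hs]
      positivity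
    obtain ⟨q, hq⟩ : ∃ q, q = φ v + s := ⟨_, rfl⟩
    have hq0 : 0 < q := by
      rw [hq, hs]
      have := neg_abs_le (φ v)
      linarith
    refine le_of_forall_pos_le_add fun ε hε => ?_
    obtain ⟨y₀, hy₀, hy₀b⟩ := hne (ε / s) (by positivity)
    obtain ⟨w, hw⟩ : ∃ w, w = v + s • y₀ := ⟨_, rfl⟩
    have hφw : φ w = q := by
      rw [hw, map_add, map_smul, hy₀, hq]
      simp
    have h1 := hlb (q⁻¹ • w) (by rw [map_smul, hφw, smul_eq_mul, inv_mul_cancel₀ hq0.ne'])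
    rw [norm_smul, norm_inv, Real.norm_of_nonneg hq0.le, map_smul, smul_eq_mul] at h1
    have h2 : a₁ * q ≤ ‖w‖ - ξ₁ w := by
      have h3 := mul_le_mul_of_nonneg_right h1 hq0.le
      have e : (q⁻¹ * ‖w‖ - q⁻¹ * ξ₁ w) * q = ‖w‖ - ξ₁ w := by
        field_simp
      rwa [e] at h3
    have h4 : ‖w‖ ≤ ‖v‖ + s * ‖y₀‖ := by
      rw [hw]
      refine (norm_add_le _ _).trans ?_
      rw [norm_smul, Real.norm_of_nonneg hs0.le]
    have h5 : ξ₁ w = ξ₁ v + s * ξ₁ y₀ := by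
      rw [hw, map_add, map_smul, smul_eq_mul]
    have h6 : s * (‖y₀‖ - ξ₁ y₀) ≤ s * (a₁ + ε / s) :=
      mul_le_mul_of_nonneg_left hy₀b.le hs0.le
    have h7 : s * (a₁ + ε / s) = s * a₁ + ε := by
      field_simp
    rw [hq] at h2
    nlinarith

end RayE

section RayB

variable {X Y : Type*} [NormedAddCommGroup X] [NormedSpace ℝ X]
  [NormedAddCommGroup Y] [NormedSpace ℝ Y] {g : X → Y} {h : Y → X} {p : X} {A : X →L[ℝ] Y}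
  {Λ : Y →L[ℝ] X} [FiniteDimensional ℝ X] [FiniteDimensional ℝ Y]

/-- The local inequality at a point of the ray where the second value is smaller. -/
lemma Bs.ray_loc (B : Bs g h p A Λ) {ξ₁ : StrongDual ℝ X} {y : ℝ → X}
    {y' : ℝ → Y} {α β : ℝ → ℝ}
    (hm : ∀ τ ∈ Ioo (0 : ℝ) 1, Mn (chi p) (τ • ξ₁) (y τ) (α τ))
    (hm' : ∀ τ ∈ Ioo (0 : ℝ) 1, Mn (chi (g p)) (τ • ξ₁.comp Λ) (y' τ) (β τ))
    (hαc : ContinuousOn α (Ioo 0 1)) (hβc : ContinuousOn β (Ioo 0 1))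
    {τ : ℝ} (hτ : τ ∈ Ioo (0 : ℝ) 1) (hlt : β τ < α τ) :
    ∃ r c : ℝ, β τ = r * α τ + c * τ ∧ ∀ᶠ τ' in 𝓝 τ, β τ' ≤ r * α τ' + c * τ' := by
  have hcomp : ∀ s : ℝ, (s • ξ₁).comp Λ = s • ξ₁.comp Λ := by
    intro s
    ext v
    simp
  obtain ⟨t, ht, hu⟩ := exit_chord' B.dX B.unit (hm τ hτ).aff
  obtain ⟨t₂, y₂, b, ht₂, hq, hm₂, hid⟩ := B.mate (hm τ hτ) ht hu
  rw [hcomp] at hm₂
  have hb : b = β τ := (hm' τ hτ).val_eq hm₂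
  rw [hb] at hid hm₂
  have ht₂e : chi (g p) (g p - g (p - t • y τ)) = t₂ := by
    rw [hq, map_smul, hm₂.aff, smul_eq_mul, mul_one]
  obtain ⟨W, hW⟩ : ∃ W, W = Λ (g (p - t • y τ)) - (p - t • y τ) := ⟨_, rfl⟩
  rw [← hW] at hid
  simp only [_root_.smul_apply, smul_eq_mul] at hid
  refine ⟨t / t₂, ξ₁ W / t₂, ?_, ?_⟩
  · field_simp
    linarith
  -- the constants
  obtain ⟨e, he⟩ : ∃ e, e = (α τ - β τ) / 2 := ⟨_, rfl⟩
  have he0 : 0 < e := by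
    rw [he]
    linarith
  obtain ⟨M, hM⟩ : ∃ M, M = ‖ξ₁‖ + |β τ| + 1 := ⟨_, rfl⟩
  have hM0 : 0 ≤ M := by
    rw [hM]
    positivity
  obtain ⟨δ, hδ, hb'⟩ := B.radial (e := e) (M := M) ht (hm τ hτ).aff hu he0 hM0
  -- uniqueness at `τ`
  have huniq : ∀ v, chi p v = 1 → ‖v‖ - (τ • ξ₁) v = α τ → v = y τ := by
    intro v hv hval
    refine B.unique_of_lt (hm τ hτ) ht hu (y₂ := y₂) (a₂ := β τ) ?_ ?_ hlt hv hval
    · rw [hcomp]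
      exact hm₂
    · rw [ht₂e, ← hW]
      simp only [_root_.smul_apply, smul_eq_mul]
      exact hid
  obtain ⟨η, hη, hclose⟩ := (hm τ hτ).close huniq hδ
  have hτO : Ioo (0 : ℝ) 1 ∈ 𝓝 τ := isOpen_Ioo.mem_nhds hτ
  have hαC : ContinuousAt α τ := hαc.continuousAt hτO
  have hβC : ContinuousAt β τ := hβc.continuousAt hτO
  have h1 : ∀ᶠ τ' in 𝓝 τ, |β τ'| < |β τ| + 1 :=
    hβC.abs.eventually (gt_mem_nhds (by linarith))
  have h2 : ∀ᶠ τ' in 𝓝 τ, β τ' - α τ' < -e := by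
    have h3 : ContinuousAt (fun s => β s - α s) τ := hβC.sub hαC
    refine h3.eventually (gt_mem_nhds ?_)
    rw [he]
    linarith
  have h3 : ∀ᶠ τ' in 𝓝 τ, ‖τ' • ξ₁ - τ • ξ₁‖ < η := by
    have hc : Continuous fun s : ℝ => ‖s • ξ₁ - τ • ξ₁‖ := by fun_prop
    refine hc.continuousAt.eventually (gt_mem_nhds ?_)
    simpa using hη
  filter_upwards [h1, h2, h3, hτO] with τ' h4 h5 h6 h7
  have hnear := hclose _ _ _ h6 (hm τ' h7)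
  obtain ⟨n, hn0, _, _, hineq⟩ := hb' (τ' • ξ₁) (y τ') (α τ') (y' τ') (β τ')
    (by
      rw [norm_smul, Real.norm_of_nonneg h7.1.le, hM]
      have : τ' * ‖ξ₁‖ ≤ 1 * ‖ξ₁‖ := mul_le_mul_of_nonneg_right h7.2.le (norm_nonneg _)
      linarith [abs_nonneg (β τ)])
    (by
      rw [hM]
      linarith [norm_nonneg ξ₁])
    h5.le hnear (hm τ' h7) (by
      rw [hcomp]
      exact hm' τ' h7)
  rw [ht₂e, ← hW] at hineq
  simp only [_root_.smul_apply, smul_eq_mul] at hineq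
  have h8 : 0 ≤ e / 2 * n := by positivity
  have e1 : t / t₂ * α τ' + ξ₁ W / t₂ * τ' = (t * α τ' + τ' * ξ₁ W) / t₂ := by
    field_simp
  rw [e1, le_div_iff₀ ht₂]
  linarith

/-- Behaviour at the far end of the ray. -/
lemma Bs.lim_one (B : Bs g h p A Λ) {ξ₁ : StrongDual ℝ X} (hξ : ξ₁ p = 0)
    (hb : ∀ w, chi p w = 0 → ξ₁ w ≤ ‖w‖) {k : X} (hk : ‖k‖ = 1) (hk0 : chi p k = 0)
    (hxk : ξ₁ k = 1) {y : ℝ → X} {y' : ℝ → Y} {α β : ℝ → ℝ}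
    (hm : ∀ τ ∈ Ioo (0 : ℝ) 1, Mn (chi p) (τ • ξ₁) (y τ) (α τ))
    (hm' : ∀ τ ∈ Ioo (0 : ℝ) 1, Mn (chi (g p)) (τ • ξ₁.comp Λ) (y' τ) (β τ))
    {e : ℝ} (he : 0 < e) : ∀ᶠ τ in 𝓝[<] (1 : ℝ), α τ - β τ < e := by
  obtain ⟨a₁, ha₁, hd, hne⟩ := top_value B.unit B.phi_self hξ hb
  obtain ⟨v, hv, hvb⟩ := hne (e / 2) (by positivity)
  have hk00 : k ≠ 0 := by
    rintro rfl
    simp at hk
  -- the lower bound on the second value
  have hlow : ∀ τ ∈ Ioo (0 : ℝ) 1, a₁ ≤ β τ := by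
    intro τ hτ
    have h1 := B.D_dual hk0 hk00 (F := ξ₁ + a₁ • chi p) (fun z => by
      simpa [mul_comm] using hd z) (by
      simp [hxk, hk0, hk]) (y' τ)
    simp only [_root_.add_apply, _root_.smul_apply, smul_eq_mul] at h1
    have h2 := (hm' τ hτ).val
    have h3 := (hm' τ hτ).aff
    simp only [_root_.smul_apply, ContinuousLinearMap.comp_apply, smul_eq_mul] at h2
    rw [B.PhiL, h3] at h1
    have h4 := one_le_of_aff (chi_norm_le (g p)) h3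
    have h5 : τ * (ξ₁ (Λ (y' τ)) + a₁ * 1) ≤ τ * ‖y' τ‖ :=
      mul_le_mul_of_nonneg_left h1 hτ.1.le
    have h6 : (1 - τ) * a₁ ≤ (1 - τ) * ‖y' τ‖ :=
      mul_le_mul_of_nonneg_left (by linarith) (by linarith [hτ.2])
    nlinarith
  -- the upper bound on the first value
  have hnear : ∀ᶠ τ in 𝓝[<] (1 : ℝ), 1 - e / (2 * (|ξ₁ v| + 1)) < τ := by
    refine nhdsWithin_le_nhds (lt_mem_nhds ?_)
    have : 0 < e / (2 * (|ξ₁ v| + 1)) := by positivity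
    linarith
  have hpos : ∀ᶠ τ in 𝓝[<] (1 : ℝ), 0 < τ := nhdsWithin_le_nhds (lt_mem_nhds one_pos)
  filter_upwards [hnear, hpos, self_mem_nhdsWithin] with τ h1 h2 h3
  have hτI : τ ∈ Ioo (0 : ℝ) 1 := ⟨h2, h3⟩
  have h4 := (hm τ hτI).le hv
  simp only [_root_.smul_apply, smul_eq_mul] at h4
  have h5 := hlow τ hτI
  have h6 : (1 - τ) * (|ξ₁ v| + 1) < e / 2 := by
    have h7 : 1 - τ < e / (2 * (|ξ₁ v| + 1)) := by linarith
    rw [lt_div_iff₀ (by positivity)] at h7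
    linarith
  have h7 : (1 - τ) * ξ₁ v ≤ (1 - τ) * (|ξ₁ v| + 1) :=
    mul_le_mul_of_nonneg_left (by linarith [le_abs_self (ξ₁ v)]) (by linarith [hτI.2])
  nlinarith

/-- Along a ray, the value of the first problem is at most that of the second. -/
theorem Bs.ray_ge (B : Bs g h p A Λ) {ξ₁ : StrongDual ℝ X} (hξ : ξ₁ p = 0)
    (hb : ∀ w, chi p w = 0 → ξ₁ w ≤ ‖w‖) {k : X} (hk : ‖k‖ = 1) (hk0 : chi p k = 0)
    (hxk : ξ₁ k = 1) {y : ℝ → X} {y' : ℝ → Y} {α β : ℝ → ℝ}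
    (hm : ∀ τ ∈ Ioo (0 : ℝ) 1, Mn (chi p) (τ • ξ₁) (y τ) (α τ))
    (hm' : ∀ τ ∈ Ioo (0 : ℝ) 1, Mn (chi (g p)) (τ • ξ₁.comp Λ) (y' τ) (β τ)) :
    ∀ τ ∈ Ioo (0 : ℝ) 1, α τ ≤ β τ := by
  have hξ' : (ξ₁.comp Λ) (g p) = 0 := by
    simp [B.Lx, hξ]
  have hb' : ∀ w, chi (g p) w = 0 → (ξ₁.comp Λ) w ≤ ‖w‖ := by
    intro w hw
    have h1 := hb (Λ w) (by rw [B.PhiL, hw])
    have h2 := B.normA (w := Λ w) (by rw [B.PhiL, hw])
    rw [B.right] at h2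
    simp only [ContinuousLinearMap.comp_apply]
    rw [h2]
    exact h1
  have hk00 : k ≠ 0 := by
    rintro rfl
    simp at hk
  have hAk : ‖A k‖ = 1 := by rw [B.normA hk0, hk]
  have hAk0 : chi (g p) (A k) = 0 := by rw [B.Phi, hk0]
  have hxAk : (ξ₁.comp Λ) (A k) = 1 := by
    simp [B.left, hxk]
  have hαc := ray_cont' B.unit B.phi_self hξ hb hm
  have hβc := ray_cont' B.y_unit B.Phi_self hξ' hb' hm'
  have hcomp : (ξ₁.comp Λ).comp A = ξ₁ := by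
    ext v
    simp [B.left]
  refine ray_lemma hαc hβc (ray_anti' hm) ?_ ?_ (fun τ hτ hlt => B.ray_loc hm hm' hαc hβc hτ hlt)
  · have h1 := ray_limit_zero' B.unit B.phi_self (chi_norm_le p) hξ
      (fun z hz hφ => B.exposes_phi hz hφ) hm
    have h2 := ray_limit_zero' B.y_unit B.Phi_self (chi_norm_le (g p)) hξ'
      (fun z hz hφ => B.exposes_Phi hz hφ) hm'
    have h3 := h2.sub h1
    rw [sub_self] at h3
    refine h3.congr fun τ => ?_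
    ring
  · have hA : ∀ e : ℝ, 0 < e → ∀ᶠ τ in 𝓝[<] (1 : ℝ), α τ - β τ < e := fun e he =>
      B.lim_one hξ hb hk hk0 hxk hm hm' he
    have hB : ∀ e : ℝ, 0 < e → ∀ᶠ τ in 𝓝[<] (1 : ℝ), β τ - α τ < e := fun e he => by
      refine B.symm.lim_one (ξ₁ := ξ₁.comp Λ) hξ' hb' hAk hAk0 hxAk (y := y') (y' := y)
        (α := β) (β := α) hm' ?_ he
      intro s hs
      rw [hcomp, B.hgx]
      exact hm s hs
    have h1 : Tendsto (fun τ : ℝ => β τ - α τ) (𝓝[<] 1) (𝓝 0) := by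
      rw [Metric.tendsto_nhds]
      intro e he
      filter_upwards [hA e he, hB e he] with τ h2 h3
      rw [Real.dist_eq, sub_zero, abs_lt]
      constructor <;> linarith
    have h2 := h1.div (tendsto_id.mono_left nhdsWithin_le_nhds) one_ne_zero
    rw [zero_div] at h2
    exact h2

/-- Along a ray, both values coincide. -/
theorem Bs.ray_eq (B : Bs g h p A Λ) {ξ₁ : StrongDual ℝ X} (hξ : ξ₁ p = 0)
    (hb : ∀ w, chi p w = 0 → ξ₁ w ≤ ‖w‖) {k : X} (hk : ‖k‖ = 1) (hk0 : chi p k = 0)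
    (hxk : ξ₁ k = 1) {y : ℝ → X} {y' : ℝ → Y} {α β : ℝ → ℝ}
    (hm : ∀ τ ∈ Ioo (0 : ℝ) 1, Mn (chi p) (τ • ξ₁) (y τ) (α τ))
    (hm' : ∀ τ ∈ Ioo (0 : ℝ) 1, Mn (chi (g p)) (τ • ξ₁.comp Λ) (y' τ) (β τ)) :
    ∀ τ ∈ Ioo (0 : ℝ) 1, α τ = β τ := by
  intro τ hτ
  refine le_antisymm (B.ray_ge hξ hb hk hk0 hxk hm hm' τ hτ) ?_
  have hcomp : (ξ₁.comp Λ).comp A = ξ₁ := by
    ext v
    simp [B.left]
  refine B.symm.ray_ge (ξ₁ := ξ₁.comp Λ) (k := A k) (by simp [B.Lx, hξ]) ?_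
    (by rw [B.normA hk0, hk]) (by rw [B.Phi, hk0]) (by simp [B.left, hxk]) (y := y') (y' := y)
    (α := β) (β := α) hm' ?_ τ hτ
  · intro w hw
    have h1 := hb (Λ w) (by rw [B.PhiL, hw])
    have h2 := B.normA (w := Λ w) (by rw [B.PhiL, hw])
    rw [B.right] at h2
    simp only [ContinuousLinearMap.comp_apply]
    rw [h2]
    exact h1
  · intro s hs
    rw [hcomp, B.hgx]
    exact hm s hs

end RayB

end Vale.Agent.Lib.P084.Thm
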