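import Mathlib
import Vale.Agent.Lib.P084.Thm.Ray
import Vale.Agent.Lib.P084.Cartan.Main

/-! **Every finite-dimensional normed space of dimension at least three has the Mazur-Ulam
property.** -/

namespace Vale.Agent.Lib.P084.Thm

open Set Metric Filter Topology
open Vale.Agent.Lib.P084 Vale.Agent.Lib.P084.Str Vale.Agent.Lib.P084.Dens

section Conv

variable {E : Type*} [NormedAddCommGroup E] [NormedSpace ℝ E]

/-- Nonzero points of finite second difference are points of differentiability. -/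
lemma diff_of_reg {z : E} (hz : z ≠ 0) (hR : Far.Reg z) :
    DifferentiableAt ℝ (fun y : E => ‖y‖) z := by
  have hn : 0 < ‖z‖ := norm_pos_iff.2 hz
  have h1 : DifferentiableAt ℝ (fun y : E => ‖y‖) (‖z‖⁻¹ • z) :=
    reg_differentiable (unit_of_ne hz) (hR.smul (inv_ne_zero hn.ne'))
  have h2 := (h1.hasFDerivAt.hasFDerivAt_norm_smul_pos hn).differentiableAt
  rwa [smul_smul, mul_inv_cancel₀ hn.ne', one_smul] at h2

end Conv

section Main

variable {X Y : Type*} [NormedAddCommGroup X] [NormedSpace ℝ X]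
  [NormedAddCommGroup Y] [NormedSpace ℝ Y] {g : X → Y} {h : Y → X} {p : X} {A : X →L[ℝ] Y}
  {Λ : Y →L[ℝ] X} [FiniteDimensional ℝ X] [FiniteDimensional ℝ Y]

/-- The first order relation along a chord. -/
lemma Bs.chord_tangent (B : Bs g h p A Λ) {u : X} {ψ : StrongDual ℝ X} {Ψ : StrongDual ℝ Y}
    (hc : Far.IsChord g p u ψ Ψ) {w : X} (hw : chi p w = 0) : Ψ (A w) = ψ w := by
  have hne : u ≠ p := by
    rintro rfl
    have := hc.mid
    rw [← two_smul ℝ u, norm_smul, hc.unit] at this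
    norm_num at this
  have hq : p - u ≠ 0 := sub_ne_zero.2 hne.symm
  have hq' : g p - g u ≠ 0 := by
    rw [← norm_ne_zero_iff, B.iso.iso _ _ B.unit hc.unit, norm_ne_zero_iff]
    exact hq
  have hd := diff_of_reg hq hc.regX
  have hd' := diff_of_reg hq' hc.regY
  have h1 := first_chord' B.iso B.dX B.unit B.Ax B.bigO hc.unit hw hd hd'
  have h2 : chi (p - u) = ψ :=
    functional_eq_of_differentiableAt hd (chi_norm_le _) hc.φle hd.fderiv_norm_self hc.φval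
  have h3 : chi (g p - g u) = Ψ :=
    functional_eq_of_differentiableAt hd' (chi_norm_le _) hc.Φle hd'.fderiv_norm_self hc.Φval
  rwa [h2, h3] at h1

/-- The values of a strict sub-top functional agree. -/
lemma Bs.kappa_of_ray (B : Bs g h p A Λ) {ξ : StrongDual ℝ X} {y₁ : X} {y₂ : Y} {a₁ a₂ : ℝ}
    (hm₁ : Mn (chi p) ξ y₁ a₁) (hm₂ : Mn (chi (g p)) (ξ.comp Λ) y₂ a₂) (hξ : ξ p = 0) {τ : ℝ}
    (hτ0 : 0 < τ) (hτ1 : τ < 1) {k : X} (hk : ‖k‖ = 1) (hk0 : chi p k = 0) (hxk : ξ k = τ)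
    (hb : ∀ w, chi p w = 0 → ξ w ≤ τ * ‖w‖) : a₁ = a₂ := by
  obtain ⟨ξ₁, hξ₁⟩ : ∃ ξ₁, ξ₁ = τ⁻¹ • ξ := ⟨_, rfl⟩
  have hτξ : τ • ξ₁ = ξ := by
    rw [hξ₁, smul_smul, mul_inv_cancel₀ hτ0.ne', one_smul]
  have hξ₁p : ξ₁ p = 0 := by
    rw [hξ₁, _root_.smul_apply, hξ, smul_zero]
  have hξ₁k : ξ₁ k = 1 := by
    rw [hξ₁, _root_.smul_apply, hxk, smul_eq_mul, inv_mul_cancel₀ hτ0.ne']
  have hb₁ : ∀ w, chi p w = 0 → ξ₁ w ≤ ‖w‖ := by
    intro w hw
    have h1 := hb w hw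
    rw [hξ₁, _root_.smul_apply, smul_eq_mul]
    have h2 : τ⁻¹ * ξ w ≤ τ⁻¹ * (τ * ‖w‖) := mul_le_mul_of_nonneg_left h1 (by positivity)
    rwa [← mul_assoc, inv_mul_cancel₀ hτ0.ne', one_mul] at h2
  have hex₁ : ∀ s : ℝ, ∃ q : X × ℝ, s ∈ Ioo (0 : ℝ) 1 → Mn (chi p) (s • ξ₁) q.1 q.2 := by
    intro s
    by_cases hs : s ∈ Ioo (0 : ℝ) 1
    · obtain ⟨y, a, hm⟩ := exists_Mn (ξ := s • ξ₁) B.unit B.phi_self (by simp [hξ₁p]) (θ := s) hs.2
        (fun w hw => by
          simp only [_root_.smul_apply, smul_eq_mul]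
          exact mul_le_mul_of_nonneg_left (hb₁ w hw) hs.1.le)
      exact ⟨⟨y, a⟩, fun _ => hm⟩
    · exact ⟨⟨0, 0⟩, fun h0 => absurd h0 hs⟩
  have hex₂ : ∀ s : ℝ, ∃ q : Y × ℝ, s ∈ Ioo (0 : ℝ) 1 →
      Mn (chi (g p)) (s • ξ₁.comp Λ) q.1 q.2 := by
    intro s
    by_cases hs : s ∈ Ioo (0 : ℝ) 1
    · obtain ⟨y, a, hm⟩ := exists_Mn (ξ := s • ξ₁.comp Λ) B.y_unit B.Phi_self
        (by simp [hξ₁p, B.Lx]) (θ := s) hs.2
        (fun w hw => by
          simp only [_root_.smul_apply, ContinuousLinearMap.comp_apply, smul_eq_mul]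
          have h1 : chi p (Λ w) = 0 := by rw [B.PhiL, hw]
          have h2 := B.normA h1
          rw [B.right] at h2
          rw [h2]
          exact mul_le_mul_of_nonneg_left (hb₁ _ h1) hs.1.le)
      exact ⟨⟨y, a⟩, fun _ => hm⟩
    · exact ⟨⟨0, 0⟩, fun h0 => absurd h0 hs⟩
  choose q₁ hq₁ using hex₁
  choose q₂ hq₂ using hex₂
  have hτI : τ ∈ Ioo (0 : ℝ) 1 := ⟨hτ0, hτ1⟩
  have heq := B.ray_eq hξ₁p hb₁ hk hk0 hξ₁k (y := fun s => (q₁ s).1) (α := fun s => (q₁ s).2)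
    (y' := fun s => (q₂ s).1) (β := fun s => (q₂ s).2) hq₁ hq₂ τ hτI
  have h1 := hq₁ τ hτI
  have h2 := hq₂ τ hτI
  rw [hτξ] at h1
  have hcomp : τ • ξ₁.comp Λ = ξ.comp Λ := by
    rw [← hτξ]
    ext v
    simp
  rw [hcomp] at h2
  have h3 := hm₁.val_eq h1
  have h4 := hm₂.val_eq h2
  rw [← h3, ← h4]
  exact heq

/-- **The relation in the direction of the base point.** -/
theorem Bs.kappa (B : Bs g h p A Λ) (hdim : 2 ≤ Module.finrank ℝ X) {u : X} {ψ : StrongDual ℝ X}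
    {Ψ : StrongDual ℝ Y} (hc : Far.IsChord g p u ψ Ψ) : Ψ (g p) = ψ p := by
  have hne : u ≠ p := by
    rintro rfl
    have := hc.mid
    rw [← two_smul ℝ u, norm_smul, hc.unit] at this
    norm_num at this
  have hψle : ∀ v, ψ v ≤ ‖v‖ := fun v => by
    have h1 : ψ v ≤ ‖ψ‖ * ‖v‖ := (le_abs_self _).trans (ψ.le_opNorm v)
    have h2 : ‖ψ‖ * ‖v‖ ≤ 1 * ‖v‖ := mul_le_mul_of_nonneg_right hc.φle (norm_nonneg v)
    linarith
  have hΨle : ∀ v, Ψ v ≤ ‖v‖ := fun v => by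
    have h1 : Ψ v ≤ ‖Ψ‖ * ‖v‖ := (le_abs_self _).trans (Ψ.le_opNorm v)
    have h2 : ‖Ψ‖ * ‖v‖ ≤ 1 * ‖v‖ := mul_le_mul_of_nonneg_right hc.Φle (norm_nonneg v)
    linarith
  obtain ⟨ξ, hξd⟩ : ∃ ξ, ξ = ψ - ψ p • chi p := ⟨_, rfl⟩
  have hξv : ∀ v, ψ v = ξ v + ψ p * chi p v := by
    intro v
    rw [hξd]
    simp
  have hξp : ξ p = 0 := by
    have := hξv p
    rw [B.phi_self] at this
    linarith
  have hξw : ∀ w, chi p w = 0 → ξ w = ψ w := by
    intro w hw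
    have := hξv w
    rw [hw] at this
    linarith
  have hΨv : ∀ v, Ψ v = ξ (Λ v) + Ψ (g p) * chi (g p) v := by
    intro v
    obtain ⟨w, hw⟩ : ∃ w, w = Λ v - chi p (Λ v) • p := ⟨_, rfl⟩
    have hw0 : chi p w = 0 := by
      rw [hw, map_sub, map_smul, B.phi_self]
      simp
    have h1 := B.chord_tangent hc hw0
    have e1 : A w = v - chi p (Λ v) • g p := by
      rw [hw, map_sub, map_smul, B.right, B.Ax]
    rw [e1, map_sub, map_smul, ← hξw w hw0, hw, map_sub, map_smul, hξp, B.PhiL] at h1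
    simp only [smul_eq_mul, mul_zero, sub_zero] at h1
    linarith
  -- the two minimisers
  have hφu : chi p u < 1 := by
    refine lt_of_le_of_ne ?_ fun h0 => hne (B.exposes_phi hc.unit h0)
    have := chi_le p u
    rwa [hc.unit] at this
  obtain ⟨t, ht⟩ : ∃ t, t = chi p (p - u) := ⟨_, rfl⟩
  have ht0 : 0 < t := by
    rw [ht, map_sub, B.phi_self]
    linarith
  have hgu := B.iso.map_g u hc.unit
  have hΦu : chi (g p) (g u) < 1 := by
    refine lt_of_le_of_ne ?_ fun h0 => hne ?_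
    · have := chi_le (g p) (g u)
      rwa [hgu] at this
    · have h1 := B.exposes_Phi hgu h0
      have h2 := congrArg h h1
      rwa [B.iso.left _ hc.unit, B.iso.left _ B.unit] at h2
  obtain ⟨t₂, ht₂⟩ : ∃ t₂, t₂ = chi (g p) (g p - g u) := ⟨_, rfl⟩
  have ht₂0 : 0 < t₂ := by
    rw [ht₂, map_sub, B.Phi_self]
    linarith
  obtain ⟨y₁, hy₁⟩ : ∃ y₁, y₁ = t⁻¹ • (p - u) := ⟨_, rfl⟩
  obtain ⟨y₂, hy₂⟩ : ∃ y₂, y₂ = t₂⁻¹ • (g p - g u) := ⟨_, rfl⟩
  have hy₁a : chi p y₁ = 1 := by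
    rw [hy₁, map_smul, ← ht, smul_eq_mul, inv_mul_cancel₀ ht0.ne']
  have hy₂a : chi (g p) y₂ = 1 := by
    rw [hy₂, map_smul, ← ht₂, smul_eq_mul, inv_mul_cancel₀ ht₂0.ne']
  have hψy : ψ y₁ = ‖y₁‖ := by
    rw [hy₁, map_smul, hc.φval, norm_smul, norm_inv, Real.norm_of_nonneg ht0.le, smul_eq_mul]
  have hΨy : Ψ y₂ = ‖y₂‖ := by
    rw [hy₂, map_smul, hc.Φval, norm_smul, norm_inv, Real.norm_of_nonneg ht₂0.le, smul_eq_mul]
  have hm₁ : Mn (chi p) ξ y₁ (ψ p) := by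
    refine Mn.of_dual hy₁a (fun v => ?_) ?_
    · rw [← hξv]
      exact hψle v
    · have := hξv y₁
      rw [hy₁a, hψy] at this
      linarith
  have hm₂ : Mn (chi (g p)) (ξ.comp Λ) y₂ (Ψ (g p)) := by
    refine Mn.of_dual hy₂a (fun v => ?_) ?_
    · simp only [ContinuousLinearMap.comp_apply]
      rw [← hΨv]
      exact hΨle v
    · have := hΨv y₂
      rw [hy₂a, hΨy] at this
      simp only [ContinuousLinearMap.comp_apply]
      linarith
  -- the top of the functional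
  have hfr : 1 ≤ Module.finrank ℝ (Tan p) := by
    have h1 := LinearMap.finrank_range_add_finrank_ker ((chi p : X →L[ℝ] ℝ) : X →ₗ[ℝ] ℝ)
    have h2 : Module.finrank ℝ (LinearMap.range ((chi p : X →L[ℝ] ℝ) : X →ₗ[ℝ] ℝ)) ≤
        Module.finrank ℝ ℝ := Submodule.finrank_le _
    rw [Module.finrank_self] at h2
    have h3 : Module.finrank ℝ (Tan p) =
        Module.finrank ℝ (LinearMap.ker ((chi p : X →L[ℝ] ℝ) : X →ₗ[ℝ] ℝ)) := rfl
    omega
  have : Nontrivial (Tan p) := Module.nontrivial_of_finrank_pos (R := ℝ) (by omega)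
  obtain ⟨v₀, hv₀⟩ := exists_ne (0 : Tan p)
  have hv₀' : (v₀ : X) ≠ 0 := fun h0 => hv₀ (Subtype.ext h0)
  let S : Set X := sphere (0 : X) 1 ∩ {v | chi p v = 0}
  have hSc : IsCompact S :=
    (isCompact_sphere _ _).inter_right (isClosed_eq (chi p).continuous continuous_const)
  have hSne : S.Nonempty := by
    refine ⟨‖(v₀ : X)‖⁻¹ • (v₀ : X), by simpa using unit_of_ne hv₀', ?_⟩
    have h1 : chi p (v₀ : X) = 0 := mem_Tan.1 v₀.2
    simp [h1]
  obtain ⟨k, hkS, hkmax⟩ := hSc.exists_isMaxOn hSne ξ.continuous.continuousOn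
  have hk : ‖k‖ = 1 := by simpa using hkS.1
  have hk0 : chi p k = 0 := hkS.2
  have hk00 : k ≠ 0 := by
    rintro rfl
    simp at hk
  obtain ⟨τ, hτ⟩ : ∃ τ, τ = ξ k := ⟨_, rfl⟩
  have hS : ∀ v, ‖v‖ = 1 → chi p v = 0 → ξ v ≤ τ := by
    intro v hv1 hv2
    rw [hτ]
    exact hkmax ⟨by simpa using hv1, hv2⟩
  have hb : ∀ w, chi p w = 0 → ξ w ≤ τ * ‖w‖ := by
    intro w hw
    by_cases hw0 : w = 0
    · simp [hw0]
    have hn : 0 < ‖w‖ := norm_pos_iff.2 hw0
    have h1 := hS (‖w‖⁻¹ • w) (unit_of_ne hw0) (by simp [hw])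
    rw [map_smul, smul_eq_mul, inv_mul_le_iff₀ hn] at h1
    linarith
  have hτ0 : 0 ≤ τ := by
    have h1 := hS (-k) (by rw [norm_neg, hk]) (by rw [map_neg, hk0, neg_zero])
    rw [map_neg, ← hτ] at h1
    linarith
  have hτ1 : τ ≤ 1 := by
    have h1 := hψle k
    rw [← hξw k hk0, ← hτ, hk] at h1
    exact h1
  rcases hτ0.eq_or_lt with h0 | h0
  · -- the zero functional
    have hzero : ξ = 0 := by
      ext v
      obtain ⟨w, hw⟩ : ∃ w, w = v - chi p v • p := ⟨_, rfl⟩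
      have hw0 : chi p w = 0 := by
        rw [hw, map_sub, map_smul, B.phi_self]
        simp
      have h1 := hb w hw0
      have h2 := hb (-w) (by rw [map_neg, hw0, neg_zero])
      rw [← h0, zero_mul] at h1 h2
      rw [map_neg] at h2
      have h3 : ξ w = ξ v := by
        rw [hw, map_sub, map_smul, hξp]
        simp
      rw [h3] at h1 h2
      simp only [_root_.zero_apply]
      linarith
    rw [hzero] at hm₁ hm₂
    have e1 : (0 : StrongDual ℝ X).comp Λ = 0 := by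
      ext v
      simp
    rw [e1] at hm₂
    have h1 := hm₁.val_eq (Mn.base B.unit B.phi_self (chi_norm_le p))
    have h2 := hm₂.val_eq (Mn.base B.y_unit B.Phi_self (chi_norm_le (g p)))
    rw [← h1, ← h2]
  rcases hτ1.eq_or_lt with h1 | h1
  · -- the top functional
    have hψk : ψ k = 1 := by
      rw [← hξw k hk0, ← hτ, h1]
    have h2 := B.D_dual hk0 hk00 (F := ψ) hψle (by rw [hψk, hk]) y₂
    rw [hξv, B.PhiL, hy₂a] at h2
    have h3 := hm₂.val
    simp only [ContinuousLinearMap.comp_apply] at h3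
    have h4 := B.D_dual' hk0 hk00 (F := Ψ) hΨle (by rw [B.chord_tangent hc hk0, hψk, hk]) y₁
    rw [hΨv, B.left, B.Phi, hy₁a] at h4
    have h5 := hm₁.val
    linarith
  · exact (B.kappa_of_ray hm₁ hm₂ hξp h0 h1 hk hk0 hτ.symm hb).symm

/-- **The exact relation at a base point.** -/
theorem Bs.exact (B : Bs g h p A Λ) (hdim : 2 ≤ Module.finrank ℝ X) : Cartan.Exact g p A := by
  intro u ψ Ψ hc z
  have h1 := B.kappa hdim hc
  obtain ⟨w, hw⟩ : ∃ w, w = z - chi p z • p := ⟨_, rfl⟩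
  have hw0 : chi p w = 0 := by
    rw [hw, map_sub, map_smul, B.phi_self]
    simp
  have h2 := B.chord_tangent hc hw0
  rw [hw, map_sub, map_sub, map_sub, map_smul, map_smul, map_smul, B.Ax, h1] at h2
  simp only [smul_eq_mul] at h2
  linarith

variable [Nontrivial X] [Nontrivial Y]

/-- **The exact relation at a good point.** -/
theorem exists_exact_of_good (H : SphereIso g h) {BB : X →L[ℝ] X →L[ℝ] Y}
    {HH : X →L[ℝ] X →L[ℝ] ℝ} (P : Good g p A BB HH) (hdim : 3 ≤ Module.finrank ℝ X) :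
    ∃ L, Cartan.Exact g p L := by
  by_cases hY : Far.Reg (g p)
  · obtain ⟨Λ, T⟩ := tb_of_good H P hY
    exact ⟨A, (T.toBs hdim).exact (by omega)⟩
  · have hu := P.unit
    obtain ⟨L', hL'⟩ := Far.exists_exact H.symm (H.map_g p hu) hY
    obtain ⟨L, hE⟩ := Cartan.exists_ex H.symm (H.map_g p hu) hL'
    have h1 := (hE.symm H.symm).ex
    rw [H.left p hu] at h1
    exact ⟨L, h1⟩

end Main

section Final

variable {X Y : Type*} [NormedAddCommGroup X] [NormedSpace ℝ X]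
  [NormedAddCommGroup Y] [NormedSpace ℝ Y]

/-- **Every finite-dimensional normed space of dimension at least three has the Mazur-Ulam
property.** -/
theorem mazur_ulam [FiniteDimensional ℝ X] (hdim : 3 ≤ Module.finrank ℝ X)
    (f : sphere (0 : X) 1 ≃ᵢ sphere (0 : Y) 1) :
    ∃ T : X ≃ₗᵢ[ℝ] Y, ∀ x : sphere (0 : X) 1, T x = f x := by
  have : Nontrivial X := Module.nontrivial_of_finrank_pos (R := ℝ) (by omega)
  have : FiniteDimensional ℝ Y := finiteDimensional_of_sphere f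
  obtain ⟨g, h, H, hgf⟩ := exists_sphereIso f
  obtain ⟨x₁, hx₁⟩ : ∃ x₁ : X, ‖x₁‖ = 1 := exists_norm_eq X zero_le_one
  have : Nontrivial Y := by
    refine ⟨⟨g x₁, 0, fun h0 => ?_⟩⟩
    have := H.map_g x₁ hx₁
    rw [h0, norm_zero] at this
    exact zero_ne_one this
  refine Cartan.linear_of_exact (by omega) f H hgf fun e he ρ hρ => ?_
  have hcl := extreme_subset_closure_exposed he
  obtain ⟨q, hq, hqe⟩ := Metric.mem_closure_iff.1 hcl (ρ / 2) (by positivity)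
  obtain ⟨hqn, ψ₀, hψ₀, hψq, hexp⟩ := hq
  obtain ⟨p, hp, hpq, hor⟩ := exists_good_or_rough H hqn hψ₀ hψq hexp (half_pos hρ)
  refine ⟨p, hp, ?_, ?_⟩
  · rw [dist_eq_norm, norm_sub_rev] at hqe
    have e1 : p - e = (p - q) + (q - e) := by abel
    rw [e1]
    refine (norm_add_le _ _).trans_lt ?_
    linarith
  · rcases hor with hR | ⟨A, BB, HH, hG⟩
    · exact Far.exists_exact H hp hR
    · exact exists_exact_of_good H hG hdim

end Final

end Vale.Agent.Lib.P084.Thm
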